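/-
Local Mazur-Ulam: an isometry of a closed ball onto a closed ball of the same radius preserves
midpoints of pairs close to the centre; consequently it is, near the centre, the restriction of a
linear isometry of the whole space. Also: isometric self maps of compact sets are onto.
-/
import Mathlib

set_option linter.unusedSectionVars false

namespace Vale.Agent.Lib.P084.NS

variable {V V' : Type*} [NormedAddCommGroup V] [NormedSpace ℝ V] [NormedAddCommGroup V']
  [NormedSpace ℝ V']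

/-- `g` is an isometry of the closed ball `B(z,r)` onto the closed ball `B(g z,r)`. -/
structure BallIso (g : V → V') (z : V) (r : ℝ) : Prop where
  iso : ∀ x, ‖x - z‖ ≤ r → ∀ y, ‖y - z‖ ≤ r → ‖g x - g y‖ = ‖x - y‖
  onto : ∀ y, ‖y - g z‖ ≤ r → ∃ x, ‖x - z‖ ≤ r ∧ g x = y

private lemma norm_dbl (u : V') : ‖u + u‖ = 2 * ‖u‖ := by
  rw [← two_smul ℝ u, norm_smul]; simp

private lemma scale_bound {W : Type*} [NormedAddCommGroup W] [NormedSpace ℝ W] (ρ : ℝ) (v : W)
    (k : ℕ) (hv : ‖v‖ ≤ 2 ^ k * ρ) : ‖((1 / 2 : ℝ) ^ k) • v‖ ≤ ρ := by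
  rw [norm_smul, norm_pow]
  have h2 : (0 : ℝ) < 2 ^ k := by positivity
  have : ‖(1 / 2 : ℝ)‖ ^ k = 1 / 2 ^ k := by
    rw [Real.norm_eq_abs, abs_of_pos (by norm_num), one_div, inv_pow, one_div]
  rw [this, div_mul_eq_mul_div, one_mul, div_le_iff₀ h2]
  linarith

/-- One reflection step. -/
lemma BallIso.step {g : V → V'} {z : V} {R : ℝ} (hg : BallIso g z R) (hR : 0 ≤ R) (c : V') :
    ∃ φ : V → V, BallIso φ z (R - 2 * ‖g z - c‖) ∧ (0 ≤ R - 2 * ‖g z - c‖ → ‖φ z - z‖ = 2 * ‖g z - c‖) ∧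
      ∀ a b, ‖a - z‖ ≤ R → ‖b - z‖ ≤ R → a + b = z + z → g a + g b = c + c → φ a = a := by
  classical
  have hz : ‖z - z‖ ≤ R := by simpa using hR
  have hgi : ∀ y, ∃ x, ‖y - g z‖ ≤ R → ‖x - z‖ ≤ R ∧ g x = y := by
    intro y
    by_cases hy : ‖y - g z‖ ≤ R
    · obtain ⟨x, hx, hgx⟩ := hg.onto y hy
      exact ⟨x, fun _ => ⟨hx, hgx⟩⟩
    · exact ⟨z, fun h => absurd h hy⟩
  choose gi hgi using hgi
  set d := ‖g z - c‖ with hd
  have hinv : ∀ x, ‖x - z‖ ≤ R → gi (g x) = x := by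
    intro x hx
    have hgx : ‖g x - g z‖ ≤ R := by rw [hg.iso x hx z hz]; exact hx
    obtain ⟨h1, h2⟩ := hgi _ hgx
    have := hg.iso _ h1 x hx
    rw [h2, sub_self, norm_zero] at this
    exact (sub_eq_zero.mp (norm_eq_zero.mp this.symm))
  -- the reflected point stays in the ball
  have hrefl : ∀ x, ‖x - z‖ ≤ R - 2 * d → ‖(c + c - g x) - g z‖ ≤ R := by
    intro x hx
    have hx' : ‖x - z‖ ≤ R := by
      have : 0 ≤ d := norm_nonneg _
      linarith
    have e : (c + c - g x) - g z = (g z - g x) - ((g z - c) + (g z - c)) := by abel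
    rw [e]
    calc _ ≤ ‖g z - g x‖ + ‖(g z - c) + (g z - c)‖ := norm_sub_le _ _
      _ = ‖z - x‖ + 2 * d := by rw [hg.iso z hz x hx', norm_dbl]
      _ = ‖x - z‖ + 2 * d := by rw [norm_sub_rev]
      _ ≤ R := by linarith
  refine ⟨fun x => z + z - gi (c + c - g x), ⟨?_, ?_⟩, ?_, ?_⟩
  · intro x hx y hy
    obtain ⟨h1, h2⟩ := hgi _ (hrefl x hx)
    obtain ⟨h3, h4⟩ := hgi _ (hrefl y hy)
    have hd0 : 0 ≤ d := norm_nonneg _
    have hx' : ‖x - z‖ ≤ R := by linarith
    have hy' : ‖y - z‖ ≤ R := by linarith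
    show ‖(z + z - gi (c + c - g x)) - (z + z - gi (c + c - g y))‖ = _
    have e : (z + z - gi (c + c - g x)) - (z + z - gi (c + c - g y))
        = gi (c + c - g y) - gi (c + c - g x) := by abel
    have e2 : (c + c - g y) - (c + c - g x) = g x - g y := by abel
    rw [e, ← hg.iso _ h3 _ h1, h2, h4, e2, hg.iso x hx' y hy']
  · intro w hw
    -- centre of the image
    have hd0 : 0 ≤ d := norm_nonneg _
    by_cases hpos : 0 ≤ R - 2 * d
    · have hz' : ‖z - z‖ ≤ R - 2 * d := by simpa using hpos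
      obtain ⟨h1, h2⟩ := hgi _ (hrefl z hz')
      set c0 := gi (c + c - g z) with hc0
      have hc0z : ‖c0 - z‖ = 2 * d := by
        rw [← hg.iso _ h1 z hz, h2]
        have e : c + c - g z - g z = -((g z - c) + (g z - c)) := by abel
        rw [e, norm_neg, norm_dbl]
      set x2 := z + z - w with hx2
      have hx2c : ‖x2 - c0‖ ≤ R - 2 * d := by
        have e : x2 - c0 = (z + z - c0) - w := by rw [hx2]; abel
        rw [e, norm_sub_rev]
        exact hw
      have hx2z : ‖x2 - z‖ ≤ R := by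
        have e : x2 - z = (x2 - c0) + (c0 - z) := by abel
        rw [e]
        calc _ ≤ ‖x2 - c0‖ + ‖c0 - z‖ := norm_add_le _ _
          _ ≤ R := by rw [hc0z]; linarith
      have hy : ‖(c + c - g x2) - g z‖ ≤ R - 2 * d := by
        have e : (c + c - g x2) - g z = g c0 - g x2 := by rw [h2]; abel
        rw [e, hg.iso c0 h1 x2 hx2z, norm_sub_rev]
        exact hx2c
      obtain ⟨x, hx, hgx⟩ := hg.onto _ (hy.trans (by linarith))
      refine ⟨x, ?_, ?_⟩
      · rw [← hg.iso x hx z hz, hgx]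
        exact hy
      · show z + z - gi (c + c - g x) = w
        rw [hgx]
        have e : c + c - (c + c - g x2) = g x2 := by abel
        rw [e, hinv x2 hx2z, hx2]
        abel
    · exfalso
      exact hpos ((norm_nonneg _).trans hw)
  · intro hpos
    have hz' : ‖z - z‖ ≤ R - 2 * d := by simpa using hpos
    obtain ⟨h1, h2⟩ := hgi _ (hrefl z hz')
    show ‖(z + z - gi (c + c - g z)) - z‖ = _
    have e : (z + z - gi (c + c - g z)) - z = z - gi (c + c - g z) := by abel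
    rw [e, ← hg.iso z hz _ h1, h2]
    have e2 : g z - (c + c - g z) = (g z - c) + (g z - c) := by abel
    rw [e2, norm_dbl]
  · intro a b ha hb hab hgab
    show z + z - gi (c + c - g a) = a
    have e : c + c - g a = g b := by rw [← hgab]; abel
    rw [e, hinv b hb, ← hab]
    abel

/-- Midpoints near the centre are preserved. -/
theorem BallIso.map_center {g : V → V'} {z : V} {R : ℝ} (hg : BallIso g z R) {a b : V}
    (hab : a + b = z + z) (hR : 9 * ‖a - z‖ ≤ R) :
    g a + g b = g z + g z := by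
  have hh : 0 ≤ ‖a - z‖ := norm_nonneg _
  set h := ‖a - z‖ with hh'
  have hbz : ‖b - z‖ = h := by
    have : b - z = -(a - z) := by
      have : b = z + z - a := by rw [← hab]; abel
      rw [this]; abel
    rw [this, norm_neg]
  have ha' : ‖a - z‖ ≤ R := by linarith
  have hb' : ‖b - z‖ ≤ R := by rw [hbz]; linarith
  have hz : ‖z - z‖ ≤ R := by simp; linarith
  -- the midpoint in the target
  set c : V' := (1 / 2 : ℝ) • (g a + g b) with hc
  have hcc : c + c = g a + g b := by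
    rw [hc, ← add_smul]; norm_num
  set δ := ‖g z - c‖ with hδ
  have hδ0 : 0 ≤ δ := norm_nonneg _
  have hδh : δ ≤ h := by
    have e : g z - c = (1 / 2 : ℝ) • ((g z - g a) + (g z - g b)) := by
      rw [hc]; module
    rw [hδ, e, norm_smul]
    have h1 : ‖g z - g a‖ = h := by rw [hg.iso z hz a ha', norm_sub_rev]
    have h2 : ‖g z - g b‖ = h := by rw [hg.iso z hz b hb', norm_sub_rev, hbz]
    have h3 : ‖(g z - g a) + (g z - g b)‖ ≤ h + h := by
      calc _ ≤ ‖g z - g a‖ + ‖g z - g b‖ := norm_add_le _ _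
        _ = _ := by rw [h1, h2]
    norm_num
    linarith
  by_cases hδpos : δ = 0
  · have : g z = c := sub_eq_zero.mp (norm_eq_zero.mp hδpos)
    rw [this, hcc]
  exfalso
  have hδp : 0 < δ := lt_of_le_of_ne hδ0 (Ne.symm hδpos)
  -- iterate
  have key : ∀ k : ℕ, ∃ φ : V → V, BallIso φ z (R + 2 * δ - 2 * (2 ^ (k + 1) * δ)) ∧
      φ a = a ∧ φ b = b ∧ ‖φ z - z‖ = 2 ^ (k + 1) * δ ∧
      h ≤ R + 2 * δ - 2 * (2 ^ (k + 1) * δ) := by
    intro k
    induction k with
    | zero =>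
      have hR0 : 0 ≤ R := by linarith
      obtain ⟨φ, h1, h2, h3⟩ := hg.step hR0 c
      refine ⟨φ, ?_, ?_, ?_, ?_, ?_⟩
      · convert h1 using 1
        ring
      · exact h3 a b ha' hb' hab (by rw [hcc])
      · exact h3 b a hb' ha' (by rw [add_comm]; exact hab) (by rw [add_comm, hcc])
      · rw [h2 (by linarith)]
        ring
      · norm_num
        linarith
    | succ k ih =>
      obtain ⟨φ, h1, h2, h3, h4, h5⟩ := ih
      set r := R + 2 * δ - 2 * (2 ^ (k + 1) * δ) with hr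
      have har : ‖a - z‖ ≤ r := h5
      have hbr : ‖b - z‖ ≤ r := by rw [hbz]; exact h5
      have hzr : ‖z - z‖ ≤ r := by simp; linarith
      have hd : 2 ^ (k + 1) * δ ≤ 2 * h := by
        rw [← h4]
        have e : φ z - z = (φ z - φ a) + (a - z) := by rw [h2]; abel
        rw [e]
        calc _ ≤ ‖φ z - φ a‖ + ‖a - z‖ := norm_add_le _ _
          _ = ‖z - a‖ + h := by rw [h1.iso z hzr a har]
          _ = 2 * h := by rw [norm_sub_rev]; ring
      have hr0 : 0 ≤ r := by linarith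
      obtain ⟨φ', h1', h2', h3'⟩ := h1.step hr0 z
      have hfin : r - 2 * ‖φ z - z‖ = R + 2 * δ - 2 * (2 ^ (k + 1 + 1) * δ) := by
        rw [h4, hr]; ring
      have hbig : h ≤ R + 2 * δ - 2 * (2 ^ (k + 1 + 1) * δ) := by
        have : (2 : ℝ) ^ (k + 1 + 1) * δ = 2 * (2 ^ (k + 1) * δ) := by ring
        rw [this]
        linarith
      refine ⟨φ', ?_, ?_, ?_, ?_, hbig⟩
      · rw [← hfin]; exact h1'
      · exact h3' a b har hbr hab (by rw [h2, h3, hab])
      · exact h3' b a hbr har (by rw [add_comm]; exact hab) (by rw [h2, h3, add_comm, hab])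
      · rw [h2' (by rw [hfin]; linarith), h4]
        ring
  -- contradiction
  obtain ⟨k, hk⟩ := pow_unbounded_of_one_lt (2 * h / δ + 1) (one_lt_two : (1 : ℝ) < 2)
  obtain ⟨φ, h1, h2, h3, h4, h5⟩ := key k
  have har : ‖a - z‖ ≤ R + 2 * δ - 2 * (2 ^ (k + 1) * δ) := h5
  have hzr : ‖z - z‖ ≤ R + 2 * δ - 2 * (2 ^ (k + 1) * δ) := by simp; linarith
  have hd : 2 ^ (k + 1) * δ ≤ 2 * h := by
    rw [← h4]
    have e : φ z - z = (φ z - φ a) + (a - z) := by rw [h2]; abel
    rw [e]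
    calc _ ≤ ‖φ z - φ a‖ + ‖a - z‖ := norm_add_le _ _
      _ = ‖z - a‖ + h := by rw [h1.iso z hzr a har]
      _ = 2 * h := by rw [norm_sub_rev]; ring
  have h6 : 2 * h / δ < 2 ^ k := by linarith
  have h7 : 2 * h < 2 ^ k * δ := (div_lt_iff₀ hδp).mp h6
  have h8 : (2 : ℝ) ^ (k + 1) * δ = 2 * (2 ^ k * δ) := by ring
  have h9 : 0 < (2 : ℝ) ^ k * δ := by positivity
  rw [h8] at hd
  linarith

/-- Restricting a ball isometry to a smaller ball around another centre. -/
theorem BallIso.restrict {g : V → V'} {z : V} {R : ℝ} (hg : BallIso g z R) {w : V}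
    (hw : ‖w - z‖ ≤ R) : BallIso g w (R - ‖w - z‖) := by
  have hsub : ∀ x, ‖x - w‖ ≤ R - ‖w - z‖ → ‖x - z‖ ≤ R := by
    intro x hx
    have e : x - z = (x - w) + (w - z) := by abel
    rw [e]
    calc _ ≤ ‖x - w‖ + ‖w - z‖ := norm_add_le _ _
      _ ≤ R := by linarith
  refine ⟨fun x hx y hy => hg.iso x (hsub x hx) y (hsub y hy), ?_⟩
  intro y hy
  have hgw : ‖g w - g z‖ = ‖w - z‖ := by
    have hz : ‖z - z‖ ≤ R := by simp; exact (norm_nonneg _).trans hw
    exact hg.iso w hw z hz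
  have hy' : ‖y - g z‖ ≤ R := by
    have e : y - g z = (y - g w) + (g w - g z) := by abel
    rw [e]
    calc _ ≤ ‖y - g w‖ + ‖g w - g z‖ := norm_add_le _ _
      _ ≤ R := by rw [hgw]; linarith
  obtain ⟨x, hx, hgx⟩ := hg.onto y hy'
  refine ⟨x, ?_, hgx⟩
  rw [← hg.iso x hx w hw, hgx]
  exact hy

/-- Midpoint form: pairs within `R/12` of the centre. -/
theorem BallIso.map_midpoint {g : V → V'} {p : V} {R : ℝ} (hg : BallIso g p R) {a b : V}
    (ha : ‖a - p‖ ≤ R / 12) (hb : ‖b - p‖ ≤ R / 12) :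
    g a + g b = g ((1 / 2 : ℝ) • (a + b)) + g ((1 / 2 : ℝ) • (a + b)) := by
  set m := (1 / 2 : ℝ) • (a + b) with hm
  have hab : a + b = m + m := by
    rw [hm, ← add_smul]; norm_num
  have hR : 0 ≤ R := by
    have := (norm_nonneg _).trans ha
    linarith
  have hmp : ‖m - p‖ ≤ R / 12 := by
    have e : m - p = (1 / 2 : ℝ) • ((a - p) + (b - p)) := by rw [hm]; module
    rw [e, norm_smul]
    have h3 : ‖(a - p) + (b - p)‖ ≤ R / 12 + R / 12 :=
      (norm_add_le _ _).trans (add_le_add ha hb)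
    rw [Real.norm_of_nonneg (by norm_num : (0 : ℝ) ≤ 1 / 2)]
    linarith
  have ham : ‖a - m‖ ≤ R / 12 := by
    have e : a - m = (1 / 2 : ℝ) • ((a - p) - (b - p)) := by rw [hm]; module
    rw [e, norm_smul]
    have h3 : ‖(a - p) - (b - p)‖ ≤ R / 12 + R / 12 :=
      (norm_sub_le _ _).trans (add_le_add ha hb)
    rw [Real.norm_of_nonneg (by norm_num : (0 : ℝ) ≤ 1 / 2)]
    linarith
  have hres := hg.restrict (w := m) (by linarith)
  exact hres.map_center hab (by linarith)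

/-- Near the centre a ball isometry is the restriction of a linear isometry of the whole space. -/
theorem BallIso.exists_linear {g : V → V'} {p : V} {R : ℝ} (hg : BallIso g p R) (hR : 0 < R) :
    ∃ L : V ≃ₗᵢ[ℝ] V', ∀ v, ‖v‖ ≤ R / 12 → g (p + v) = g p + L v := by
  classical
  set ρ := R / 12 with hρ
  have hρ0 : 0 < ρ := by positivity
  let T : V → V' := fun v => g (p + v) - g p
  have hsm : ∀ v, ‖v‖ ≤ ρ → ‖(p + v) - p‖ ≤ R := by
    intro v hv
    rw [add_sub_cancel_left]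
    linarith
  have hT0 : T 0 = 0 := by simp [T]
  have hTiso : ∀ v w, ‖v‖ ≤ ρ → ‖w‖ ≤ ρ → ‖T v - T w‖ = ‖v - w‖ := by
    intro v w hv hw
    have : T v - T w = g (p + v) - g (p + w) := by simp [T]
    rw [this, hg.iso _ (hsm v hv) _ (hsm w hw)]
    congr 1
    abel
  have hThalf : ∀ v, ‖v‖ ≤ ρ → T ((1 / 2 : ℝ) • v) = (1 / 2 : ℝ) • T v := by
    intro v hv
    have hm := hg.map_midpoint (a := p) (b := p + v) (by simpa using hρ0.le)
      (by rw [add_sub_cancel_left]; exact hv)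
    have e : (1 / 2 : ℝ) • (p + (p + v)) = p + (1 / 2 : ℝ) • v := by module
    rw [e] at hm
    have : T v = T ((1 / 2 : ℝ) • v) + T ((1 / 2 : ℝ) • v) := by
      simp only [T]
      have h2 : g (p + v) = g (p + (1 / 2 : ℝ) • v) + g (p + (1 / 2 : ℝ) • v) - g p := by
        rw [← hm]; abel
      rw [h2]
      abel
    rw [this, ← two_smul ℝ, smul_smul]
    norm_num
  let A : V → ℕ → V' := fun v k => (2 : ℝ) ^ k • T (((1 / 2 : ℝ) ^ k) • v)
  have hscale : ∀ (v : V) (k : ℕ), ‖v‖ ≤ 2 ^ k * ρ → ‖((1 / 2 : ℝ) ^ k) • v‖ ≤ ρ :=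
    fun v k hv => scale_bound ρ v k hv
  have hAsucc : ∀ (v : V) (k : ℕ), ‖v‖ ≤ 2 ^ k * ρ → A v (k + 1) = A v k := by
    intro v k hv
    have h1 := hThalf _ (hscale v k hv)
    simp only [A]
    have e : ((1 / 2 : ℝ) ^ (k + 1)) • v = (1 / 2 : ℝ) • (((1 / 2 : ℝ) ^ k) • v) := by
      rw [smul_smul, pow_succ']
    rw [e, h1, smul_smul]
    congr 1
    rw [pow_succ]
    ring
  have hAle : ∀ (v : V) (k m : ℕ), k ≤ m → ‖v‖ ≤ 2 ^ k * ρ → A v m = A v k := by
    intro v k m hkm hv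
    induction m, hkm using Nat.le_induction with
    | base => rfl
    | succ m hm ih =>
      have hv' : ‖v‖ ≤ 2 ^ m * ρ := by
        refine hv.trans ?_
        have : (2 : ℝ) ^ k ≤ 2 ^ m := pow_le_pow_right₀ (by norm_num) hm
        exact mul_le_mul_of_nonneg_right this hρ0.le
      rw [hAsucc v m hv', ih]
  have hK : ∀ v : V, ∃ k : ℕ, ‖v‖ ≤ 2 ^ k * ρ := by
    intro v
    obtain ⟨k, hk⟩ := pow_unbounded_of_one_lt (‖v‖ / ρ) (one_lt_two : (1 : ℝ) < 2)
    exact ⟨k, by
      have := (div_lt_iff₀ hρ0).mp hk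
      exact this.le⟩
  choose K hK using hK
  let Lf : V → V' := fun v => A v (K v)
  have hLf : ∀ (v : V) (k : ℕ), ‖v‖ ≤ 2 ^ k * ρ → Lf v = A v k := by
    intro v k hv
    have hv1 : ‖v‖ ≤ 2 ^ (K v) * ρ := hK v
    show A v (K v) = A v k
    rw [← hAle v (K v) (max (K v) k) (le_max_left _ _) hv1,
      ← hAle v k (max (K v) k) (le_max_right _ _) hv]
  have hmono : ∀ (v : V) (k m : ℕ), k ≤ m → ‖v‖ ≤ 2 ^ k * ρ → ‖v‖ ≤ 2 ^ m * ρ := by
    intro v k m hm hv
    refine hv.trans ?_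
    have : (2 : ℝ) ^ k ≤ 2 ^ m := pow_le_pow_right₀ (by norm_num) hm
    exact mul_le_mul_of_nonneg_right this hρ0.le
  have hLiso : Isometry Lf := by
    apply Isometry.of_dist_eq
    intro v w
    rw [dist_eq_norm, dist_eq_norm]
    set k := max (K v) (K w) with hk
    have hv : ‖v‖ ≤ 2 ^ k * ρ := hmono v _ k (le_max_left _ _) (hK v)
    have hw : ‖w‖ ≤ 2 ^ k * ρ := hmono w _ k (le_max_right _ _) (hK w)
    rw [hLf v k hv, hLf w k hw]
    simp only [A]
    rw [← smul_sub, norm_smul, hTiso _ _ (hscale v k hv) (hscale w k hw), ← smul_sub, norm_smul,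
      ← mul_assoc, norm_pow, norm_pow, ← mul_pow]
    norm_num
  have hLsurj : Function.Surjective Lf := by
    intro y
    obtain ⟨k, hk⟩ : ∃ k : ℕ, ‖y‖ ≤ 2 ^ k * ρ := by
      obtain ⟨k, hk⟩ := pow_unbounded_of_one_lt (‖y‖ / ρ) (one_lt_two : (1 : ℝ) < 2)
      exact ⟨k, ((div_lt_iff₀ hρ0).mp hk).le⟩
    have hu := scale_bound ρ y k hk
    set u := ((1 / 2 : ℝ) ^ k) • y with hudef
    have hu' : ‖(g p + u) - g p‖ ≤ R := by
      rw [add_sub_cancel_left]
      linarith
    obtain ⟨x, hx, hgx⟩ := hg.onto _ hu'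
    have hxp : ‖x - p‖ ≤ ρ := by
      have hzz : ‖p - p‖ ≤ R := by simp; exact hR.le
      rw [← hg.iso x hx p hzz, hgx, add_sub_cancel_left]
      exact hu
    set v0 := x - p with hv0
    have hTv0 : T v0 = u := by
      simp only [T]
      have : p + v0 = x := by rw [hv0]; abel
      rw [this, hgx, add_sub_cancel_left]
    have h2 : (0 : ℝ) < 2 ^ k := by positivity
    have hcancel : (2 : ℝ) ^ k * (1 / 2) ^ k = 1 := by
      rw [← mul_pow]; norm_num
    have hcancel' : ((1 : ℝ) / 2) ^ k * 2 ^ k = 1 := by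
      rw [← mul_pow]; norm_num
    refine ⟨(2 : ℝ) ^ k • v0, ?_⟩
    have hnorm : ‖(2 : ℝ) ^ k • v0‖ ≤ 2 ^ k * ρ := by
      rw [norm_smul, norm_pow]
      simp only [Real.norm_eq_abs, abs_of_pos (two_pos : (0:ℝ) < 2)]
      exact mul_le_mul_of_nonneg_left hxp h2.le
    rw [hLf _ k hnorm]
    simp only [A]
    rw [smul_smul, hcancel', one_smul, hTv0, hudef, smul_smul, hcancel, one_smul]
  have hL0 : Lf 0 = 0 := by
    have h0 : ‖(0 : V)‖ ≤ 2 ^ 0 * ρ := by simpa using hρ0.le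
    rw [hLf 0 0 h0]
    simp [A, hT0]
  let E : V ≃ᵢ V' :=
    { toEquiv := Equiv.ofBijective Lf ⟨hLiso.injective, hLsurj⟩
      isometry_toFun := hLiso }
  refine ⟨E.toRealLinearIsometryEquivOfMapZero hL0, ?_⟩
  intro v hv
  have h1 : Lf v = T v := by
    have h0 : ‖v‖ ≤ 2 ^ 0 * ρ := by simpa using hv
    rw [hLf v 0 h0]
    simp [A]
  have : (E.toRealLinearIsometryEquivOfMapZero hL0) v = Lf v := rfl
  rw [this, h1]
  simp [T]

/-- An isometric self map of a compact set of a normed space is onto. -/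
theorem compact_isometry_onto {K : Set V} (hK : IsCompact K) {h : V → V}
    (hmap : ∀ x ∈ K, h x ∈ K) (hiso : ∀ x ∈ K, ∀ y ∈ K, ‖h x - h y‖ = ‖x - y‖) :
    ∀ y ∈ K, ∃ x ∈ K, h x = y := by
  intro y hy
  by_contra hcon
  push Not at hcon
  have hcont : ContinuousOn h K := by
    have : LipschitzOnWith 1 h K := by
      apply LipschitzOnWith.of_dist_le_mul
      intro x hx z hz
      simp only [NNReal.coe_one, one_mul, dist_eq_norm]
      rw [hiso x hx z hz]
    exact this.continuousOn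
  have himg : IsCompact (h '' K) := hK.image_of_continuousOn hcont
  have hyn : y ∉ h '' K := by
    rintro ⟨x, hx, hxy⟩
    exact hcon x hx hxy
  have hopen : (h '' K)ᶜ ∈ nhds y := himg.isClosed.isOpen_compl.mem_nhds hyn
  obtain ⟨ε, hε, hball⟩ := Metric.mem_nhds_iff.mp hopen
  have hfar : ∀ x ∈ K, ε ≤ ‖h x - y‖ := by
    intro x hx
    by_contra hlt
    push Not at hlt
    have : h x ∈ Metric.ball y ε := by
      rw [Metric.mem_ball, dist_eq_norm]; exact hlt
    exact hball this ⟨x, hx, rfl⟩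
  let u : ℕ → V := fun n => h^[n] y
  have hu : ∀ n, u n ∈ K := by
    intro n
    induction n with
    | zero => exact hy
    | succ n ih =>
      show h^[n + 1] y ∈ K
      rw [Function.iterate_succ_apply']
      exact hmap _ ih
  have hdist : ∀ m n, m < n → ε ≤ ‖u n - u m‖ := by
    intro m
    induction m with
    | zero =>
      intro n hn
      obtain ⟨k, rfl⟩ : ∃ k, n = k + 1 := ⟨n - 1, by omega⟩
      show ε ≤ ‖h^[k + 1] y - y‖
      rw [Function.iterate_succ_apply']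
      exact hfar _ (hu k)
    | succ m ih =>
      intro n hn
      obtain ⟨k, rfl⟩ : ∃ k, n = k + 1 := ⟨n - 1, by omega⟩
      have h1 := ih k (by omega)
      show ε ≤ ‖h^[k + 1] y - h^[m + 1] y‖
      rw [Function.iterate_succ_apply', Function.iterate_succ_apply', hiso _ (hu k) _ (hu m)]
      exact h1
  obtain ⟨a, _, φ, hφ, hlim⟩ := hK.tendsto_subseq hu
  have hcauchy := hlim.cauchySeq
  obtain ⟨N, hN⟩ := Metric.cauchySeq_iff.mp hcauchy ε hε
  have h1 := hN N le_rfl (N + 1) (by omega)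
  rw [dist_eq_norm] at h1
  have h2 := hdist (φ N) (φ (N + 1)) (hφ (by omega))
  simp only [Function.comp] at h1
  rw [norm_sub_rev] at h1
  linarith

end Vale.Agent.Lib.P084.NS
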