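/-
Mankiewicz's theorem for convex sets with nonempty interior in finite dimensional normed spaces:
a surjective isometry is the restriction of an affine isometry. Elementary proof from the local
Mazur-Ulam lemma.
-/
import Vale.Agent.Lib.P084.NS.LocalMU

set_option linter.unusedSectionVars false

namespace Vale.Agent.Lib.P084.NS

variable {V V' : Type*} [NormedAddCommGroup V] [NormedSpace ℝ V] [NormedAddCommGroup V']
  [NormedSpace ℝ V']

theorem mankiewicz [FiniteDimensional ℝ V] {A : Set V} {A' : Set V'} (hA : Convex ℝ A)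
    (hint : (interior A).Nonempty) (hint' : (interior A').Nonempty) {g : V → V'}
    (hiso : ∀ x ∈ A, ∀ y ∈ A, ‖g x - g y‖ = ‖x - y‖)
    (honto : ∀ y ∈ A', ∃ x ∈ A, g x = y) :
    ∃ (L : V ≃ₗᵢ[ℝ] V') (p : V), p ∈ A ∧ ∀ x ∈ A, g x = g p + L (x - p) := by
  have : ProperSpace V := FiniteDimensional.proper_real V
  -- a good base point
  obtain ⟨q, hq⟩ := hint'
  obtain ⟨x0, hx0, hgx0⟩ := honto q (interior_subset hq)
  obtain ⟨ε, hε, hballε⟩ := Metric.isOpen_iff.mp isOpen_interior q hq
  have hcl : x0 ∈ closure (interior A) := by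
    rw [hA.closure_interior_eq_closure_of_nonempty_interior hint]
    exact subset_closure hx0
  obtain ⟨p, hp, hpx⟩ := Metric.mem_closure_iff.mp hcl ε hε
  have hpA : p ∈ A := interior_subset hp
  have hgp : g p ∈ interior A' := by
    apply hballε
    rw [Metric.mem_ball, dist_eq_norm, ← hgx0, hiso p hpA x0 hx0, norm_sub_rev, ← dist_eq_norm]
    exact hpx
  obtain ⟨r1, hr1, hb1⟩ := Metric.nhds_basis_closedBall.mem_iff.mp (mem_interior_iff_mem_nhds.mp hp)
  obtain ⟨r2, hr2, hb2⟩ :=
    Metric.nhds_basis_closedBall.mem_iff.mp (mem_interior_iff_mem_nhds.mp hgp)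
  set r := min r1 r2 with hr
  have hr0 : 0 < r := lt_min hr1 hr2
  have hmemA : ∀ x, ‖x - p‖ ≤ r → x ∈ A := by
    intro x hx
    apply hb1
    rw [Metric.mem_closedBall, dist_eq_norm]
    exact hx.trans (min_le_left _ _)
  have hB : BallIso g p r := by
    refine ⟨fun x hx y hy => hiso x (hmemA x hx) y (hmemA y hy), ?_⟩
    intro y hy
    have hy' : y ∈ A' := by
      apply hb2
      rw [Metric.mem_closedBall, dist_eq_norm]
      exact hy.trans (min_le_right _ _)
    obtain ⟨x, hx, hgx⟩ := honto y hy'
    refine ⟨x, ?_, hgx⟩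
    rw [← hiso x hx p hpA, hgx]
    exact hy
  obtain ⟨L, hL⟩ := hB.exists_linear hr0
  refine ⟨L, p, hpA, ?_⟩
  -- the comparison map
  let h : V → V := fun x => p + L.symm (g x - g p)
  have hhiso : ∀ x ∈ A, ∀ y ∈ A, ‖h x - h y‖ = ‖x - y‖ := by
    intro x hx y hy
    have e : h x - h y = L.symm (g x - g y) := by
      have h1 : L.symm (g x - g p) - L.symm (g y - g p) = L.symm (g x - g y) := by
        rw [← map_sub]
        congr 1
        abel
      simp only [h]
      rw [← h1]
      abel
    rw [e, L.symm.norm_map, hiso x hx y hy]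
  let W : Set V := {z | ∃ ε > 0, ∀ x, ‖x - z‖ ≤ ε → h x = x}
  have hWself : ∀ z ∈ W, h z = z := by
    rintro z ⟨ε, hε, hz⟩
    exact hz z (by simpa using hε.le)
  have hWopen : IsOpen W := by
    rw [Metric.isOpen_iff]
    rintro z ⟨ε, hε, hz⟩
    refine ⟨ε / 2, by positivity, ?_⟩
    intro w hw
    rw [Metric.mem_ball, dist_eq_norm] at hw
    refine ⟨ε / 2, by positivity, ?_⟩
    intro x hx
    apply hz
    have e : x - z = (x - w) + (w - z) := by abel
    rw [e]
    calc _ ≤ ‖x - w‖ + ‖w - z‖ := norm_add_le _ _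
      _ ≤ ε := by linarith
  have hpW : p ∈ W := by
    refine ⟨r / 12, by positivity, ?_⟩
    intro x hx
    have h1 := hL (x - p) hx
    have e : p + (x - p) = x := by abel
    rw [e] at h1
    simp only [h]
    rw [h1]
    simp
  have hclosed : closure W ∩ interior A ⊆ W := by
    rintro z ⟨hzW, hzA⟩
    obtain ⟨ρ, hρ, hbρ⟩ :=
      Metric.nhds_basis_closedBall.mem_iff.mp (mem_interior_iff_mem_nhds.mp hzA)
    have hzA' : z ∈ A := interior_subset hzA
    -- `h z = z`
    have hzfix : h z = z := by
      have hall : ∀ η > 0, ‖h z - z‖ ≤ η := by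
        intro η hη
        obtain ⟨w, hw, hzw⟩ := Metric.mem_closure_iff.mp hzW (min (η / 2) ρ) (lt_min (by positivity) hρ)
        rw [dist_eq_norm] at hzw
        have hwA : w ∈ A := by
          apply hbρ
          rw [Metric.mem_closedBall, dist_eq_norm, norm_sub_rev]
          exact hzw.le.trans (min_le_right _ _)
        have e : h z - z = (h z - h w) + (w - z) := by rw [hWself w hw]; abel
        rw [e]
        have h1 : ‖z - w‖ ≤ η / 2 := hzw.le.trans (min_le_left _ _)
        calc _ ≤ ‖h z - h w‖ + ‖w - z‖ := norm_add_le _ _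
          _ = ‖z - w‖ + ‖z - w‖ := by rw [hhiso z hzA' w hwA, norm_sub_rev w z]
          _ ≤ η := by linarith
      have : ‖h z - z‖ ≤ 0 := le_of_forall_pos_le_add (fun η hη => by simpa using hall η hη)
      exact sub_eq_zero.mp (norm_le_zero_iff.mp this)
    have hmemρ : ∀ x, ‖x - z‖ ≤ ρ → x ∈ A := by
      intro x hx
      apply hbρ
      rw [Metric.mem_closedBall, dist_eq_norm]
      exact hx
    have hBz : BallIso h z ρ := by
      refine ⟨fun x hx y hy => hhiso x (hmemρ x hx) y (hmemρ y hy), ?_⟩
      intro y hy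
      have hK : IsCompact (Metric.closedBall z ρ) := isCompact_closedBall z ρ
      have hmap : ∀ x ∈ Metric.closedBall z ρ, h x ∈ Metric.closedBall z ρ := by
        intro x hx
        rw [Metric.mem_closedBall, dist_eq_norm] at hx ⊢
        have := hhiso x (hmemρ x hx) z hzA'
        rw [hzfix] at this
        rw [this]
        exact hx
      have hisoK : ∀ x ∈ Metric.closedBall z ρ, ∀ y ∈ Metric.closedBall z ρ,
          ‖h x - h y‖ = ‖x - y‖ := by
        intro x hx y hy
        rw [Metric.mem_closedBall, dist_eq_norm] at hx hy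
        exact hhiso x (hmemρ x hx) y (hmemρ y hy)
      have hyK : y ∈ Metric.closedBall z ρ := by
        rw [Metric.mem_closedBall, dist_eq_norm, ← hzfix]
        exact hy
      obtain ⟨x, hx, hxy⟩ := compact_isometry_onto hK hmap hisoK y hyK
      rw [Metric.mem_closedBall, dist_eq_norm] at hx
      exact ⟨x, hx, hxy⟩
    -- a nearby point of `W`
    obtain ⟨z1, hz1, hzz1⟩ := Metric.mem_closure_iff.mp hzW (ρ / 24) (by positivity)
    rw [dist_eq_norm] at hzz1
    have hz1z : ‖z1 - z‖ ≤ ρ / 24 := by rw [norm_sub_rev]; exact hzz1.le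
    have hB1 := hBz.restrict (w := z1) (by linarith)
    set R1 := ρ - ‖z1 - z‖ with hR1
    have hR1pos : 0 < R1 := by rw [hR1]; linarith
    obtain ⟨L1, hL1⟩ := hB1.exists_linear hR1pos
    obtain ⟨ε1, hε1, hid⟩ := hz1
    have hfix1 : h z1 = z1 := hid z1 (by simpa using hε1.le)
    -- `L1` is the identity
    set s0 := min ε1 (R1 / 12) with hs0
    have hs0pos : 0 < s0 := lt_min hε1 (by positivity)
    have hL1small : ∀ v, ‖v‖ ≤ s0 → L1 v = v := by
      intro v hv
      have h1 := hL1 v (hv.trans (min_le_right _ _))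
      have h2 := hid (z1 + v) (by
        rw [add_sub_cancel_left]
        exact hv.trans (min_le_left _ _))
      rw [h2, hfix1] at h1
      exact (add_left_cancel h1).symm
    have hL1id : ∀ v, L1 v = v := by
      intro v
      by_cases hv : v = 0
      · simp [hv]
      have hvn : 0 < ‖v‖ := norm_pos_iff.mpr hv
      set c := s0 / ‖v‖ with hc
      have hcpos : 0 < c := by positivity
      have h1 : ‖c • v‖ ≤ s0 := by
        rw [norm_smul, Real.norm_of_nonneg hcpos.le, hc]
        field_simp
        exact le_rfl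
      have h2 := hL1small _ h1
      rw [map_smul] at h2
      exact smul_right_injective V hcpos.ne' h2
    refine ⟨R1 / 12 - ‖z - z1‖, ?_, ?_⟩
    · have : ‖z - z1‖ ≤ ρ / 24 := hzz1.le
      have h2 : R1 ≥ ρ - ρ / 24 := by rw [hR1]; linarith
      linarith
    · intro x hx
      have hxz1 : ‖x - z1‖ ≤ R1 / 12 := by
        have e : x - z1 = (x - z) + (z - z1) := by abel
        rw [e]
        calc _ ≤ ‖x - z‖ + ‖z - z1‖ := norm_add_le _ _
          _ ≤ R1 / 12 := by linarith
      have h1 := hL1 (x - z1) hxz1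
      have e : z1 + (x - z1) = x := by abel
      rw [e, hfix1, hL1id] at h1
      rw [h1]
      abel
  have hsub : interior A ⊆ W :=
    hA.interior.isPreconnected.subset_of_closure_inter_subset hWopen ⟨p, hp, hpW⟩ hclosed
  -- conclusion on `A`
  intro x hx
  have hfix : h x = x := by
    have hcl' : x ∈ closure (interior A) := by
      rw [hA.closure_interior_eq_closure_of_nonempty_interior hint]
      exact subset_closure hx
    have hall : ∀ η > 0, ‖h x - x‖ ≤ η := by
      intro η hη
      obtain ⟨w, hw, hxw⟩ := Metric.mem_closure_iff.mp hcl' (η / 2) (by positivity)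
      rw [dist_eq_norm] at hxw
      have e : h x - x = (h x - h w) + (w - x) := by rw [hWself w (hsub hw)]; abel
      rw [e]
      calc _ ≤ ‖h x - h w‖ + ‖w - x‖ := norm_add_le _ _
        _ = ‖x - w‖ + ‖x - w‖ := by
            rw [hhiso x hx w (interior_subset hw), norm_sub_rev w x]
        _ ≤ η := by linarith
    have : ‖h x - x‖ ≤ 0 := le_of_forall_pos_le_add (fun η hη => by simpa using hall η hη)
    exact sub_eq_zero.mp (norm_le_zero_iff.mp this)
  have h2 : L.symm (g x - g p) = x - p := by
    have : p + L.symm (g x - g p) = x := hfix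
    exact eq_sub_of_add_eq' this
  have h3 : g x - g p = L (x - p) := by
    rw [← h2]
    simp
  rw [← h3]
  abel

end Vale.Agent.Lib.P084.NS
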