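import Vale.Agent.Lib.P084.UC.APlus

/-!
# Tingley's oddness theorem: surjective isometries of spheres of finite dimensional spaces are odd

Route: `τ = g ∘ (-) ∘ f ∘ (-)` is an isometry of the sphere which preserves every maximal face and
is affine on segments of the sphere.  Smooth points are dense (Rademacher); at a smooth point `z`
the norming functional `l` satisfies `l (τ z) = 1`.  A perturbation gives the same for every point
and every norming functional.  Hence points of the unit ball which are farthest from a point for a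
Euclidean structure are fixed.  So the sphere lies in the convex hull of the fixed points, and
affinity on faces gives `τ = id`.
-/

set_option linter.unusedSectionVars false

namespace Vale.Agent.Lib.P084.NS

open Metric Set Filter Topology
open Vale.Agent.Lib.P084.UC

variable {X Y : Type*} [NormedAddCommGroup X] [NormedSpace ℝ X]
  [NormedAddCommGroup Y] [NormedSpace ℝ Y]

/-- `x` has at most one norming functional. -/
def SmoothAt (z : X) : Prop :=
  ∀ l l' : X →L[ℝ] ℝ, (∀ u, l u ≤ ‖u‖) → l z = 1 → (∀ u, l' u ≤ ‖u‖) → l' z = 1 → l = l'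

/-- `f` is affine on each segment contained in the unit sphere. -/
def SegAff (f : X → Y) : Prop :=
  ∀ a b : X, ‖a‖ = 1 → ‖b‖ = 1 → (∀ s ∈ Icc (0 : ℝ) 1, ‖(1 - s) • a + s • b‖ = 1) →
    ∀ t ∈ Icc (0 : ℝ) 1, f ((1 - t) • a + t • b) = (1 - t) • f a + t • f b

/-- `M` is a maximal convex subset of the unit sphere. -/
def IsMaxConvex (M : Set X) : Prop :=
  M.Nonempty ∧ Convex ℝ M ∧ M ⊆ sphere 0 1 ∧
    ∀ M' : Set X, Convex ℝ M' → M' ⊆ sphere 0 1 → M ⊆ M' → M' = M

lemma eq_fderiv_of_diff {y : X} (hy : DifferentiableAt ℝ (fun v : X => ‖v‖) y) {l : X →L[ℝ] ℝ}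
    (hl : ∀ u, l u ≤ ‖u‖) (hly : l y = ‖y‖) : l = fderiv ℝ (fun v : X => ‖v‖) y := by
  ext u
  set D := fderiv ℝ (fun v : X => ‖v‖) y with hD
  have hd1 : HasDerivAt (fun t : ℝ => ‖y + t • u‖) (D u) 0 := by
    have h0 : HasFDerivAt (fun v : X => ‖v‖) D (y + (0 : ℝ) • u) := by
      simpa [hD] using hy.hasFDerivAt
    have h1 : HasDerivAt (fun t : ℝ => y + t • u) u 0 := by
      simpa using ((hasDerivAt_id (0 : ℝ)).smul_const u).const_add y
    exact h0.comp_hasDerivAt (0 : ℝ) h1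
  have hd2 : HasDerivAt (fun t : ℝ => l (y + t • u)) (l u) 0 := by
    have h1 : HasDerivAt (fun t : ℝ => y + t • u) u 0 := by
      simpa using ((hasDerivAt_id (0 : ℝ)).smul_const u).const_add y
    exact l.hasFDerivAt.comp_hasDerivAt (0 : ℝ) h1
  have hmin : IsLocalMin (fun t : ℝ => ‖y + t • u‖ - l (y + t • u)) 0 := by
    refine Filter.Eventually.of_forall fun t => ?_
    have h1 := hl (y + t • u)
    simp only [zero_smul, add_zero, hly, sub_self]
    linarith
  have h0 := hmin.hasDerivAt_eq_zero (hd1.sub hd2)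
  linarith

/-- Smooth unit points are dense in the sphere. -/
lemma exists_smooth_near [FiniteDimensional ℝ X] {x : X} (hx : ‖x‖ = 1) {ε : ℝ} (hε : 0 < ε) :
    ∃ z : X, ‖z‖ = 1 ∧ ‖z - x‖ < ε ∧ SmoothAt z := by
  have hdense : Dense {v : X | DifferentiableAt ℝ (fun w : X => ‖w‖) v} :=
    dense_differentiableAt_norm
  have hpos : 0 < min (ε / 2) (1 / 2) := lt_min (by linarith) (by norm_num)
  obtain ⟨y, hy, hyx⟩ := hdense.exists_dist_lt x hpos
  have hyx' : ‖x - y‖ < min (ε / 2) (1 / 2) := by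
    rw [← dist_eq_norm]; exact hyx
  have h1 : ‖x - y‖ < ε / 2 := lt_of_lt_of_le hyx' (min_le_left _ _)
  have h2 : ‖x - y‖ < 1 / 2 := lt_of_lt_of_le hyx' (min_le_right _ _)
  have hn1 : 1 / 2 < ‖y‖ := by
    have := norm_sub_norm_le x y
    linarith
  have hn2 : |‖y‖ - 1| ≤ ‖x - y‖ := by
    have := abs_norm_sub_norm_le y x
    rwa [hx, norm_sub_rev] at this
  have hne : ‖y‖ ≠ 0 := by linarith
  refine ⟨‖y‖⁻¹ • y, ?_, ?_, ?_⟩
  · rw [norm_smul, norm_inv, norm_norm, inv_mul_cancel₀ hne]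
  · have e : ‖y‖⁻¹ • y - x = ‖y‖⁻¹ • y - y + (y - x) := by abel
    have e2 : ‖‖y‖⁻¹ • y - y‖ = |‖y‖ - 1| := by
      have e3 : ‖y‖⁻¹ • y - y = (‖y‖⁻¹ - 1) • y := by rw [sub_smul, one_smul]
      rw [e3, norm_smul, Real.norm_eq_abs]
      have e4 : (‖y‖⁻¹ - 1) * ‖y‖ = 1 - ‖y‖ := by
        rw [sub_mul, inv_mul_cancel₀ hne, one_mul]
      have e6 := abs_mul (‖y‖⁻¹ - 1) ‖y‖
      rw [abs_of_nonneg (norm_nonneg y)] at e6
      rw [← e6, e4, abs_sub_comm]
    have e5 := norm_add_le (‖y‖⁻¹ • y - y) (y - x)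
    rw [← e, e2, norm_sub_rev y x] at e5
    linarith
  · intro l l' hl hlz hl' hlz'
    have key : ∀ m : X →L[ℝ] ℝ, (∀ u, m u ≤ ‖u‖) → m (‖y‖⁻¹ • y) = 1 → m y = ‖y‖ := by
      intro m _ hm
      rw [map_smul, smul_eq_mul] at hm
      field_simp at hm
      linarith
    rw [eq_fderiv_of_diff hy hl (key l hl hlz), eq_fderiv_of_diff hy hl' (key l' hl' hlz')]

/-- The convex hull of a compact set of a finite dimensional space is compact (Caratheodory). -/
lemma isCompact_convexHull_of_isCompact {E : Type*} [NormedAddCommGroup E] [NormedSpace ℝ E]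
    [FiniteDimensional ℝ E] {K : Set E} (hK : IsCompact K) : IsCompact (convexHull ℝ K) := by
  classical
  rcases K.eq_empty_or_nonempty with rfl | ⟨z0, hz0⟩
  · simp
  set N := Module.finrank ℝ E + 1 with hN
  let Φ : (Fin N → ℝ) × (Fin N → E) → E := fun p => ∑ i, p.1 i • p.2 i
  have hΦ : Continuous Φ := by
    refine continuous_finsetSum _ fun i _ => ?_
    exact ((continuous_apply i).comp continuous_fst).smul ((continuous_apply i).comp continuous_snd)
  have hdom : IsCompact (stdSimplex ℝ (Fin N) ×ˢ Set.pi Set.univ fun _ : Fin N => K) :=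
    (isCompact_stdSimplex ℝ (Fin N)).prod (isCompact_univ_pi fun _ => hK)
  have heq : convexHull ℝ K = Φ '' (stdSimplex ℝ (Fin N) ×ˢ Set.pi Set.univ fun _ : Fin N => K) := by
    ext x
    constructor
    · intro hx
      obtain ⟨ι, _, z, w, hzK, hind, hpos, hsum, hx⟩ := eq_pos_convex_span_of_mem_convexHull hx
      have hcard : Fintype.card ι ≤ N := hind.card_le_finrank_succ.trans (by
        rw [hN]
        exact Nat.succ_le_succ (Submodule.finrank_le _))
      have hcard' : Fintype.card ι ≤ Fintype.card (Fin N) := by simpa using hcard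
      obtain ⟨e⟩ := Function.Embedding.nonempty_of_card_le hcard'
      let w' : Fin N → ℝ := Function.extend e w 0
      let z' : Fin N → E := Function.extend e z (fun _ => z0)
      refine ⟨(w', z'), ⟨⟨?_, ?_⟩, ?_⟩, ?_⟩
      · intro j
        by_cases hj : ∃ i, e i = j
        · obtain ⟨i, rfl⟩ := hj
          show 0 ≤ Function.extend e w 0 (e i)
          rw [e.injective.extend_apply]
          exact (hpos i).le
        · show 0 ≤ Function.extend e w 0 j
          rw [Function.extend_apply' _ _ _ hj]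
          simp
      · rw [← hsum]
        symm
        refine Fintype.sum_of_injective e e.injective w w' ?_ ?_
        · intro j hj
          show Function.extend e w 0 j = 0
          rw [Function.extend_apply' _ _ _ (by simpa using hj)]
          simp
        · intro i
          show w i = Function.extend e w 0 (e i)
          rw [e.injective.extend_apply]
      · intro j _
        by_cases hj : ∃ i, e i = j
        · obtain ⟨i, rfl⟩ := hj
          show Function.extend e z (fun _ => z0) (e i) ∈ K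
          rw [e.injective.extend_apply]
          exact hzK ⟨i, rfl⟩
        · show Function.extend e z (fun _ => z0) j ∈ K
          rw [Function.extend_apply' _ _ _ hj]
          exact hz0
      · show ∑ j, w' j • z' j = x
        rw [← hx]
        symm
        refine Fintype.sum_of_injective e e.injective (fun i => w i • z i) (fun j => w' j • z' j)
          ?_ ?_
        · intro j hj
          have : w' j = 0 := by
            show Function.extend e w 0 j = 0
            rw [Function.extend_apply' _ _ _ (by simpa using hj)]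
            simp
          simp only [this, zero_smul]
        · intro i
          have h1 : w' (e i) = w i := e.injective.extend_apply _ _ _
          have h2 : z' (e i) = z i := e.injective.extend_apply _ _ _
          simp only [h1, h2]
    · rintro ⟨⟨w, z⟩, ⟨hw, hz⟩, rfl⟩
      show ∑ i, w i • z i ∈ convexHull ℝ K
      exact (convex_convexHull ℝ K).sum_mem (fun i _ => hw.1 i) hw.2
        (fun i _ => subset_convexHull ℝ K (hz i (Set.mem_univ i)))
  rw [heq]
  exact hdom.image hΦ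

section tau

variable [FiniteDimensional ℝ X] {τ : X → X}

/-- Step 1: `τ` preserves all the norming functionals. -/
lemma norming_tau (h1 : ∀ x, ‖x‖ = 1 → ‖τ x‖ = 1)
    (h2 : ∀ x y, ‖x‖ = 1 → ‖y‖ = 1 → ‖τ x - τ y‖ = ‖x - y‖)
    (h3 : ∀ (z : X) (l : X →L[ℝ] ℝ), ‖z‖ = 1 → SmoothAt z → (∀ u, l u ≤ ‖u‖) → l z = 1 →
      l (τ z) = 1)
    {x : X} (hx : ‖x‖ = 1) {l0 : X →L[ℝ] ℝ} (hl0 : ∀ u, l0 u ≤ ‖u‖) (hl0x : l0 x = 1) :
    l0 (τ x) = 1 := by
  by_contra hne
  have hlt : l0 (τ x) < 1 := lt_of_le_of_ne (by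
    have := hl0 (τ x); rwa [h1 x hx] at this) hne
  set v := x - τ x with hv
  have hκ : 0 < l0 v := by
    rw [hv, map_sub, hl0x]; linarith
  set κ := l0 v with hκdef
  have hκv : κ ≤ ‖v‖ := hl0 v
  have hvpos : 0 < ‖v‖ := lt_of_lt_of_le hκ hκv
  have hv2 : ‖v‖ ≤ 2 := by
    have := norm_sub_le x (τ x)
    rw [hx, h1 x hx] at this
    rw [hv]; linarith
  set t := κ / (16 * ‖v‖) with ht
  have htpos : 0 < t := by positivity
  have htv : t * ‖v‖ = κ / 16 := by
    rw [ht]; field_simp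
  have ht1 : t ≤ 1 / 16 := by
    rw [ht, div_le_iff₀ (by positivity)]
    linarith
  set s := ‖x + t • v‖ with hs
  have hs1 : 1 + t * κ ≤ s := by
    have := hl0 (x + t • v)
    rw [map_add, map_smul, smul_eq_mul, hl0x] at this
    exact this
  have htκ : 0 < t * κ := mul_pos htpos hκ
  have hs2 : s ≤ 1 + t * ‖v‖ := by
    have := norm_add_le x (t • v)
    rw [hx, norm_smul, Real.norm_eq_abs, abs_of_pos htpos] at this
    exact this
  have hspos : 0 < s := by linarith
  have hs3 : s ≤ 2 := by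
    have : κ ≤ 2 := le_trans hκv hv2
    nlinarith
  set y₀ := s⁻¹ • (x + t • v) with hy₀
  set δ := t * κ / 16 with hδ
  have hδpos : 0 < δ := by positivity
  have hy₀1 : ‖y₀‖ = 1 := by
    rw [hy₀, norm_smul, norm_inv, Real.norm_eq_abs, abs_of_pos hspos, ← hs,
      inv_mul_cancel₀ hspos.ne']
  obtain ⟨z, hz1, hzy, hzs⟩ := exists_smooth_near hy₀1 hδpos
  obtain ⟨g0, hg0, hg0z⟩ := exists_dual_vector'' ℝ z
  have hl : ∀ u, g0 u ≤ ‖u‖ := fun u => by
    have e1 := g0.le_opNorm u
    have e2 := Real.le_norm_self (g0 u)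
    have e3 : ‖g0‖ * ‖u‖ ≤ 1 * ‖u‖ := mul_le_mul_of_nonneg_right hg0 (norm_nonneg u)
    simp only [one_mul] at e3
    linarith
  have hlz : g0 z = 1 := by
    rw [hg0z, hz1]
    rfl
  have hlτ := h3 z g0 hz1 hzs hl hlz
  have hy₀l : 1 - δ ≤ g0 y₀ := by
    have := hl (z - y₀)
    rw [map_sub, hlz] at this
    linarith
  have hxv : g0 (x + t • v) = s * g0 y₀ := by
    rw [hy₀, map_smul, smul_eq_mul, ← mul_assoc, mul_inv_cancel₀ hspos.ne', one_mul]
  have hgx : g0 x ≤ 1 := by
    have := hl x; rwa [hx] at this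
  have hlv : t * g0 v ≥ t * κ - 2 * δ := by
    have e : g0 (x + t • v) = g0 x + t * g0 v := by
      rw [map_add, map_smul, smul_eq_mul]
    rw [e] at hxv
    have : s * (1 - δ) ≤ s * g0 y₀ := mul_le_mul_of_nonneg_left hy₀l hspos.le
    nlinarith
  have hlv2 : 7 * κ / 8 ≤ g0 v := by
    have e : t * g0 v ≥ t * (7 * κ / 8) := by
      have : t * κ - 2 * δ = t * (7 * κ / 8) := by
        rw [hδ]; ring
      linarith
    exact le_of_mul_le_mul_left e htpos
  have hy₀x : ‖y₀ - x‖ ≤ 2 * (t * ‖v‖) := by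
    have e : y₀ - x = (s⁻¹ - 1) • (x + t • v) + t • v := by
      rw [hy₀, sub_smul, one_smul]; abel
    have e1 : ‖(s⁻¹ - 1) • (x + t • v)‖ = s - 1 := by
      rw [norm_smul, ← hs, Real.norm_eq_abs]
      have hss : s⁻¹ ≤ 1 := inv_le_one_of_one_le₀ (by linarith)
      rw [abs_of_nonpos (by linarith)]
      field_simp
      ring
    have e2 : ‖t • v‖ = t * ‖v‖ := by
      rw [norm_smul, Real.norm_eq_abs, abs_of_pos htpos]
    have e3 := norm_add_le ((s⁻¹ - 1) • (x + t • v)) (t • v)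
    rw [← e, e1, e2] at e3
    linarith
  have hzx : ‖z - x‖ < δ + 2 * (t * ‖v‖) := by
    have e : z - x = (z - y₀) + (y₀ - x) := by abel
    have := norm_add_le (z - y₀) (y₀ - x)
    rw [← e] at this
    linarith
  have hfin : g0 v ≤ 2 * ‖z - x‖ := by
    have e1 := hl (τ z - τ x)
    rw [h2 z x hz1 hx, map_sub, hlτ] at e1
    have e2 := hl (x - z)
    rw [norm_sub_rev x z, map_sub, hlz] at e2
    have e3 : g0 v = g0 x - g0 (τ x) := by rw [hv, map_sub]
    linarith
  have hδκ : δ ≤ κ / 16 := by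
    rw [hδ]
    have : t * κ ≤ 1 * κ := mul_le_mul_of_nonneg_right (by linarith) hκ.le
    linarith
  rw [htv] at hzx
  linarith

/-- Step 2: a strongly exposed point of the ball is fixed. -/
lemma fixed_of_exposed [Nontrivial X]
    (h1 : ∀ x, ‖x‖ = 1 → ‖τ x‖ = 1)
    (h2 : ∀ x y, ‖x‖ = 1 → ‖y‖ = 1 → ‖τ x - τ y‖ = ‖x - y‖)
    (h3 : ∀ (z : X) (l : X →L[ℝ] ℝ), ‖z‖ = 1 → SmoothAt z → (∀ u, l u ≤ ‖u‖) → l z = 1 →
      l (τ z) = 1)
    {E : Type*} [NormedAddCommGroup E] (e : X → E) (he : Function.Injective e)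
    (L : X →L[ℝ] ℝ) {p : X} (hp : ‖p‖ ≤ 1)
    (hL : ∀ u, ‖u‖ ≤ 1 → L u ≤ L p - ‖e u - e p‖ ^ 2 / 2) : ‖p‖ = 1 ∧ τ p = p := by
  obtain ⟨v, hv⟩ := exists_norm_eq X (zero_le_one (α := ℝ))
  have hv0 : v ≠ 0 := by
    rintro rfl
    simp at hv
  have hne : e v - e p ≠ 0 ∨ e (-v) - e p ≠ 0 := by
    by_contra hcon
    push Not at hcon
    have h1' : e v = e (-v) := by
      rw [sub_eq_zero.1 hcon.1, sub_eq_zero.1 hcon.2]
    have := he h1'
    have h2' : (2 : ℝ) • v = 0 := by
      rw [two_smul]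
      nth_rewrite 1 [this]
      simp
    simp at h2'
    exact hv0 h2'
  have hLp : 0 < L p := by
    have e1 := hL v hv.le
    have e2 := hL (-v) (by rw [norm_neg]; exact hv.le)
    rw [map_neg] at e2
    have hs : 0 < ‖e v - e p‖ ^ 2 + ‖e (-v) - e p‖ ^ 2 := by
      rcases hne with h | h
      · have := pow_pos (norm_pos_iff.2 h) 2
        positivity
      · have := pow_pos (norm_pos_iff.2 h) 2
        positivity
    linarith
  set l0 : X →L[ℝ] ℝ := (L p)⁻¹ • L with hl0
  have hl0u : ∀ u, l0 u ≤ ‖u‖ := by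
    intro u
    by_cases hu : u = 0
    · simp [hu]
    · have hn : 0 < ‖u‖ := norm_pos_iff.2 hu
      have e1 := hL (‖u‖⁻¹ • u) (by
        rw [norm_smul, norm_inv, norm_norm, inv_mul_cancel₀ hn.ne'])
      have e2 : L (‖u‖⁻¹ • u) ≤ L p := by
        have := sq_nonneg ‖e (‖u‖⁻¹ • u) - e p‖
        linarith
      rw [map_smul, smul_eq_mul, inv_mul_le_iff₀ hn] at e2
      show (L p)⁻¹ * L u ≤ ‖u‖
      rw [inv_mul_le_iff₀ hLp]
      linarith
  have hl0p : l0 p = 1 := by
    show (L p)⁻¹ * L p = 1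
    exact inv_mul_cancel₀ hLp.ne'
  have hp1 : ‖p‖ = 1 := le_antisymm hp (by
    have := hl0u p
    rwa [hl0p] at this)
  refine ⟨hp1, ?_⟩
  have hτ := norming_tau h1 h2 h3 hp1 hl0u hl0p
  have hτ' : L (τ p) = L p := by
    have e0 : (L p)⁻¹ * L (τ p) = 1 := hτ
    field_simp at e0
    linarith
  have e1 := hL (τ p) (h1 p hp1).le
  rw [hτ'] at e1
  have e2 : ‖e (τ p) - e p‖ ^ 2 ≤ 0 := by linarith
  have e3 : ‖e (τ p) - e p‖ = 0 := by
    have := sq_nonneg ‖e (τ p) - e p‖
    nlinarith [norm_nonneg (e (τ p) - e p)]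
  exact he (sub_eq_zero.1 (norm_eq_zero.1 e3))

/-- Step 3: the sphere lies in the convex hull of the fixed points. -/
lemma sphere_subset_hull [Nontrivial X]
    (h1 : ∀ x, ‖x‖ = 1 → ‖τ x‖ = 1)
    (h2 : ∀ x y, ‖x‖ = 1 → ‖y‖ = 1 → ‖τ x - τ y‖ = ‖x - y‖)
    (h3 : ∀ (z : X) (l : X →L[ℝ] ℝ), ‖z‖ = 1 → SmoothAt z → (∀ u, l u ≤ ‖u‖) → l z = 1 →
      l (τ z) = 1)
    {x : X} (hx : ‖x‖ = 1) : x ∈ convexHull ℝ {a : X | ‖a‖ = 1 ∧ τ a = a} := by
  have : ProperSpace X := FiniteDimensional.proper_real X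
  have hfixclosed : IsClosed {a : X | ‖a‖ = 1 ∧ τ a = a} := by
    have hS : IsClosed {a : X | ‖a‖ = 1} := isClosed_eq continuous_norm continuous_const
    have hcont : ContinuousOn (fun a => ‖τ a - a‖) {a : X | ‖a‖ = 1} := by
      have hτ : ContinuousOn τ {a : X | ‖a‖ = 1} := by
        rw [Metric.continuousOn_iff]
        intro a ha ε hε
        refine ⟨ε, hε, fun b hb hab => ?_⟩
        rw [dist_eq_norm, h2 b a hb ha, ← dist_eq_norm]
        exact hab
      exact (hτ.sub continuousOn_id).norm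
    have h := hcont.preimage_isClosed_of_isClosed hS (isClosed_singleton (x := (0 : ℝ)))
    convert h using 1
    ext a
    simp [sub_eq_zero]
  have hfixcomp : IsCompact {a : X | ‖a‖ = 1 ∧ τ a = a} := by
    refine Metric.isCompact_of_isClosed_isBounded hfixclosed ?_
    refine (Metric.isBounded_closedBall (x := (0 : X)) (r := 1)).subset ?_
    intro a ha
    simp [ha.1]
  have hKcomp := isCompact_convexHull_of_isCompact hfixcomp
  by_contra hxK
  obtain ⟨l, u, hlK, hux⟩ := geometric_hahn_banach_closed_point (convex_convexHull ℝ _)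
    hKcomp.isClosed hxK
  -- Euclidean structure
  let E := EuclideanSpace ℝ (Fin (Module.finrank ℝ X))
  let e : X ≃L[ℝ] E := toEuclidean
  let l' : E →L[ℝ] ℝ := l.comp (e.symm : E →L[ℝ] X)
  let n : E := (InnerProductSpace.toDual ℝ E).symm l'
  have hn : ∀ a : X, inner ℝ n (e a) = l a := by
    intro a
    rw [InnerProductSpace.toDual_symm_apply]
    simp [l']
  set M := ‖(e : X →L[ℝ] E)‖ with hM
  have hMbd : ∀ a : X, ‖a‖ ≤ 1 → ‖e a‖ ≤ M := by
    intro a ha
    have h0 := (e : X →L[ℝ] E).le_opNorm a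
    have h3 : M * ‖a‖ ≤ M * 1 := mul_le_mul_of_nonneg_left ha (norm_nonneg _)
    have h4 : ‖e a‖ ≤ M * ‖a‖ := h0
    linarith
  set η := l x - u with hη
  have hηpos : 0 < η := by rw [hη]; linarith
  set R := (M ^ 2 + 1) / (2 * η) with hR
  have hRpos : 0 < R := by positivity
  set c : E := -(R • n) with hc
  obtain ⟨p, hp, hpmax⟩ := (isCompact_closedBall (0 : X) 1).exists_isMaxOn
    ⟨0, by simp⟩ (f := fun a => ‖e a - c‖)
    (by
      have : Continuous fun a : X => ‖e a - c‖ := by fun_prop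
      exact this.continuousOn)
  have hpn : ‖p‖ ≤ 1 := by simpa using hp
  have hpmax' : ∀ a : X, ‖a‖ ≤ 1 → ‖e a - c‖ ≤ ‖e p - c‖ := fun a ha =>
    hpmax (by simpa using ha)
  -- the functional
  let L : X →L[ℝ] ℝ := (innerSL ℝ (e p - c)).comp (e : X →L[ℝ] E)
  have hLapp : ∀ a, L a = inner ℝ (e p - c) (e a) := fun a => rfl
  have hLbd : ∀ a : X, ‖a‖ ≤ 1 → L a ≤ L p - ‖(e a : E) - e p‖ ^ 2 / 2 := by
    intro a ha
    have e1 := hpmax' a ha
    have e2 : ‖e a - c‖ ^ 2 ≤ ‖e p - c‖ ^ 2 := by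
      exact pow_le_pow_left₀ (norm_nonneg _) e1 2
    have e3 : e a - c = (e p - c) + (e a - e p) := by abel
    rw [e3, norm_add_sq_real] at e2
    have e4 : inner ℝ (e p - c) (e a - e p) = L a - L p := by
      rw [hLapp, hLapp, inner_sub_right]
    rw [e4] at e2
    linarith
  have hfix := fixed_of_exposed h1 h2 h3 (E := E) (fun a => e a) e.injective L hpn hLbd
  have hpK : p ∈ convexHull ℝ {a : X | ‖a‖ = 1 ∧ τ a = a} := subset_convexHull ℝ _ hfix
  have hlp := hlK p hpK
  -- compare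
  have hcomp := hpmax' x hx.le
  have hsq : ‖e x - c‖ ^ 2 ≤ ‖e p - c‖ ^ 2 := pow_le_pow_left₀ (norm_nonneg _) hcomp 2
  have hexp : ∀ a : X, ‖e a - c‖ ^ 2 = ‖e a‖ ^ 2 + 2 * (R * l a) + ‖R • n‖ ^ 2 := by
    intro a
    have e1 : e a - c = e a + R • n := by rw [hc]; abel
    rw [e1, norm_add_sq_real, inner_smul_right, real_inner_comm, hn]
  rw [hexp, hexp] at hsq
  have hex := sq_nonneg ‖e x‖
  have hepb : ‖e p‖ ^ 2 ≤ M ^ 2 := pow_le_pow_left₀ (norm_nonneg _) (hMbd p hpn) 2
  have hlx : 2 * R * (l x - l p) ≤ M ^ 2 := by nlinarith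
  have hRη : 2 * R * η = M ^ 2 + 1 := by
    rw [hR]; field_simp
  have hbig : η ≤ l x - l p := by
    rw [hη]; linarith
  have : 2 * R * η ≤ 2 * R * (l x - l p) := mul_le_mul_of_nonneg_left hbig (by positivity)
  linarith

/-- Abstract form of the oddness argument. -/
theorem tau_eq_id [Nontrivial X]
    (h1 : ∀ x, ‖x‖ = 1 → ‖τ x‖ = 1)
    (h2 : ∀ x y, ‖x‖ = 1 → ‖y‖ = 1 → ‖τ x - τ y‖ = ‖x - y‖)
    (h3 : ∀ (z : X) (l : X →L[ℝ] ℝ), ‖z‖ = 1 → SmoothAt z → (∀ u, l u ≤ ‖u‖) → l z = 1 →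
      l (τ z) = 1)
    (h4 : SegAff τ)
    {x : X} (hx : ‖x‖ = 1) : τ x = x := by
  have hxK := sphere_subset_hull h1 h2 h3 hx
  obtain ⟨g0, hg0, hg0x⟩ := exists_dual_vector'' ℝ x
  have hl : ∀ u, g0 u ≤ ‖u‖ := fun u => by
    have e1 := g0.le_opNorm u
    have e2 := Real.le_norm_self (g0 u)
    have e3 : ‖g0‖ * ‖u‖ ≤ 1 * ‖u‖ := mul_le_mul_of_nonneg_right hg0 (norm_nonneg u)
    simp only [one_mul] at e3
    linarith
  have hlx : g0 x = 1 := by
    rw [hg0x, hx]
    rfl
  set W : Set X := {u | ‖u‖ ≤ 1 ∧ (g0 u < 1 ∨ (‖u‖ = 1 ∧ τ u = u ∧ g0 u = 1))} with hW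
  have hWconv : Convex ℝ W := by
    have hsegW : ∀ a b : X, a ∈ W → b ∈ W → ∀ t ∈ Icc (0 : ℝ) 1, (1 - t) • a + t • b ∈ W := by
      intro a b ha hb t ht
      have hnorm : ∀ t ∈ Icc (0 : ℝ) 1, ‖(1 - t) • a + t • b‖ ≤ 1 := by
        intro t ht
        have e0 := norm_add_le ((1 - t) • a) (t • b)
        rw [norm_smul, norm_smul, Real.norm_eq_abs, Real.norm_eq_abs,
          abs_of_nonneg (by linarith [ht.2] : (0 : ℝ) ≤ 1 - t), abs_of_nonneg ht.1] at e0
        have e1 : (1 - t) * ‖a‖ ≤ (1 - t) * 1 :=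
          mul_le_mul_of_nonneg_left ha.1 (by linarith [ht.2])
        have e2 : t * ‖b‖ ≤ t * 1 := mul_le_mul_of_nonneg_left hb.1 ht.1
        linarith
      have hgv : ∀ t : ℝ, g0 ((1 - t) • a + t • b) = (1 - t) * g0 a + t * g0 b := by
        intro t
        rw [map_add, map_smul, map_smul, smul_eq_mul, smul_eq_mul]
      have hga : g0 a ≤ 1 := le_trans (hl a) ha.1
      have hgb : g0 b ≤ 1 := le_trans (hl b) hb.1
      refine ⟨hnorm t ht, ?_⟩
      rcases eq_or_lt_of_le ht.1 with h0 | h0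
      · subst h0
        simpa using ha.2
      rcases eq_or_lt_of_le ht.2 with h0' | h0'
      · subst h0'
        simpa using hb.2
      by_cases hg : g0 ((1 - t) • a + t • b) < 1
      · exact Or.inl hg
      · right
        have hga1 : g0 a = 1 := by
          by_contra hne
          have : g0 a < 1 := lt_of_le_of_ne hga hne
          apply hg
          rw [hgv]
          nlinarith
        have hgb1 : g0 b = 1 := by
          by_contra hne
          have : g0 b < 1 := lt_of_le_of_ne hgb hne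
          apply hg
          rw [hgv]
          nlinarith
        have hafix : ‖a‖ = 1 ∧ τ a = a ∧ g0 a = 1 := by
          rcases ha.2 with h | h
          · exact absurd hga1 h.ne
          · exact h
        have hbfix : ‖b‖ = 1 ∧ τ b = b ∧ g0 b = 1 := by
          rcases hb.2 with h | h
          · exact absurd hgb1 h.ne
          · exact h
        have hseg : ∀ s ∈ Icc (0 : ℝ) 1, ‖(1 - s) • a + s • b‖ = 1 := by
          intro s hs
          refine le_antisymm (hnorm s hs) ?_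
          have := hl ((1 - s) • a + s • b)
          rw [hgv, hga1, hgb1] at this
          linarith
        have hgt : g0 ((1 - t) • a + t • b) = 1 := by
          rw [hgv, hga1, hgb1]; ring
        refine ⟨hseg t ht, ?_, hgt⟩
        rw [h4 a b hafix.1 hbfix.1 hseg t ht, hafix.2.1, hbfix.2.1]
    intro a ha b hb s t hs ht hst
    have hs' : s = 1 - t := by linarith
    rw [hs']
    exact hsegW a b ha hb t ⟨ht, by linarith⟩
  have hsub : {a : X | ‖a‖ = 1 ∧ τ a = a} ⊆ W := by
    intro a ha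
    refine ⟨ha.1.le, ?_⟩
    have hle : g0 a ≤ 1 := by
      have := hl a; rwa [ha.1] at this
    rcases lt_or_eq_of_le hle with h | h
    · exact Or.inl h
    · exact Or.inr ⟨ha.1, ha.2, h⟩
  have hxW := convexHull_min hsub hWconv hxK
  rcases hxW.2 with h | h
  · exact absurd hlx h.ne
  · exact h.2.1

end tau

/-- At a smooth point `z`, the face of the norming functional is a maximal convex subset. -/
lemma isMaxConvex_of_smooth [FiniteDimensional ℝ X] {z : X} (hz : ‖z‖ = 1) (hs : SmoothAt z)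
    {l : X →L[ℝ] ℝ} (hl : ∀ u, l u ≤ ‖u‖) (hlz : l z = 1) :
    IsMaxConvex {u : X | ‖u‖ = 1 ∧ l u = 1} := by
  refine ⟨⟨z, hz, hlz⟩, ?_, ?_, ?_⟩
  · intro a ha b hb s t hs0 ht0 hst
    refine ⟨?_, ?_⟩
    · apply le_antisymm
      · have e0 := norm_add_le (s • a) (t • b)
        rw [norm_smul, norm_smul, Real.norm_eq_abs, Real.norm_eq_abs, abs_of_nonneg hs0,
          abs_of_nonneg ht0, ha.1, hb.1] at e0
        linarith
      · have := hl (s • a + t • b)
        rw [map_add, map_smul, map_smul, smul_eq_mul, smul_eq_mul, ha.2, hb.2] at this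
        linarith
    · rw [map_add, map_smul, map_smul, smul_eq_mul, smul_eq_mul, ha.2, hb.2]
      linarith
  · intro u hu
    simpa using hu.1
  · intro M' hM' hMS hsub
    apply Set.Subset.antisymm _ hsub
    -- Hahn-Banach between the open ball and `M'`
    have hdisj : Disjoint (ball (0 : X) 1) M' := by
      rw [Set.disjoint_left]
      intro a ha ha'
      have h1 : ‖a‖ < 1 := by simpa using ha
      have h2 : ‖a‖ = 1 := by simpa using hMS ha'
      linarith
    obtain ⟨ψ, u, hψ1, hψ2⟩ := geometric_hahn_banach_open (convex_ball (0 : X) 1) isOpen_ball hM'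
      hdisj
    have hzM' : z ∈ M' := hsub ⟨hz, hlz⟩
    have hu1 : ∀ w, ‖w‖ < 1 → ψ w < u := fun w hw => hψ1 w (by simpa using hw)
    have hu0 : 0 < u := by
      have := hu1 0 (by simp)
      simpa using this
    have hψzu : u ≤ ψ z := hψ2 z hzM'
    -- rescale
    have hbd : ∀ w, ψ w ≤ u * ‖w‖ := by
      intro w
      by_cases hw : w = 0
      · simp [hw]
      · have hn : 0 < ‖w‖ := norm_pos_iff.2 hw
        by_contra hcon
        push Not at hcon
        set r := u * ‖w‖ / ψ w with hr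
        have hψw : 0 < ψ w := lt_of_le_of_lt (by positivity) hcon
        have hrlt : r < 1 := by
          rw [hr, div_lt_one hψw]; exact hcon
        have hrpos : 0 ≤ r := by positivity
        -- the point `(r/‖w‖) w` has norm `r`
        have hnr : ‖(r / ‖w‖) • w‖ = r := by
          rw [norm_smul, Real.norm_eq_abs, abs_of_nonneg (by positivity)]
          field_simp
        have := hu1 ((r / ‖w‖) • w) (by rw [hnr]; exact hrlt)
        rw [map_smul, smul_eq_mul, hr] at this
        have e : u * ‖w‖ / ψ w / ‖w‖ * ψ w = u := by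
          field_simp
        rw [e] at this
        exact lt_irrefl _ this
    set l' : X →L[ℝ] ℝ := u⁻¹ • ψ with hl'
    have hl'u : ∀ w, l' w ≤ ‖w‖ := by
      intro w
      show u⁻¹ * ψ w ≤ ‖w‖
      rw [inv_mul_le_iff₀ hu0]
      exact hbd w
    have hl'M : ∀ w ∈ M', l' w = 1 := by
      intro w hw
      have hw1 : ‖w‖ = 1 := by simpa using hMS hw
      have e1 := hl'u w
      rw [hw1] at e1
      have e2 : u ≤ ψ w := hψ2 w hw
      have e3 : 1 ≤ l' w := by
        show 1 ≤ u⁻¹ * ψ w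
        rw [le_inv_mul_iff₀ hu0]
        linarith
      linarith
    have hll' : l = l' := hs l l' hl hlz hl'u (hl'M z hzM')
    intro w hw
    refine ⟨by simpa using hMS hw, ?_⟩
    rw [hll']
    exact hl'M w hw

/-- **Tingley's theorem**, given the face lemmas: `f (-x) = -f x`. -/
theorem odd_of_faces [FiniteDimensional ℝ X] [Nontrivial X] {f : X → Y} (hf : IsSphereIso f)
    {g : Y → X} (hg : ∀ z : Y, ‖z‖ = 1 → ‖g z‖ = 1 ∧ f (g z) = z)
    (haf : SegAff f) (hag : SegAff g)
    (hface : ∀ M : Set X, IsMaxConvex M → ∀ x ∈ M, g (-f (-x)) ∈ M)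
    {x : X} (hx : ‖x‖ = 1) : f (-x) = -f x := by
  have hgf : ∀ a : X, ‖a‖ = 1 → g (f a) = a := by
    intro a ha
    have h1 := hg (f a) (hf.norm_eq a ha)
    have h2 := hf.iso _ _ h1.1 ha
    rw [h1.2, sub_self, norm_zero] at h2
    exact sub_eq_zero.1 (norm_eq_zero.1 h2.symm)
  have hgiso : ∀ a b : Y, ‖a‖ = 1 → ‖b‖ = 1 → ‖g a - g b‖ = ‖a - b‖ := by
    intro a b ha hb
    have h1 := hg a ha
    have h2 := hg b hb
    rw [← hf.iso _ _ h1.1 h2.1, h1.2, h2.2]
  let τ : X → X := fun a => g (-f (-a))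
  have hnf : ∀ a : X, ‖a‖ = 1 → ‖-f (-a)‖ = 1 := by
    intro a ha
    rw [norm_neg]
    exact hf.norm_eq _ (by rwa [norm_neg])
  have h1 : ∀ a, ‖a‖ = 1 → ‖τ a‖ = 1 := fun a ha => (hg _ (hnf a ha)).1
  have h2 : ∀ a b, ‖a‖ = 1 → ‖b‖ = 1 → ‖τ a - τ b‖ = ‖a - b‖ := by
    intro a b ha hb
    show ‖g (-f (-a)) - g (-f (-b))‖ = _
    rw [hgiso _ _ (hnf a ha) (hnf b hb)]
    have e : -f (-a) - -f (-b) = -(f (-a) - f (-b)) := by abel
    rw [e, norm_neg, hf.iso _ _ (by rwa [norm_neg]) (by rwa [norm_neg])]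
    have e2 : -a - -b = -(a - b) := by abel
    rw [e2, norm_neg]
  have h3 : ∀ (z : X) (l : X →L[ℝ] ℝ), ‖z‖ = 1 → SmoothAt z → (∀ u, l u ≤ ‖u‖) → l z = 1 →
      l (τ z) = 1 := by
    intro z l hz hs hl hlz
    have hM := isMaxConvex_of_smooth hz hs hl hlz
    exact (hface _ hM z ⟨hz, hlz⟩).2
  have h4 : SegAff τ := by
    intro a b ha hb hseg t ht
    show g (-f (-((1 - t) • a + t • b))) = _
    have e : -((1 - t) • a + t • b) = (1 - t) • (-a) + t • (-b) := by
      rw [smul_neg, smul_neg]; abel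
    have hseg' : ∀ s ∈ Icc (0 : ℝ) 1, ‖(1 - s) • (-a) + s • (-b)‖ = 1 := by
      intro s hs
      have e' : (1 - s) • (-a) + s • (-b) = -((1 - s) • a + s • b) := by
        rw [smul_neg, smul_neg]; abel
      rw [e', norm_neg]
      exact hseg s hs
    have hfa := haf (-a) (-b) (by rwa [norm_neg]) (by rwa [norm_neg]) hseg'
    rw [e, hfa t ht]
    have e3 : -((1 - t) • f (-a) + t • f (-b)) = (1 - t) • (-f (-a)) + t • (-f (-b)) := by
      rw [smul_neg, smul_neg]; abel
    rw [e3]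
    refine hag _ _ (hnf a ha) (hnf b hb) ?_ t ht
    intro s hs
    have e4 : (1 - s) • (-f (-a)) + s • (-f (-b)) = -((1 - s) • f (-a) + s • f (-b)) := by
      rw [smul_neg, smul_neg]; abel
    rw [e4, norm_neg, ← hfa s hs]
    exact hf.norm_eq _ (hseg' s hs)
  have hτx : τ x = x := tau_eq_id h1 h2 h3 h4 hx
  have h5 := (hg _ (hnf x hx)).2
  have h6 : g (-f (-x)) = x := hτx
  rw [h6] at h5
  rw [h5, neg_neg]

end Vale.Agent.Lib.P084.NS
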