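/-
Maximal faces of the sphere: a surjective isometry of unit spheres of finite dimensional normed
spaces maps maximal convex subsets onto maximal convex subsets, with `f(-F) = -f(F)`, and it is
affine on each segment contained in the sphere (with Mankiewicz's theorem).
-/
import Vale.Agent.Lib.P084.NS.Mank
import Vale.Agent.Lib.P084.NS.Odd

set_option linter.unusedSectionVars false

namespace Vale.Agent.Lib.P084.NS

open Metric Set Pointwise
open Vale.Agent.Lib.P084.UC

variable {X Y : Type*} [NormedAddCommGroup X] [NormedSpace ℝ X]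
  [NormedAddCommGroup Y] [NormedSpace ℝ Y]

/-- Every nonempty convex subset of the sphere lies in a maximal one. -/
theorem exists_maxConvex {C : Set X} (hne : C.Nonempty) (hC : Convex ℝ C)
    (hCs : C ⊆ sphere (0 : X) 1) : ∃ F : Set X, IsMaxConvex F ∧ C ⊆ F := by
  let S : Set (Set X) := {F | Convex ℝ F ∧ F ⊆ sphere (0 : X) 1}
  have hchain : ∀ c ⊆ S, IsChain (· ⊆ ·) c → c.Nonempty → ∃ ub ∈ S, ∀ s ∈ c, s ⊆ ub := by
    intro c hcS hc _
    refine ⟨⋃₀ c, ⟨hc.directedOn.convex_sUnion fun s hs => (hcS hs).1, ?_⟩,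
      fun s hs => subset_sUnion_of_mem hs⟩
    exact sUnion_subset fun s hs => (hcS hs).2
  obtain ⟨F, hCF, hmax⟩ := zorn_subset_nonempty S hchain C ⟨hC, hCs⟩
  refine ⟨F, ⟨hne.mono hCF, hmax.prop.1, hmax.prop.2, ?_⟩, hCF⟩
  intro M' hM' hM's hFM'
  exact Subset.antisymm (hmax.le_of_ge ⟨hM', hM's⟩ hFM') hFM'

/-- Maximal convex subsets are closed. -/
theorem IsMaxConvex.isClosed {F : Set X} (hF : IsMaxConvex F) : IsClosed F := by
  obtain ⟨_, hc, hs, hm⟩ := hF
  have h1 : closure F ⊆ sphere (0 : X) 1 := isClosed_sphere.closure_subset_iff.mpr hs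
  have := hm (closure F) hc.closure h1 subset_closure
  rw [← this]
  exact isClosed_closure

/-- The antipodal image of a maximal convex set is maximal convex. -/
theorem IsMaxConvex.neg {F : Set X} (hF : IsMaxConvex F) : IsMaxConvex (-F) := by
  obtain ⟨⟨x, hx⟩, hc, hs, hm⟩ := hF
  refine ⟨⟨-x, by simpa using hx⟩, hc.neg, ?_, ?_⟩
  · intro y hy
    have := hs (Set.mem_neg.mp hy)
    simpa using this
  · intro M' hM' hM's hFM'
    have h1 : -M' = F := by
      apply hm (-M') hM'.neg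
      · intro y hy
        have := hM's (Set.mem_neg.mp hy)
        simpa using this
      · intro y hy
        apply Set.mem_neg.mpr
        apply hFM'
        simpa using hy
    rw [← h1, neg_neg]

/-- Relative interior points (algebraic form). -/
def IsRelInt (F : Set X) (x : X) : Prop :=
  x ∈ F ∧ ∀ w ∈ F, ∃ ε : ℝ, 0 < ε ∧ x + ε • (x - w) ∈ F

/-- A nonempty convex set of a finite dimensional space has a relative interior point. -/
theorem exists_relInt [FiniteDimensional ℝ X] {F : Set X} (hne : F.Nonempty) (hc : Convex ℝ F) :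
    ∃ x, IsRelInt F x := by
  obtain ⟨x, hx⟩ := hne.intrinsicInterior hc
  refine ⟨x, intrinsicInterior_subset hx, ?_⟩
  intro w hw
  obtain ⟨y, hy, rfl⟩ := mem_intrinsicInterior.mp hx
  have hxmem : (y : X) ∈ affineSpan ℝ F := y.2
  have hwmem : w ∈ affineSpan ℝ F := subset_affineSpan ℝ F hw
  let c : ℝ → affineSpan ℝ F := fun ε =>
    ⟨AffineMap.lineMap (y : X) w (-ε), AffineMap.lineMap_mem _ hxmem hwmem⟩
  have hc0 : c 0 = y := by
    apply Subtype.ext
    simp [c]
  have hcont : Continuous c := by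
    apply Continuous.subtype_mk
    exact (AffineMap.lineMap_continuous).comp continuous_neg
  have hmem : interior (((↑) : affineSpan ℝ F → X) ⁻¹' F) ∈ nhds (c 0) := by
    rw [hc0]
    exact isOpen_interior.mem_nhds hy
  have hev := hcont.tendsto 0 hmem
  rw [Filter.mem_map, Metric.mem_nhds_iff] at hev
  obtain ⟨δ, hδ, hball⟩ := hev
  refine ⟨δ / 2, by positivity, ?_⟩
  have h1 : δ / 2 ∈ ball (0 : ℝ) δ := by
    rw [mem_ball, dist_zero_right, Real.norm_of_nonneg (by positivity)]
    linarith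
  have h2 := interior_subset (hball h1)
  have h3 : ((c (δ / 2) : affineSpan ℝ F) : X) ∈ F := h2
  have h4 : ((c (δ / 2) : affineSpan ℝ F) : X) = (y : X) + (δ / 2) • ((y : X) - w) := by
    simp only [c, AffineMap.lineMap_apply, vsub_eq_sub, vadd_eq_add]
    module
  rw [← h4]
  exact h3

/-- A point in the relative interior of a maximal convex set sees exactly that set. -/
theorem IsMaxConvex.mem_of_norm_add {F : Set X} (hF : IsMaxConvex F) {x z : X} (hx : IsRelInt F x)
    (hz : ‖z‖ = 1) (hxz : ‖x + z‖ = 2) : z ∈ F := by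
  obtain ⟨_, hc, hs, hm⟩ := hF
  have hne : ‖x + z‖ ≠ 0 := by rw [hxz]; norm_num
  obtain ⟨l, hl1, hl2⟩ := exists_dual_vector ℝ (x + z) hne
  have hle : ∀ u, l u ≤ ‖u‖ := by
    intro u
    have := l.le_opNorm u
    rw [hl1, one_mul, Real.norm_eq_abs] at this
    exact (le_abs_self _).trans this
  have hxn : ‖x‖ = 1 := by simpa using hs hx.1
  have hl2' : l (x + z) = 2 := by rw [hl2, hxz]; norm_num
  rw [map_add] at hl2'
  have hlx : l x = 1 := by
    have h1 := hle x
    have h2 := hle z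
    rw [hxn] at h1
    rw [hz] at h2
    linarith
  have hlz : l z = 1 := by linarith
  let M' : Set X := {u | ‖u‖ = 1 ∧ l u = 1}
  have hM'c : Convex ℝ M' := by
    intro u hu v hv a b ha hb hab
    have hlv : l (a • u + b • v) = 1 := by
      rw [map_add, map_smul, map_smul, hu.2, hv.2]
      simp [hab]
    refine ⟨le_antisymm ?_ ?_, hlv⟩
    · calc ‖a • u + b • v‖ ≤ ‖a • u‖ + ‖b • v‖ := norm_add_le _ _
        _ = a + b := by
            rw [norm_smul, norm_smul, hu.1, hv.1, Real.norm_of_nonneg ha, Real.norm_of_nonneg hb]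
            ring
        _ = 1 := hab
    · rw [← hlv]
      exact hle _
  have hM's : M' ⊆ sphere (0 : X) 1 := by
    intro u hu
    simpa using hu.1
  have hsub : F ⊆ M' := by
    intro w hw
    have hwn : ‖w‖ = 1 := by simpa using hs hw
    refine ⟨hwn, ?_⟩
    obtain ⟨ε, hε, hmem⟩ := hx.2 w hw
    have h1 : ‖x + ε • (x - w)‖ = 1 := by simpa using hs hmem
    have h2 := hle (x + ε • (x - w))
    rw [h1, map_add, map_smul, map_sub, hlx] at h2
    have h3 := hle w
    rw [hwn] at h3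
    simp only [smul_eq_mul] at h2
    have h4 : ε * (1 - l w) ≤ 0 := by linarith
    have h5 : 1 - l w ≤ 0 := by
      by_contra hcon
      push Not at hcon
      have : 0 < ε * (1 - l w) := mul_pos hε hcon
      linarith
    linarith
  have := hm M' hM'c hM's hsub
  rw [← this]
  exact ⟨hz, hlz⟩

/-- Two points of a convex subset of the sphere have sum of norm two. -/
theorem norm_add_eq_two_of_mem {F : Set X} (hc : Convex ℝ F) (hs : F ⊆ sphere (0 : X) 1) {a b : X}
    (ha : a ∈ F) (hb : b ∈ F) : ‖a + b‖ = 2 := by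
  have h1 : (1 / 2 : ℝ) • a + (1 / 2 : ℝ) • b ∈ F :=
    hc ha hb (by norm_num) (by norm_num) (by norm_num)
  have h2 : ‖(1 / 2 : ℝ) • a + (1 / 2 : ℝ) • b‖ = 1 := by simpa using hs h1
  rw [← smul_add, norm_smul, Real.norm_of_nonneg (by norm_num)] at h2
  linarith

section Image

variable {f : X → Y}

/-- The basic inclusions. -/
theorem face_incl (hf : IsSphereIso f) {F : Set X} (hF : IsMaxConvex F) {x : X}
    (hx : IsRelInt F x) {G : Set Y} (hG : IsMaxConvex G) (hxG : - f x ∈ G) {a : Y}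
    (ha : IsRelInt G a) :
    (∀ c ∈ G, ∃ u, ‖u‖ = 1 ∧ f u = c ∧ -u ∈ F) ∧ (∀ z ∈ F, - f z ∈ G) := by
  have hxn : ‖x‖ = 1 := by simpa using hF.2.2.1 hx.1
  have hFn : ∀ z ∈ F, ‖z‖ = 1 := fun z hz => by simpa using hF.2.2.1 hz
  have hGn : ∀ z ∈ G, ‖z‖ = 1 := fun z hz => by simpa using hG.2.2.1 hz
  have hA : ∀ c ∈ G, ∃ u, ‖u‖ = 1 ∧ f u = c ∧ -u ∈ F := by
    intro c hc
    obtain ⟨u, hu, hfu⟩ := hf.surj c (hGn c hc)
    refine ⟨u, hu, hfu, ?_⟩
    apply hF.mem_of_norm_add hx (by rwa [norm_neg])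
    rw [← sub_eq_add_neg, ← hf.iso x u hxn hu, hfu]
    have h1 := norm_add_eq_two_of_mem hG.2.1 hG.2.2.1 hxG hc
    rw [← h1, ← norm_neg (f x - c)]
    congr 1
    abel
  refine ⟨hA, ?_⟩
  intro z hz
  obtain ⟨u, hu, hfu, hmu⟩ := hA a ha.1
  have hzn := hFn z hz
  apply hG.mem_of_norm_add ha (by rw [norm_neg]; exact hf.norm_eq z hzn)
  have h1 := norm_add_eq_two_of_mem hF.2.1 hF.2.2.1 hz hmu
  have e : a + - f z = -(f z - f u) := by rw [hfu]; abel
  rw [e, norm_neg, hf.iso z u hzn hu, sub_eq_add_neg]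
  exact h1

/-- Image of maximal convex sets. -/
theorem image_maxConvex [FiniteDimensional ℝ X] [FiniteDimensional ℝ Y]
    (hf : IsSphereIso f) {F : Set X} (hF : IsMaxConvex F) :
    IsMaxConvex (f '' F) ∧ f '' (-F) = -(f '' F) := by
  -- first application
  obtain ⟨x, hx⟩ := exists_relInt hF.1 hF.2.1
  have hxn : ‖x‖ = 1 := by simpa using hF.2.2.1 hx.1
  have hcone : Convex ℝ ({- f x} : Set Y) := convex_singleton _
  have hones : ({- f x} : Set Y) ⊆ sphere (0 : Y) 1 := by
    rintro _ rfl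
    simpa using hf.norm_eq x hxn
  obtain ⟨G, hG, hxG⟩ := exists_maxConvex (singleton_nonempty _) hcone hones
  obtain ⟨a, ha⟩ := exists_relInt hG.1 hG.2.1
  obtain ⟨h1, h2⟩ := face_incl hf hF hx hG (hxG rfl) ha
  -- second application
  have hF' := hF.neg
  obtain ⟨x', hx'⟩ := exists_relInt hF'.1 hF'.2.1
  have hxn' : ‖x'‖ = 1 := by simpa using hF'.2.2.1 hx'.1
  have hcone' : Convex ℝ ({- f x'} : Set Y) := convex_singleton _
  have hones' : ({- f x'} : Set Y) ⊆ sphere (0 : Y) 1 := by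
    rintro _ rfl
    simpa using hf.norm_eq x' hxn'
  obtain ⟨G', hG', hxG'⟩ := exists_maxConvex (singleton_nonempty _) hcone' hones'
  obtain ⟨a', ha'⟩ := exists_relInt hG'.1 hG'.2.1
  obtain ⟨h3, h4⟩ := face_incl hf hF' hx' hG' (hxG' rfl) ha'
  -- comparing
  have e1 : G ⊆ f '' (-F) := by
    intro c hc
    obtain ⟨u, _, hfu, hmu⟩ := h1 c hc
    exact ⟨u, Set.mem_neg.mpr hmu, hfu⟩
  have e2 : ∀ z ∈ -F, - f z ∈ G' := h4
  have e3 : G' ⊆ f '' F := by
    intro c hc
    obtain ⟨u, _, hfu, hmu⟩ := h3 c hc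
    refine ⟨u, ?_, hfu⟩
    have := Set.mem_neg.mp hmu
    simpa using this
  have e4 : ∀ z ∈ F, - f z ∈ G := h2
  -- `G' = f '' F` and `G = f '' (-F)`
  have s1 : f '' F ⊆ -G := by
    rintro _ ⟨z, hz, rfl⟩
    exact Set.mem_neg.mpr (e4 z hz)
  have s2 : -G ⊆ G' := by
    intro c hc
    have hc' := Set.mem_neg.mp hc
    obtain ⟨z, hz, hfz⟩ := e1 hc'
    have := e2 z hz
    rw [hfz, neg_neg] at this
    exact this
  have eqF : f '' F = G' := Subset.antisymm (s1.trans s2) e3
  have eqG : -G = G' := Subset.antisymm s2 (e3.trans s1)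
  have eqFm : f '' (-F) = G := by
    apply Subset.antisymm _ e1
    rintro _ ⟨z, hz, rfl⟩
    have h5 := e2 z hz
    rw [← eqG] at h5
    have := Set.mem_neg.mp h5
    simpa using this
  refine ⟨by rw [eqF]; exact hG', ?_⟩
  rw [eqFm, eqF, ← eqG, neg_neg]

/-- The direction space of a set, seen from a base point. -/
def dirSpan (F : Set X) (x0 : X) : Submodule ℝ X := Submodule.span ℝ ((fun z => z - x0) '' F)

theorem convex_dirSet {F : Set X} (hc : Convex ℝ F) (x0 : X) :
    Convex ℝ {v : dirSpan F x0 | x0 + (v : X) ∈ F} := by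
  intro v hv w hw a b ha hb hab
  show x0 + ((a • v + b • w : dirSpan F x0) : X) ∈ F
  have e : x0 + ((a • v + b • w : dirSpan F x0) : X)
      = a • (x0 + (v : X)) + b • (x0 + (w : X)) := by
    simp only [Submodule.coe_add, Submodule.coe_smul, smul_add]
    have : x0 = a • x0 + b • x0 := by rw [← add_smul, hab, one_smul]
    nth_rewrite 1 [this]
    abel
  rw [e]
  exact hc hv hw ha hb hab

theorem interior_dirSet_nonempty [FiniteDimensional ℝ X] {F : Set X} (hc : Convex ℝ F) {x0 : X}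
    (hx0 : x0 ∈ F) : (interior {v : dirSpan F x0 | x0 + (v : X) ∈ F}).Nonempty := by
  set A : Set (dirSpan F x0) := {v : dirSpan F x0 | x0 + (v : X) ∈ F} with hA
  have hAc : Convex ℝ A := convex_dirSet hc x0
  have h0 : (0 : dirSpan F x0) ∈ A := by
    show x0 + ((0 : dirSpan F x0) : X) ∈ F
    simpa using hx0
  rw [hAc.interior_nonempty_iff_affineSpan_eq_top,
    AffineSubspace.affineSpan_eq_top_iff_vectorSpan_eq_top_of_nonempty ℝ _ _ ⟨0, h0⟩,
    vectorSpan_eq_span_vsub_set_right ℝ h0, eq_top_iff]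
  have key : ∀ (u : X) (hu : u ∈ dirSpan F x0),
      (⟨u, hu⟩ : dirSpan F x0) ∈ Submodule.span ℝ ((· -ᵥ (0 : dirSpan F x0)) '' A) := by
    intro u hu
    induction hu using Submodule.span_induction with
    | mem u hu =>
      obtain ⟨z, hz, rfl⟩ := hu
      apply Submodule.subset_span
      refine ⟨⟨z - x0, Submodule.subset_span ⟨z, hz, rfl⟩⟩, ?_, by simp⟩
      show x0 + (z - x0) ∈ F
      simpa using hz
    | zero => exact Submodule.zero_mem _
    | add x y hx hy h1 h2 => exact Submodule.add_mem _ h1 h2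
    | smul c x hx h1 => exact Submodule.smul_mem _ c h1
  intro v _
  exact key v.1 v.2

/-- `f` is affine on each segment contained in the sphere. -/
theorem segAff [FiniteDimensional ℝ X] [FiniteDimensional ℝ Y] (hf : IsSphereIso f) : SegAff f := by
  classical
  intro a b ha hb hseg t ht
  have hCs : segment ℝ a b ⊆ sphere (0 : X) 1 := by
    rw [segment_eq_image]
    rintro _ ⟨s, hs, rfl⟩
    simpa using hseg s hs
  obtain ⟨F, hF, hCF⟩ := exists_maxConvex ⟨a, left_mem_segment ℝ a b⟩ (convex_segment a b) hCs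
  have haF : a ∈ F := hCF (left_mem_segment ℝ a b)
  have hbF : b ∈ F := hCF (right_mem_segment ℝ a b)
  have hFn : ∀ z ∈ F, ‖z‖ = 1 := fun z hz => by simpa using hF.2.2.1 hz
  obtain ⟨hF', _⟩ := image_maxConvex hf hF
  have hfaF' : f a ∈ f '' F := ⟨a, haF, rfl⟩
  let g : dirSpan F a → dirSpan (f '' F) (f a) := fun v =>
    if h : a + (v : X) ∈ F then
      ⟨f (a + (v : X)) - f a, Submodule.subset_span ⟨_, ⟨_, h, rfl⟩, rfl⟩⟩ else 0
  have hg : ∀ v : dirSpan F a, a + (v : X) ∈ F →
      ((g v : dirSpan (f '' F) (f a)) : Y) = f (a + (v : X)) - f a := by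
    intro v hv
    simp only [g, dif_pos hv]
  have hiso : ∀ v ∈ {v : dirSpan F a | a + (v : X) ∈ F}, ∀ w ∈ {v : dirSpan F a | a + (v : X) ∈ F},
      ‖g v - g w‖ = ‖v - w‖ := by
    intro v hv w hw
    have h1 : ‖g v - g w‖ = ‖((g v - g w : dirSpan (f '' F) (f a)) : Y)‖ := rfl
    have h2 : ‖v - w‖ = ‖((v - w : dirSpan F a) : X)‖ := rfl
    rw [h1, h2, Submodule.coe_sub, Submodule.coe_sub, hg v hv, hg w hw]
    have e1 : f (a + (v : X)) - f a - (f (a + (w : X)) - f a) = f (a + (v : X)) - f (a + (w : X)) := by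
      abel
    have e2 : (v : X) - (w : X) = (a + (v : X)) - (a + (w : X)) := by abel
    rw [e1, e2, hf.iso _ _ (hFn _ hv) (hFn _ hw)]
  have honto : ∀ y ∈ {v : dirSpan (f '' F) (f a) | f a + (v : Y) ∈ f '' F},
      ∃ x ∈ {v : dirSpan F a | a + (v : X) ∈ F}, g x = y := by
    intro y hy
    obtain ⟨z, hz, hfz⟩ := hy
    let v : dirSpan F a := ⟨z - a, Submodule.subset_span ⟨z, hz, rfl⟩⟩
    have hv : a + (v : X) ∈ F := by
      show a + (z - a) ∈ F
      simpa using hz
    refine ⟨v, hv, ?_⟩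
    apply Subtype.ext
    rw [hg v hv]
    have : a + (v : X) = z := by
      show a + (z - a) = z
      abel
    rw [this, hfz]
    abel
  obtain ⟨L, p, hp, hL⟩ := mankiewicz (convex_dirSet hF.2.1 a)
    (interior_dirSet_nonempty hF.2.1 haF) (interior_dirSet_nonempty hF'.2.1 hfaF') hiso honto
  -- three points
  let v0 : dirSpan F a := 0
  let vb : dirSpan F a := ⟨b - a, Submodule.subset_span ⟨b, hbF, rfl⟩⟩
  let vt : dirSpan F a := t • vb
  have hv0 : a + (v0 : X) ∈ F := by
    show a + ((0 : dirSpan F a) : X) ∈ F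
    simpa using haF
  have hvb : a + (vb : X) ∈ F := by
    show a + (b - a) ∈ F
    simpa using hbF
  have et : a + (vt : X) = (1 - t) • a + t • b := by
    show a + t • (b - a) = _
    module
  have hvt : a + (vt : X) ∈ F := by
    rw [et]
    apply hCF
    rw [segment_eq_image]
    exact ⟨t, ht, rfl⟩
  have h1 := hL v0 hv0
  have h2 := hL vb hvb
  have h3 := hL vt hvt
  have hrel : g vt = (1 - t) • g v0 + t • g vb := by
    rw [h1, h2, h3]
    simp only [vt, v0, map_sub, map_smul, map_zero]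
    module
  have hcoe := congrArg (fun u : dirSpan (f '' F) (f a) => (u : Y)) hrel
  simp only [Submodule.coe_add, Submodule.coe_smul] at hcoe
  rw [hg vt hvt, hg v0 hv0, hg vb hvb, et] at hcoe
  have e0 : a + (v0 : X) = a := by
    show a + ((0 : dirSpan F a) : X) = a
    simp
  have eb : a + (vb : X) = b := by
    show a + (b - a) = b
    abel
  rw [e0, eb] at hcoe
  have : f ((1 - t) • a + t • b) = (f ((1 - t) • a + t • b) - f a) + f a := by abel
  rw [this, hcoe]
  module

/-- The inverse of a sphere isometry is a sphere isometry. -/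
theorem inv_isSphereIso (hf : IsSphereIso f) {g : Y → X} (hg : ∀ z, ‖z‖ = 1 → ‖g z‖ = 1 ∧ f (g z) = z) :
    IsSphereIso g := by
  refine ⟨fun z hz => (hg z hz).1, ?_, ?_⟩
  · intro z z' hz hz'
    rw [← hf.iso _ _ (hg z hz).1 (hg z' hz').1, (hg z hz).2, (hg z' hz').2]
  · intro x hx
    refine ⟨f x, hf.norm_eq x hx, ?_⟩
    have h1 := hg (f x) (hf.norm_eq x hx)
    have h2 := hf.iso _ _ h1.1 hx
    rw [h1.2, sub_self, norm_zero] at h2
    exact sub_eq_zero.mp (norm_eq_zero.mp h2.symm)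

/-- Tingley's theorem: sphere isometries of finite dimensional spaces are odd. -/
theorem sphereIso_odd [FiniteDimensional ℝ X] [FiniteDimensional ℝ Y] (hf : IsSphereIso f) {x : X}
    (hx : ‖x‖ = 1) : f (-x) = - f x := by
  obtain ⟨g, hg⟩ := hf.exists_inv
  have hgi : IsSphereIso g := inv_isSphereIso hf hg
  have hnt : Nontrivial X := ⟨⟨x, 0, by
    intro h
    rw [h, norm_zero] at hx
    norm_num at hx⟩⟩
  refine odd_of_faces hf hg (segAff hf) (segAff hgi) ?_ hx
  intro M hM y hy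
  obtain ⟨_, hneg⟩ := image_maxConvex hf hM
  have h1 : f (-y) ∈ f '' (-M) := ⟨-y, by simpa using hy, rfl⟩
  rw [hneg] at h1
  obtain ⟨y', hy', hfy'⟩ := Set.mem_neg.mp h1
  have hyn : ‖y'‖ = 1 := by simpa using hM.2.2.1 hy'
  have h2 : - f (-y) = f y' := hfy'.symm
  rw [h2]
  have h3 := hg (f y') (hf.norm_eq y' hyn)
  have h4 := hf.iso _ _ h3.1 hyn
  rw [h3.2, sub_self, norm_zero] at h4
  rw [sub_eq_zero.mp (norm_eq_zero.mp h4.symm)]
  exact hy'

end Image

end Vale.Agent.Lib.P084.NS
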