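/-
Cone lemma (helper53 #1947, Step 2). `C` convex in a finite-dimensional space, `w ∈ C`,
`w + v k ∈ C` for all `k`, and the partial sums of `v` recur to `0`.  Then for every `k` some
positive multiple of `- v k` stays in `C`: no closedness of the cone is needed.
-/
import Mathlib

namespace Vale.Agent.Lib.P084.NS

open scoped BigOperators

variable {X : Type*} [NormedAddCommGroup X] [NormedSpace ℝ X]

/-- Nonnegative combinations of vectors of the cone at `w` stay in the cone. -/
theorem pos_comb_mem {C : Set X} (hC : Convex ℝ C) {w : X} (hw : w ∈ C) {v : ℕ → X}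
    (hv : ∀ k, w + v k ∈ C) (F : Finset ℕ) (c : ℕ → ℝ) (hc : ∀ i ∈ F, 0 ≤ c i) :
    ∃ d > (0 : ℝ), w + d • ∑ i ∈ F, c i • v i ∈ C := by
  classical
  set M : ℝ := ∑ i ∈ F, c i with hM
  have hM0 : 0 ≤ M := Finset.sum_nonneg hc
  refine ⟨1 / (M + 1), by positivity, ?_⟩
  set d : ℝ := 1 / (M + 1) with hd
  have hd0 : 0 < d := by positivity
  have hMd : d * M + d = 1 := by
    rw [hd]; field_simp
  -- convex combination of `w` (weight `d`) and of the `w + v i` (weights `d * c i`)
  have key : w + d • ∑ i ∈ F, c i • v i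
      = d • w + ∑ i ∈ F, (d * c i) • (w + v i) := by
    have h1 : ∑ i ∈ F, (d * c i) • (w + v i)
        = (d * M) • w + d • ∑ i ∈ F, c i • v i := by
      simp only [smul_add, Finset.sum_add_distrib]
      congr 1
      · rw [← Finset.sum_smul, hM, Finset.mul_sum]
      · rw [Finset.smul_sum]
        refine Finset.sum_congr rfl fun i _ => ?_
        rw [smul_smul]
    rw [h1, ← add_assoc, ← add_smul, add_comm d, hMd, one_smul]
  rw [key]
  -- use convexity on `insert`-free form
  have hsum : (∑ i ∈ F, d * c i) = d * M := by rw [hM, Finset.mul_sum]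
  by_cases hFM : d * M = 0
  · -- all weights vanish
    have h0 : ∀ i ∈ F, d * c i = 0 := by
      have := (Finset.sum_eq_zero_iff_of_nonneg
        (fun i hi => mul_nonneg hd0.le (hc i hi))).1 (hsum.trans hFM)
      exact this
    have : ∑ i ∈ F, (d * c i) • (w + v i) = 0 :=
      Finset.sum_eq_zero fun i hi => by rw [h0 i hi, zero_smul]
    rw [this, add_zero]
    have hd1 : d = 1 := by linarith
    rw [hd1, one_smul]; exact hw
  · have hpos : 0 < d * M := lt_of_le_of_ne (by positivity) (Ne.symm hFM)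
    have hmem : (d * M)⁻¹ • ∑ i ∈ F, (d * c i) • (w + v i) ∈ C := by
      have := hC.sum_mem (t := F) (w := fun i => (d * M)⁻¹ * (d * c i)) (z := fun i => w + v i)
        (fun i hi => mul_nonneg (inv_nonneg.2 hpos.le) (mul_nonneg hd0.le (hc i hi)))
        (by rw [← Finset.mul_sum, hsum]; exact inv_mul_cancel₀ hFM)
        (fun i _ => hv i)
      convert this using 1
      rw [Finset.smul_sum]
      refine Finset.sum_congr rfl fun i _ => ?_
      rw [smul_smul]
    have := hC hw hmem hd0.le hpos.le (by linarith)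
    convert this using 2
    rw [smul_smul, mul_inv_cancel₀ hFM, one_smul]

variable [FiniteDimensional ℝ X]

/-- The cone lemma. -/
theorem cone_lemma {C : Set X} (hC : Convex ℝ C) {w : X} (hw : w ∈ C) (v : ℕ → X)
    (hv : ∀ k, w + v k ∈ C)
    (hrec : ∀ k N : ℕ, ∀ η > (0 : ℝ), ∃ n, N < n ∧ k < n ∧ ‖∑ i ∈ Finset.Ico k n, v i‖ < η)
    (k : ℕ) : ∃ d > (0 : ℝ), w - d • v k ∈ C := by
  classical
  -- the tail spans a subspace with a finite spanning subfamily
  set W : Submodule ℝ X := Submodule.span ℝ (v '' {i | k < i}) with hW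
  have hWfg : W.FG := IsNoetherian.noetherian W
  obtain ⟨s', hs', hspan⟩ := (Submodule.fg_span_iff_fg_span_finset_subset _).1 hWfg
  obtain ⟨F, hF, rfl⟩ := Finset.subset_set_image_iff.1 hs'
  have hFk : ∀ i ∈ F, k < i := fun i hi => hF hi
  -- every tail vector lies in `W`
  have htail : ∀ i, k < i → v i ∈ W := fun i hi => Submodule.subset_span ⟨i, hi, rfl⟩
  have hIco : ∀ n, k < n → ∑ i ∈ Finset.Ico k n, v i = v k + ∑ i ∈ Finset.Ico (k + 1) n, v i := by
    intro n hn
    rw [Finset.sum_eq_sum_Ico_succ_bot hn]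
  -- `v k ∈ W` by recurrence
  have hvk : v k ∈ W := by
    have hcl : IsClosed (W : Set X) := Submodule.closed_of_finiteDimensional W
    have : v k ∈ closure (W : Set X) := by
      rw [Metric.mem_closure_iff]
      intro η hη
      obtain ⟨n, -, hkn, hn⟩ := hrec k 0 η hη
      refine ⟨-∑ i ∈ Finset.Ico (k + 1) n, v i,
        W.neg_mem (W.sum_mem fun i hi => htail i (by
          have := (Finset.mem_Ico.1 hi).1; omega)), ?_⟩
      rw [dist_eq_norm, sub_neg_eq_add, ← hIco n hkn]
      exact hn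
    rwa [hcl.closure_eq] at this
  -- the synthesis map and a bounded right inverse
  let T : (F → ℝ) →ₗ[ℝ] X := Fintype.linearCombination ℝ (fun i : F => v i)
  have hT : LinearMap.range T = W := by
    have : Set.range (fun i : F => v i) = ↑(F.image v) := by
      ext x; simp
    rw [Fintype.range_linearCombination, this, hW, hspan]
  have hsurj : LinearMap.range (T.rangeRestrict) = ⊤ := LinearMap.range_rangeRestrict T
  obtain ⟨g, hg⟩ := LinearMap.exists_rightInverse_of_surjective _ hsurj
  let G : LinearMap.range T →L[ℝ] (F → ℝ) := LinearMap.toContinuousLinearMap g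
  have hGT : ∀ ξ : LinearMap.range T, T (G ξ) = ξ := by
    intro ξ
    have := LinearMap.congr_fun hg ξ
    exact congrArg Subtype.val this
  -- choose `n` with small partial sum
  set η : ℝ := 1 / (‖G‖ + 1) with hη
  have hη0 : 0 < η := by positivity
  obtain ⟨n, hFn, hkn, hn⟩ := hrec k (F.sup id) η hη0
  set ξ : X := ∑ i ∈ Finset.Ico k n, v i with hξ
  have hξW : ξ ∈ LinearMap.range T := by
    rw [hT, hξ, hIco n hkn]
    exact W.add_mem hvk (W.sum_mem fun i hi => htail i (by
      have := (Finset.mem_Ico.1 hi).1; omega))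
  set c : F → ℝ := G ⟨ξ, hξW⟩ with hc
  have hcξ : ∑ i : F, c i • v i = ξ := by
    have := hGT ⟨ξ, hξW⟩
    rw [← hc] at this
    simpa [T, Fintype.linearCombination_apply] using this
  have hcnorm : ‖c‖ < 1 := by
    have h1 : ‖c‖ ≤ ‖G‖ * ‖(⟨ξ, hξW⟩ : LinearMap.range T)‖ := G.le_opNorm _
    have h2 : ‖(⟨ξ, hξW⟩ : LinearMap.range T)‖ = ‖ξ‖ := rfl
    rw [h2] at h1
    have h3 : ‖G‖ * ‖ξ‖ ≤ ‖G‖ * η := mul_le_mul_of_nonneg_left hn.le (ContinuousLinearMap.opNorm_nonneg G)
    have h4 : ‖G‖ * η < 1 := by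
      rw [hη, mul_one_div, div_lt_one (by positivity)]
      linarith
    linarith
  have hci : ∀ i : F, c i ≤ 1 := fun i =>
    (le_abs_self _).trans ((Real.norm_eq_abs _ ▸ norm_le_pi_norm c i).trans hcnorm.le)
  -- extend `c` by zero to all indices
  let c' : ℕ → ℝ := fun i => if h : i ∈ F then c ⟨i, h⟩ else 0
  have hc'F : ∑ i ∈ F, c' i • v i = ξ := by
    rw [← hcξ, ← Finset.sum_coe_sort F]
    refine Finset.sum_congr rfl fun i _ => ?_
    simp [c']
  have hFsub : F ⊆ Finset.Ico (k + 1) n := by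
    intro i hi
    rw [Finset.mem_Ico]
    refine ⟨hFk i hi, ?_⟩
    have : i ≤ F.sup id := Finset.le_sup (f := id) hi
    omega
  have hc'sum : ∑ i ∈ Finset.Ico (k + 1) n, c' i • v i = ξ := by
    rw [← hc'F]
    refine (Finset.sum_subset hFsub ?_).symm
    intro i _ hiF
    simp [c', hiF]
  have hkey : ∑ i ∈ Finset.Ico (k + 1) n, (1 - c' i) • v i = - v k := by
    have h1 : ∑ i ∈ Finset.Ico (k + 1) n, (1 - c' i) • v i
        = ∑ i ∈ Finset.Ico (k + 1) n, v i - ∑ i ∈ Finset.Ico (k + 1) n, c' i • v i := by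
      rw [← Finset.sum_sub_distrib]
      refine Finset.sum_congr rfl fun i _ => ?_
      rw [sub_smul, one_smul]
    rw [h1, hc'sum, hξ, hIco n hkn]
    abel
  obtain ⟨d, hd, hmem⟩ := pos_comb_mem hC hw hv (Finset.Ico (k + 1) n) (fun i => 1 - c' i) (by
    intro i _
    by_cases h : i ∈ F
    · have := hci ⟨i, h⟩
      simp only [c', dif_pos h]
      linarith
    · simp [c', h])
  refine ⟨d, hd, ?_⟩
  rw [hkey, smul_neg, ← sub_eq_add_neg] at hmem
  exact hmem

end Vale.Agent.Lib.P084.NS
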