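/-
Additivity on unit triples for every finite-dimensional norm (helper53 #1947, Steps 1-4).
Inputs are explicit hypotheses: `f` is a surjective isometry of unit spheres, odd on the sphere,
and affine on every segment contained in the sphere.
-/
import Mathlib
import Vale.Agent.Lib.P084.UC.APlus
import Vale.Agent.Lib.P084.NS.Cone

namespace Vale.Agent.Lib.P084.NS

open Vale.Agent.Lib.P084.UC
open scoped BigOperators

variable {X Y : Type*} [NormedAddCommGroup X] [NormedSpace ℝ X] [NormedAddCommGroup Y]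
  [NormedSpace ℝ Y]

theorem comb_norm_le {a b : X} (ha : ‖a‖ ≤ 1) (hb : ‖b‖ ≤ 1) {l : ℝ} (h0 : 0 ≤ l) (h1 : l ≤ 1) :
    ‖l • a + (1 - l) • b‖ ≤ 1 := by
  have h2 : 0 ≤ 1 - l := by linarith
  calc ‖l • a + (1 - l) • b‖ ≤ ‖l • a‖ + ‖(1 - l) • b‖ := norm_add_le _ _
    _ = l * ‖a‖ + (1 - l) * ‖b‖ := by
        rw [norm_smul, norm_smul, Real.norm_of_nonneg h0, Real.norm_of_nonneg h2]
    _ ≤ 1 := by nlinarith

/-- Direction space of the minimal face of the unit ball containing `p`. -/
def faceDir (p : X) : Submodule ℝ X where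
  carrier := {v | v = 0 ∨ ∃ d > (0 : ℝ), ∀ r : ℝ, |r| ≤ d → ‖p + r • v‖ ≤ 1}
  zero_mem' := Or.inl rfl
  add_mem' := by
    rintro u v (rfl | ⟨d1, hd1, h1⟩) (rfl | ⟨d2, hd2, h2⟩)
    · left; simp
    · right; simpa using ⟨d2, hd2, h2⟩
    · right; simpa using ⟨d1, hd1, h1⟩
    · right
      refine ⟨min d1 d2 / 2, by positivity, fun r hr => ?_⟩
      have hr0 : |2 * r| ≤ min d1 d2 := by
        rw [abs_mul, abs_of_pos (two_pos : (0 : ℝ) < 2)]; linarith
      have hr1 : |2 * r| ≤ d1 := hr0.trans (min_le_left _ _)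
      have hr2 : |2 * r| ≤ d2 := hr0.trans (min_le_right _ _)
      have := comb_norm_le (h1 _ hr1) (h2 _ hr2) (l := 1 / 2) (by norm_num) (by norm_num)
      have heq : p + r • (u + v)
          = (1 / 2 : ℝ) • (p + (2 * r) • u) + (1 - 1 / 2 : ℝ) • (p + (2 * r) • v) := by
        module
      rw [heq]; exact this
  smul_mem' := by
    rintro c v (rfl | ⟨d, hd, h⟩)
    · left; simp
    · by_cases hc : c = 0
      · left; simp [hc]
      · right
        have hc' : 0 < |c| := abs_pos.2 hc
        refine ⟨d / |c|, by positivity, fun r hr => ?_⟩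
        have h1 : |r * c| ≤ d := by
          rw [abs_mul]
          rwa [le_div_iff₀ hc'] at hr
        have := h _ h1
        rwa [mul_smul] at this

theorem mem_faceDir {p v : X} :
    v ∈ faceDir p ↔ v = 0 ∨ ∃ d > (0 : ℝ), ∀ r : ℝ, |r| ≤ d → ‖p + r • v‖ ≤ 1 := Iff.rfl

theorem mem_faceDir_of_two {p v : X} {a b : ℝ} (ha : 0 < a) (hb : 0 < b) (h1 : ‖p + a • v‖ ≤ 1)
    (h2 : ‖p - b • v‖ ≤ 1) : v ∈ faceDir p := by
  refine Or.inr ⟨min a b, lt_min ha hb, fun r hr => ?_⟩
  have hra : r ≤ a := (le_abs_self r).trans (hr.trans (min_le_left _ _))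
  have hrb : -b ≤ r := by
    have := (neg_abs_le r)
    have h3 : |r| ≤ b := hr.trans (min_le_right _ _)
    linarith
  have hab : 0 < a + b := by linarith
  set l : ℝ := (r + b) / (a + b) with hl
  have hl0 : 0 ≤ l := div_nonneg (by linarith) hab.le
  have hl1 : l ≤ 1 := (div_le_one hab).2 (by linarith)
  have hcoef : l * a + (1 - l) * (-b) = r := by
    rw [hl]; field_simp; ring
  have h2' : ‖p + (-b) • v‖ ≤ 1 := by
    rw [neg_smul, ← sub_eq_add_neg]; exact h2
  have := comb_norm_le h1 h2' hl0 hl1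
  have heq : l • (p + a • v) + (1 - l) • (p + (-b) • v) = p + (l * a + (1 - l) * (-b)) • v := by
    module
  rw [heq, hcoef] at this
  exact this

/-- The face-move lemma. -/
theorem faceDir_move {p v : X} (hp : ‖p‖ = 1) (hv : v ∈ faceDir p) {s : ℝ}
    (hs : ‖p + s • v‖ ≤ 1) : ‖p + s • v‖ = 1 ∧ faceDir (p + s • v) ≤ faceDir p := by
  rcases hv with rfl | ⟨d, hd, h⟩
  · simp [hp]
  by_cases hs0 : s = 0
  · subst hs0; simp [hp]
  have hsabs : 0 < |s| := abs_pos.2 hs0
  set τ : ℝ := d / |s| with hτdef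
  have hτ : 0 < τ := by positivity
  set r0 : ℝ := -(τ * s) with hr0def
  have hr0 : |r0| ≤ d := by
    rw [hr0def, abs_neg, abs_mul, abs_of_pos hτ, hτdef]
    rw [div_mul_cancel₀ _ hsabs.ne']
  have hbd := h r0 hr0
  set l : ℝ := τ / (1 + τ) with hldef
  have h1τ : 0 < 1 + τ := by linarith
  have hl0 : 0 < l := by positivity
  have hl1 : l < 1 := (div_lt_one h1τ).2 (by linarith)
  have hcomb : l * s + (1 - l) * r0 = 0 := by
    rw [hldef, hr0def]; field_simp; ring
  have hdecomp : l • (p + s • v) + (1 - l) • (p + r0 • v) = p := by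
    have : l • (p + s • v) + (1 - l) • (p + r0 • v) = p + (l * s + (1 - l) * r0) • v := by
      module
    rw [this, hcomb, zero_smul, add_zero]
  constructor
  · apply le_antisymm hs
    have h1 : ‖p‖ ≤ l * ‖p + s • v‖ + (1 - l) * ‖p + r0 • v‖ := by
      calc ‖p‖ = ‖l • (p + s • v) + (1 - l) • (p + r0 • v)‖ := by rw [hdecomp]
        _ ≤ ‖l • (p + s • v)‖ + ‖(1 - l) • (p + r0 • v)‖ := norm_add_le _ _
        _ = _ := by
            rw [norm_smul, norm_smul, Real.norm_of_nonneg hl0.le,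
              Real.norm_of_nonneg (by linarith)]
    rw [hp] at h1
    by_contra hlt
    rw [not_le] at hlt
    have hh : (1 - l) * ‖p + r0 • v‖ ≤ (1 - l) * 1 :=
      mul_le_mul_of_nonneg_left hbd (by linarith)
    have hh2 : l * ‖p + s • v‖ < l * 1 := mul_lt_mul_of_pos_left hlt hl0
    linarith
  · intro u hu
    rcases hu with rfl | ⟨δ, hδ, hu⟩
    · exact Submodule.zero_mem _
    · refine Or.inr ⟨l * δ, by positivity, fun r hr => ?_⟩
      have hr' : |r / l| ≤ δ := by
        rw [abs_div, abs_of_pos hl0, div_le_iff₀ hl0]; linarith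
      have := comb_norm_le (hu _ hr') hbd hl0.le hl1.le
      have heq : l • (p + s • v + (r / l) • u) + (1 - l) • (p + r0 • v)
          = (l • (p + s • v) + (1 - l) • (p + r0 • v)) + (l * (r / l)) • u := by
        module
      rw [heq, hdecomp, mul_div_cancel₀ _ hl0.ne'] at this
      exact this

section Recurrence

variable [FiniteDimensional ℝ X]

theorem recurrence {u : ℕ → X} (hu : ∀ n, ‖u n‖ = 1)
    (hiso : ∀ i j, ‖u (i + 1) - u (j + 1)‖ = ‖u i - u j‖) (k N : ℕ) (η : ℝ) (hη : 0 < η) :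
    ∃ n, N < n ∧ k < n ∧ ‖u n - u k‖ < η := by
  have hshift : ∀ c a b, ‖u (a + c) - u (b + c)‖ = ‖u a - u b‖ := by
    intro c
    induction c with
    | zero => intro a b; rfl
    | succ c ih =>
      intro a b
      rw [← ih a b, ← add_assoc, ← add_assoc]
      exact hiso _ _
  have hsph : ∀ n, u n ∈ Metric.sphere (0 : X) 1 := fun n => by simp [hu n]
  obtain ⟨a, -, φ, hφ, hlim⟩ := (isCompact_sphere (0 : X) 1).tendsto_subseq hsph
  have hη2 : 0 < η / 2 := by linarith
  obtain ⟨i, hi⟩ := Metric.tendsto_atTop.1 hlim _ hη2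
  set j2 := (N + 1) + i with hj2
  have hφle : (N + 1) + φ i ≤ φ j2 := hφ.add_le_nat (N + 1) i
  set m := φ j2 - φ i with hm
  have hmN : N + 1 ≤ m := by omega
  refine ⟨k + m, by omega, by omega, ?_⟩
  have h1 : ‖u (k + m) - u k‖ = ‖u m - u 0‖ := by
    have := hshift k m 0
    rw [zero_add] at this
    rw [add_comm k m, this]
  have h2 : ‖u m - u 0‖ = ‖u (φ j2) - u (φ i)‖ := by
    have := hshift (φ i) m 0
    rw [zero_add] at this
    have hmi : m + φ i = φ j2 := by omega
    rw [hmi] at this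
    exact this.symm
  rw [h1, h2]
  have h3 := hi j2 (by omega)
  have h4 := hi i le_rfl
  rw [dist_eq_norm] at h3 h4
  have h5 : u (φ j2) - u (φ i) = (u (φ j2) - a) - (u (φ i) - a) := by abel
  have h6 : ‖u (φ j2) - u (φ i)‖ ≤ ‖u (φ j2) - a‖ + ‖u (φ i) - a‖ := by
    rw [h5]; exact norm_sub_le _ _
  simp only [Function.comp] at h3 h4
  linarith

omit [NormedSpace ℝ X] [FiniteDimensional ℝ X] in
theorem sum_Ico_telescope (u : ℕ → X) {k n : ℕ} (h : k ≤ n) :
    ∑ i ∈ Finset.Ico k n, (u (i + 1) - u i) = u n - u k := by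
  induction n, h using Nat.le_induction with
  | base => simp
  | succ n hn ih =>
    rw [Finset.sum_Ico_succ_top hn, ih]
    abel

end Recurrence

section Main

variable {f : X → Y} {g : Y → X}

theorem inv_left (hf : IsSphereIso f) (hg : ∀ z : Y, ‖z‖ = 1 → ‖g z‖ = 1 ∧ f (g z) = z) {x : X}
    (hx : ‖x‖ = 1) : g (f x) = x := by
  obtain ⟨h1, h2⟩ := hg (f x) (hf.norm_eq x hx)
  have := hf.iso (g (f x)) x h1 hx
  rw [h2, sub_self, norm_zero] at this
  exact sub_eq_zero.1 (norm_eq_zero.1 this.symm)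

theorem inv_iso (hf : IsSphereIso f) (hg : ∀ z : Y, ‖z‖ = 1 → ‖g z‖ = 1 ∧ f (g z) = z) {z z' : Y}
    (hz : ‖z‖ = 1) (hz' : ‖z'‖ = 1) : ‖g z - g z'‖ = ‖z - z'‖ := by
  obtain ⟨h1, h2⟩ := hg z hz
  obtain ⟨h1', h2'⟩ := hg z' hz'
  have := hf.iso (g z) (g z') h1 h1'
  rw [h2, h2'] at this
  exact this.symm

theorem inv_odd (hf : IsSphereIso f) (hg : ∀ z : Y, ‖z‖ = 1 → ‖g z‖ = 1 ∧ f (g z) = z)
    (hodd : ∀ x : X, ‖x‖ = 1 → f (-x) = - f x) {z : Y} (hz : ‖z‖ = 1) : g (-z) = - g z := by
  obtain ⟨h1, h2⟩ := hg z hz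
  have h3 : f (- g z) = - z := by rw [hodd _ h1, h2]
  rw [← h3, inv_left hf hg (by rw [norm_neg]; exact h1)]

variable [FiniteDimensional ℝ X]

/-- Steps 1 and 2 of #1947: `Θ t - t` is a direction of the minimal face at `w`. -/
theorem theta_sub_mem (hf : IsSphereIso f) (hg : ∀ z : Y, ‖z‖ = 1 → ‖g z‖ = 1 ∧ f (g z) = z)
    (hodd : ∀ x : X, ‖x‖ = 1 → f (-x) = - f x) {w t : X} (hw : ‖w‖ = 1) (ht : ‖t‖ = 1)
    (hwt : ‖w - t‖ = 1) : g (f w - f (w - t)) - t ∈ faceDir w := by
  -- the map and its elementary properties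
  let Θ : X → X := fun t => g (f w - f (w - t))
  have hunit : ∀ t : X, ‖t‖ = 1 → ‖w - t‖ = 1 → ‖f w - f (w - t)‖ = 1 := by
    intro t h1 h2
    rw [hf.iso w _ hw h2, sub_sub_cancel]; exact h1
  have hΘE : ∀ t : X, ‖t‖ = 1 → ‖w - t‖ = 1 → ‖Θ t‖ = 1 ∧ ‖w - Θ t‖ = 1 := by
    intro t h1 h2
    obtain ⟨h3, h4⟩ := hg _ (hunit t h1 h2)
    refine ⟨h3, ?_⟩
    rw [← hf.iso w _ hw h3, h4, sub_sub_cancel]
    exact hf.norm_eq _ h2
  have hΘiso : ∀ t t' : X, ‖t‖ = 1 → ‖w - t‖ = 1 → ‖t'‖ = 1 → ‖w - t'‖ = 1 →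
      ‖Θ t - Θ t'‖ = ‖t - t'‖ := by
    intro t t' h1 h2 h1' h2'
    have h3 := inv_iso hf hg (hunit t h1 h2) (hunit t' h1' h2')
    have h4 : (f w - f (w - t)) - (f w - f (w - t')) = f (w - t') - f (w - t) := by abel
    rw [h4, hf.iso _ _ h2' h2] at h3
    have h5 : (w - t') - (w - t) = t - t' := by abel
    rw [h5] at h3
    exact h3
  have hΘ3 : ∀ t : X, ‖t‖ = 1 → ‖w - t‖ = 1 → ‖w + (Θ t - t)‖ = 1 := by
    intro t h1 h2
    obtain ⟨h3, h4⟩ := hg _ (hunit t h1 h2)
    have h5 : ‖- (w - t)‖ = 1 := by rw [norm_neg]; exact h2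
    have h6 := hf.iso (Θ t) (-(w - t)) h3 h5
    rw [hodd _ h2] at h6
    have h7 : f (Θ t) - - f (w - t) = f w := by
      show f (g (f w - f (w - t))) - - f (w - t) = f w
      rw [h4]; abel
    rw [h7, hf.norm_eq w hw] at h6
    have h8 : Θ t - -(w - t) = w + (Θ t - t) := by abel
    rw [h8] at h6
    exact h6.symm
  -- the orbit
  let u : ℕ → X := fun j => Θ^[j] t
  have husucc : ∀ j, u (j + 1) = Θ (u j) := fun j => Function.iterate_succ_apply' Θ j t
  have hu : ∀ j, ‖u j‖ = 1 ∧ ‖w - u j‖ = 1 := by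
    intro j
    induction j with
    | zero => exact ⟨ht, hwt⟩
    | succ j ih =>
      rw [husucc]
      exact hΘE _ ih.1 ih.2
  have huiso : ∀ i j, ‖u (i + 1) - u (j + 1)‖ = ‖u i - u j‖ := by
    intro i j
    rw [husucc, husucc]
    exact hΘiso _ _ (hu i).1 (hu i).2 (hu j).1 (hu j).2
  have hC : Convex ℝ (Metric.closedBall (0 : X) 1) := convex_closedBall 0 1
  have hwC : w ∈ Metric.closedBall (0 : X) 1 := by simp [hw]
  have hv : ∀ k, w + (u (k + 1) - u k) ∈ Metric.closedBall (0 : X) 1 := by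
    intro k
    rw [husucc]
    have := hΘ3 _ (hu k).1 (hu k).2
    simp [this]
  have hrec : ∀ k N : ℕ, ∀ η > (0 : ℝ), ∃ n, N < n ∧ k < n ∧
      ‖∑ i ∈ Finset.Ico k n, (u (i + 1) - u i)‖ < η := by
    intro k N η hη
    obtain ⟨n, h1, h2, h3⟩ := recurrence (fun n => (hu n).1) huiso k N η hη
    refine ⟨n, h1, h2, ?_⟩
    rw [sum_Ico_telescope u h2.le]
    exact h3
  obtain ⟨d, hd, hmem⟩ := cone_lemma hC hwC (fun k => u (k + 1) - u k) hv hrec 0
  have hv0 : u (0 + 1) - u 0 = g (f w - f (w - t)) - t := by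
    rw [husucc]; rfl
  simp only [hv0] at hmem
  have hv1 := hv 0
  rw [hv0] at hv1
  simp only [mem_closedBall_zero_iff] at hmem hv1
  exact mem_faceDir_of_two (a := 1) one_pos hd (by rwa [one_smul]) hmem

/-- Additivity on unit triples: Steps 3 and 4 of #1947. -/
theorem additive_of_odd_affine {f : X → Y} (hf : IsSphereIso f)
    (hodd : ∀ x : X, ‖x‖ = 1 → f (-x) = - f x)
    (haff : ∀ a b : X, (∀ t ∈ Set.Icc (0 : ℝ) 1, ‖a + t • (b - a)‖ = 1) →
      ∀ t ∈ Set.Icc (0 : ℝ) 1, f (a + t • (b - a)) = f a + t • (f b - f a)) :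
    ∀ x y : X, ‖x‖ = 1 → ‖y‖ = 1 → ‖x + y‖ = 1 → f (x + y) = f x + f y := by
  obtain ⟨g, hg⟩ := hf.exists_inv
  have key : ∀ (N : ℕ) (x y w : X), ‖x‖ = 1 → ‖y‖ = 1 → ‖w‖ = 1 → x + y = w →
      Module.finrank ℝ (faceDir x) + Module.finrank ℝ (faceDir w) = N → f w = f x + f y := by
    intro N
    induction N using Nat.strong_induction_on with
    | _ N ih =>
      intro x y w hx hy hw hxyw hN
      have hwx : w - x = y := by rw [← hxyw]; abel
      have hwy : w - y = x := by rw [← hxyw]; abel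
      have hxy' : x - (-y) = w := by rw [← hxyw]; abel
      have hunit : ‖f w - f x‖ = 1 := by
        rw [hf.iso w x hw hx, hwx]; exact hy
      set e : X := g (f w - f x) - y with he
      have he1 : e ∈ faceDir w := by
        have := theta_sub_mem hf hg hodd (w := w) (t := y) hw hy (by rw [hwy]; exact hx)
        rwa [hwy] at this
      have he2 : e ∈ faceDir x := by
        have := theta_sub_mem hf hg hodd (w := x) (t := -y) hx (by rw [norm_neg]; exact hy)
          (by rw [hxy']; exact hw)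
        rw [hxy'] at this
        have h1 : f x - f w = - (f w - f x) := by abel
        rw [h1, inv_odd hf hg hodd hunit] at this
        have h2 : - g (f w - f x) - -y = - e := by rw [he]; abel
        rw [h2] at this
        have := (faceDir x).neg_mem this
        rwa [neg_neg] at this
      by_cases he0 : e = 0
      · have h1 : g (f w - f x) = y := sub_eq_zero.1 he0
        have h2 := (hg _ hunit).2
        rw [h1] at h2
        rw [h2]; abel
      -- the interval `J`
      let J : Set ℝ := {s | ‖x + s • e‖ ≤ 1 ∧ ‖w + s • e‖ ≤ 1}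
      have hJclosed : IsClosed J := by
        exact (isClosed_le (f := fun s : ℝ => ‖x + s • e‖) (g := fun _ => 1) (by fun_prop)
          continuous_const).inter (isClosed_le (f := fun s : ℝ => ‖w + s • e‖) (g := fun _ => 1)
          (by fun_prop) continuous_const)
      have henorm : 0 < ‖e‖ := norm_pos_iff.2 he0
      have hJbdd : Bornology.IsBounded J := by
        refine (Metric.isBounded_closedBall (x := (0 : ℝ)) (r := 2 / ‖e‖)).subset ?_
        intro s hs
        rw [mem_closedBall_zero_iff, Real.norm_eq_abs, le_div_iff₀ henorm]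
        have h1 : ‖s • e‖ ≤ ‖x + s • e‖ + ‖x‖ := by
          have h2 : (x + s • e) - x = s • e := by abel
          calc ‖s • e‖ = ‖(x + s • e) - x‖ := by rw [h2]
            _ ≤ _ := norm_sub_le _ _
        rw [norm_smul, Real.norm_eq_abs] at h1
        linarith [hs.1]
      have hJc : IsCompact J := Metric.isCompact_of_isClosed_isBounded hJclosed hJbdd
      have h0J : (0 : ℝ) ∈ J := by
        constructor <;> simp [hx, hw]
      obtain ⟨sp, hspJ, hspG⟩ := hJc.exists_isGreatest ⟨0, h0J⟩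
      obtain ⟨sm, hsmJ, hsmL⟩ := hJc.exists_isLeast ⟨0, h0J⟩
      obtain ⟨d1, hd1, hb1⟩ : ∃ d > (0 : ℝ), ∀ r : ℝ, |r| ≤ d → ‖x + r • e‖ ≤ 1 :=
        he2.resolve_left he0
      obtain ⟨d2, hd2, hb2⟩ : ∃ d > (0 : ℝ), ∀ r : ℝ, |r| ≤ d → ‖w + r • e‖ ≤ 1 :=
        he1.resolve_left he0
      have hmin : 0 < min d1 d2 := lt_min hd1 hd2
      have hminJ : ∀ r : ℝ, |r| ≤ min d1 d2 → r ∈ J := fun r hr =>
        ⟨hb1 r (hr.trans (min_le_left _ _)), hb2 r (hr.trans (min_le_right _ _))⟩
      have hsp0 : 0 < sp := lt_of_lt_of_le hmin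
        (hspG (hminJ _ (by rw [abs_of_pos hmin])))
      have hsm0 : sm < 0 := by
        have h1 := hsmL (hminJ (-(min d1 d2)) (by rw [abs_neg, abs_of_pos hmin]))
        linarith
      -- the induction at a point of `J` where `e` leaves a face
      have hend : ∀ s ∈ J, ¬ (e ∈ faceDir (x + s • e) ∧ e ∈ faceDir (w + s • e)) →
          f (w + s • e) = f (x + s • e) + f y := by
        intro s hs hnot
        obtain ⟨hxs, hDx⟩ := faceDir_move hx he2 hs.1
        obtain ⟨hws, hDw⟩ := faceDir_move hw he1 hs.2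
        have htriple : (x + s • e) + y = w + s • e := by rw [← hxyw]; abel
        have hlt : Module.finrank ℝ (faceDir (x + s • e)) + Module.finrank ℝ (faceDir (w + s • e))
            < N := by
          rw [← hN]
          rcases not_and_or.1 hnot with h | h
          · have h1 : faceDir (x + s • e) < faceDir x :=
              lt_of_le_of_ne hDx (fun heq => h (heq ▸ he2))
            have h2 := Submodule.finrank_lt_finrank_of_lt h1
            have h3 := Submodule.finrank_mono hDw
            omega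
          · have h1 : faceDir (w + s • e) < faceDir w :=
              lt_of_le_of_ne hDw (fun heq => h (heq ▸ he1))
            have h2 := Submodule.finrank_lt_finrank_of_lt h1
            have h3 := Submodule.finrank_mono hDx
            omega
        exact ih _ hlt _ _ _ hxs hy hws htriple rfl
      -- moving inside both faces
      have hslack : ∀ s : ℝ, e ∈ faceDir (x + s • e) → e ∈ faceDir (w + s • e) →
          ∃ d > (0 : ℝ), (s + d) ∈ J ∧ (s - d) ∈ J := by
        intro s h1 h2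
        obtain ⟨d1', hd1', hb1'⟩ := h1.resolve_left he0
        obtain ⟨d2', hd2', hb2'⟩ := h2.resolve_left he0
        have hm : 0 < min d1' d2' := lt_min hd1' hd2'
        refine ⟨min d1' d2', hm, ⟨?_, ?_⟩, ⟨?_, ?_⟩⟩
        · have := hb1' (min d1' d2') (by rw [abs_of_pos hm]; exact min_le_left _ _)
          rwa [add_assoc, ← add_smul] at this
        · have := hb2' (min d1' d2') (by rw [abs_of_pos hm]; exact min_le_right _ _)
          rwa [add_assoc, ← add_smul] at this
        · have := hb1' (-(min d1' d2')) (by rw [abs_neg, abs_of_pos hm]; exact min_le_left _ _)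
          rwa [add_assoc, ← add_smul, ← sub_eq_add_neg] at this
        · have := hb2' (-(min d1' d2')) (by rw [abs_neg, abs_of_pos hm]; exact min_le_right _ _)
          rwa [add_assoc, ← add_smul, ← sub_eq_add_neg] at this
      have hp : f (w + sp • e) = f (x + sp • e) + f y := by
        refine hend sp hspJ fun ⟨h1, h2⟩ => ?_
        obtain ⟨d, hd, hd1, -⟩ := hslack sp h1 h2
        have := hspG hd1
        linarith
      have hm : f (w + sm • e) = f (x + sm • e) + f y := by
        refine hend sm hsmJ fun ⟨h1, h2⟩ => ?_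
        obtain ⟨d, hd, -, hd1⟩ := hslack sm h1 h2
        have := hsmL hd1
        linarith
      -- affinity along the two segments
      have hspm : 0 < sp - sm := by linarith
      set t0 : ℝ := - sm / (sp - sm) with ht0
      have ht00 : 0 ≤ t0 := div_nonneg (by linarith) hspm.le
      have ht01 : t0 ≤ 1 := (div_le_one hspm).2 (by linarith)
      have ht0mem : t0 ∈ Set.Icc (0 : ℝ) 1 := ⟨ht00, ht01⟩
      have hcoef : sm + t0 * (sp - sm) = 0 := by
        rw [ht0]; field_simp; ring
      -- general point of a segment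
      have hseg : ∀ (p : X) (hp : ‖p‖ = 1), e ∈ faceDir p → ‖p + sp • e‖ ≤ 1 → ‖p + sm • e‖ ≤ 1 →
          ∀ t ∈ Set.Icc (0 : ℝ) 1, ‖(p + sm • e) + t • ((p + sp • e) - (p + sm • e))‖ = 1 := by
        intro p hp hep h1 h2 t ht
        have heq : (p + sm • e) + t • ((p + sp • e) - (p + sm • e)) = p + (sm + t * (sp - sm)) • e := by
          module
        rw [heq]
        refine (faceDir_move hp hep ?_).1
        have h3 := comb_norm_le h1 h2 ht.1 ht.2
        have heq2 : t • (p + sp • e) + (1 - t) • (p + sm • e) = p + (sm + t * (sp - sm)) • e := by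
          module
        rwa [heq2] at h3
      have hax := haff (x + sm • e) (x + sp • e) (hseg x hx he2 hspJ.1 hsmJ.1) t0 ht0mem
      have haw := haff (w + sm • e) (w + sp • e) (hseg w hw he1 hspJ.2 hsmJ.2) t0 ht0mem
      have hx0 : (x + sm • e) + t0 • ((x + sp • e) - (x + sm • e)) = x := by
        have heq : (x + sm • e) + t0 • ((x + sp • e) - (x + sm • e))
            = x + (sm + t0 * (sp - sm)) • e := by module
        rw [heq, hcoef, zero_smul, add_zero]
      have hw0 : (w + sm • e) + t0 • ((w + sp • e) - (w + sm • e)) = w := by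
        have heq : (w + sm • e) + t0 • ((w + sp • e) - (w + sm • e))
            = w + (sm + t0 * (sp - sm)) • e := by module
        rw [heq, hcoef, zero_smul, add_zero]
      rw [hx0] at hax
      rw [hw0] at haw
      rw [haw, hax, hp, hm]
      have : f (x + sp • e) + f y - (f (x + sm • e) + f y) = f (x + sp • e) - f (x + sm • e) := by
        abel
      rw [this]
      abel
  intro x y hx hy hxy
  exact key _ x y (x + y) hx hy hxy rfl rfl

end Main

end Vale.Agent.Lib.P084.NS
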