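/-
The final step for an arbitrary norm, `dim X ≥ 3`: if the sums `f s + f (w - s)` are constant on
every `E_w` with `w` small and every `E_w` is connected, then `f` is the restriction of a linear
isometry.  No strict convexity of `X` or `Y` and no uniform convexity are used.

Route: (i) constancy for all `‖w‖ < 2` by the chord relation and connectedness; this gives `G` with
`f x - f x' = G (x - x')`.  (ii) If a vector `y` norms a functional killing `u`, then `E_u` has a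
point within `3/2 ‖u‖` of `y` (top chord in the plane of `y, u`).  (iii) By the intermediate value
theorem on `E_u`, `G (u + v) = G u + G v` for all `v` within `1 - 5/2 ‖u‖` of such a `y`; taking a
functional killing both `u₁, u₂` gives additivity of `G` near `0`.  (iv) `T x = n • G (x / n)`.
-/
import Mathlib
import Vale.Agent.Lib.P084.UC.APlus
import Vale.Agent.Lib.P084.Dim4.Lens

namespace Vale.Agent.Lib.P084.NS

open Vale.Agent.Lib.P084.UC
open Vale.Agent.Lib.P084.Dim4 (Ew Lens Ew_rho isCompact_Lens)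
open Metric Set Filter Topology

variable {X Y : Type*} [NormedAddCommGroup X] [NormedSpace ℝ X] [NormedAddCommGroup Y]
  [NormedSpace ℝ Y]

theorem comb_lt_one {a b : X} (ha : ‖a‖ < 1) (hb : ‖b‖ ≤ 1) {l : ℝ} (h0 : 0 < l) (h1 : l ≤ 1) :
    ‖l • a + (1 - l) • b‖ < 1 := by
  have h2 : 0 ≤ 1 - l := by linarith
  calc ‖l • a + (1 - l) • b‖ ≤ ‖l • a‖ + ‖(1 - l) • b‖ := norm_add_le _ _
    _ = l * ‖a‖ + (1 - l) * ‖b‖ := by
        rw [norm_smul, norm_smul, Real.norm_of_nonneg h0.le, Real.norm_of_nonneg h2]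
    _ < 1 := by nlinarith

/-- Along a line, a point strictly between `p` and `r` is inside the open ball as soon as one end is
in the open ball and the other in the closed ball. -/
theorem line_lt (x u : X) {p q r : ℝ} (hpq : p < q) (hqr : q < r)
    (h : (‖x + p • u‖ < 1 ∧ ‖x + r • u‖ ≤ 1) ∨ (‖x + p • u‖ ≤ 1 ∧ ‖x + r • u‖ < 1)) :
    ‖x + q • u‖ < 1 := by
  have hpr : 0 < r - p := by linarith
  rcases h with ⟨h1, h2⟩ | ⟨h1, h2⟩
  · set l : ℝ := (r - q) / (r - p) with hl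
    have hl0 : 0 < l := div_pos (by linarith) hpr
    have hl1 : l ≤ 1 := (div_le_one hpr).2 (by linarith)
    have hq : l * p + (1 - l) * r = q := by rw [hl]; field_simp; ring
    have := comb_lt_one h1 h2 hl0 hl1
    have heq : l • (x + p • u) + (1 - l) • (x + r • u) = x + (l * p + (1 - l) * r) • u := by
      module
    rwa [heq, hq] at this
  · set l : ℝ := (q - p) / (r - p) with hl
    have hl0 : 0 < l := div_pos (by linarith) hpr
    have hl1 : l ≤ 1 := (div_le_one hpr).2 (by linarith)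
    have hq : l * r + (1 - l) * p = q := by rw [hl]; field_simp; ring
    have := comb_lt_one h2 h1 hl0 hl1
    have heq : l • (x + r • u) + (1 - l) • (x + p • u) = x + (l * r + (1 - l) * p) • u := by
      module
    rwa [heq, hq] at this

section Near

variable [FiniteDimensional ℝ X]

/-- A point of `E_u` near a vector norming a functional that kills `u`. -/
theorem exists_Ew_near {u y : X} (hu0 : u ≠ 0) (hu2 : ‖u‖ ≤ 2) (hy : ‖y‖ = 1) {ψ : X →L[ℝ] ℝ}
    (hψ : ∀ x, ψ x ≤ ‖x‖) (hψy : ψ y = 1) (hψu : ψ u = 0) :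
    ∃ a ∈ Ew u, ‖a - y‖ ≤ 3 / 2 * ‖u‖ := by
  have hun : 0 < ‖u‖ := norm_pos_iff.2 hu0
  let P : Submodule ℝ X := Submodule.span ℝ {y, u}
  have hyP : y ∈ P := Submodule.subset_span (by simp)
  have huP : u ∈ P := Submodule.subset_span (by simp)
  have hPcl : IsClosed (P : Set X) := Submodule.closed_of_finiteDimensional P
  have hC : IsCompact (Lens u ∩ (P : Set X)) := (isCompact_Lens u).inter_right hPcl
  -- the test point
  set t0 : ℝ := 1 - ‖u‖ / 2 with ht0
  have ht00 : 0 ≤ t0 := by rw [ht0]; linarith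
  have hP0 : t0 • y + (1 / 2 : ℝ) • u ∈ Lens u ∩ (P : Set X) := by
    refine ⟨⟨?_, ?_⟩, P.add_mem (P.smul_mem _ hyP) (P.smul_mem _ huP)⟩
    · calc ‖t0 • y + (1 / 2 : ℝ) • u‖ ≤ ‖t0 • y‖ + ‖(1 / 2 : ℝ) • u‖ := norm_add_le _ _
        _ = t0 + 1 / 2 * ‖u‖ := by
            rw [norm_smul, norm_smul, Real.norm_of_nonneg ht00, hy]; norm_num
        _ = 1 := by rw [ht0]; ring
    · have e : t0 • y + (1 / 2 : ℝ) • u - u = t0 • y + (-(1 / 2) : ℝ) • u := by module
      rw [e]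
      calc ‖t0 • y + (-(1 / 2) : ℝ) • u‖ ≤ ‖t0 • y‖ + ‖(-(1 / 2) : ℝ) • u‖ := norm_add_le _ _
        _ = t0 + 1 / 2 * ‖u‖ := by
            rw [norm_smul, norm_smul, Real.norm_of_nonneg ht00, hy]; norm_num
        _ = 1 := by rw [ht0]; ring
  obtain ⟨x0, hx0C, hmax⟩ := hC.exists_isMaxOn ⟨_, hP0⟩ ψ.continuous.continuousOn
  obtain ⟨κ, s0, hx0⟩ := Submodule.mem_span_pair.1 hx0C.2
  have hψx0 : ψ x0 = κ := by
    rw [← hx0]; simp [hψy, hψu]
  have hκ1 : κ ≤ 1 := by
    rw [← hψx0]; exact (hψ x0).trans hx0C.1.1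
  have hκ0 : t0 ≤ κ := by
    have h1 : ψ (t0 • y + (1 / 2 : ℝ) • u) ≤ ψ x0 := hmax hP0
    rw [hψx0] at h1
    simpa [hψy, hψu] using h1
  have hκpos : 0 ≤ κ := ht00.trans hκ0
  -- the chord at level `κ`
  let φ : ℝ → ℝ := fun s => ‖κ • y + s • u‖
  have hφc : Continuous φ := by fun_prop
  have hκy : ‖κ • y‖ = κ := by rw [norm_smul, Real.norm_of_nonneg hκpos, hy, mul_one]
  let Γ : Set ℝ := {s | φ s ≤ 1}
  have hΓcl : IsClosed Γ := isClosed_le hφc continuous_const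
  have hΓbd : Bornology.IsBounded Γ := by
    refine (Metric.isBounded_closedBall (x := (0 : ℝ)) (r := 2 / ‖u‖)).subset ?_
    intro s hs
    have hs' : ‖κ • y + s • u‖ ≤ 1 := hs
    rw [mem_closedBall_zero_iff, Real.norm_eq_abs, le_div_iff₀ hun]
    have h1 : ‖s • u‖ ≤ ‖κ • y + s • u‖ + ‖κ • y‖ := by
      have h2 : (κ • y + s • u) - κ • y = s • u := by abel
      calc ‖s • u‖ = ‖(κ • y + s • u) - κ • y‖ := by rw [h2]
        _ ≤ _ := norm_sub_le _ _
    rw [norm_smul, Real.norm_eq_abs, hκy] at h1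
    linarith
  have hΓc : IsCompact Γ := Metric.isCompact_of_isClosed_isBounded hΓcl hΓbd
  have h0Γ : (0 : ℝ) ∈ Γ := by
    show ‖κ • y + (0 : ℝ) • u‖ ≤ 1
    rw [zero_smul, add_zero, hκy]; exact hκ1
  have hs0Γ : s0 ∈ Γ := by
    show ‖κ • y + s0 • u‖ ≤ 1
    rw [hx0]; exact hx0C.1.1
  have hs1Γ : s0 - 1 ∈ Γ := by
    show ‖κ • y + (s0 - 1) • u‖ ≤ 1
    have e : κ • y + (s0 - 1) • u = x0 - u := by rw [← hx0]; module
    rw [e]; exact hx0C.1.2
  obtain ⟨β, hβΓ, hβmax⟩ := hΓc.exists_isGreatest ⟨0, h0Γ⟩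
  obtain ⟨α, hαΓ, hαmin⟩ := hΓc.exists_isLeast ⟨0, h0Γ⟩
  have hα0 : α ≤ 0 := hαmin h0Γ
  have hβ0 : 0 ≤ β := hβmax h0Γ
  have hαβ1 : α + 1 ≤ β := by
    have h1 : α ≤ s0 - 1 := hαmin hs1Γ
    have h2 : s0 ≤ β := hβmax hs0Γ
    linarith
  have hφβ : φ β = 1 := by
    refine le_antisymm hβΓ ?_
    by_contra hlt
    rw [not_le] at hlt
    have hev : ∀ᶠ s in 𝓝 β, φ s < 1 := hφc.continuousAt.eventually (gt_mem_nhds hlt)
    obtain ⟨s, hs1, hs2⟩ := hev.exists_gt
    have := hβmax (show s ∈ Γ from hs2.le)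
    linarith
  have hφα : φ α = 1 := by
    refine le_antisymm hαΓ ?_
    by_contra hlt
    rw [not_le] at hlt
    have hev : ∀ᶠ s in 𝓝 α, φ s < 1 := hφc.continuousAt.eventually (gt_mem_nhds hlt)
    obtain ⟨s, hs1, hs2⟩ := hev.exists_lt
    have := hαmin (show s ∈ Γ from hs2.le)
    linarith
  -- no point of the chord can be moved up
  have key : ∀ t : ℝ, φ t < 1 → φ (t - 1) < 1 → False := by
    intro t h1 h2
    set x : X := κ • y + t • u with hx
    have hx1 : ‖x‖ < 1 := h1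
    have hx2 : ‖x - u‖ < 1 := by
      have e : x - u = κ • y + (t - 1) • u := by rw [hx]; module
      rw [e]; exact h2
    set ε : ℝ := min (1 - ‖x‖) (1 - ‖x - u‖) with hε
    have hε0 : 0 < ε := lt_min (by linarith) (by linarith)
    have hε1 : ε ≤ 1 - ‖x‖ := min_le_left _ _
    have hε2 : ε ≤ 1 - ‖x - u‖ := min_le_right _ _
    have hεy : ‖ε • y‖ = ε := by rw [norm_smul, Real.norm_of_nonneg hε0.le, hy, mul_one]
    have hmem : x + ε • y ∈ Lens u ∩ (P : Set X) := by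
      refine ⟨⟨?_, ?_⟩, P.add_mem ?_ (P.smul_mem _ hyP)⟩
      · calc ‖x + ε • y‖ ≤ ‖x‖ + ‖ε • y‖ := norm_add_le _ _
          _ ≤ 1 := by rw [hεy]; linarith
      · have e : x + ε • y - u = (x - u) + ε • y := by abel
        rw [e]
        calc ‖(x - u) + ε • y‖ ≤ ‖x - u‖ + ‖ε • y‖ := norm_add_le _ _
          _ ≤ 1 := by rw [hεy]; linarith
      · exact P.add_mem (P.smul_mem _ hyP) (P.smul_mem _ huP)
    have h3 : ψ (x + ε • y) ≤ ψ x0 := hmax hmem
    have h4 : ψ (x + ε • y) = κ + ε := by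
      rw [hx]; simp [hψy, hψu]
    rw [h4, hψx0] at h3
    linarith
  -- the choice of the point
  set s : ℝ := max 0 (α + 1) with hs
  have hs1 : α + 1 ≤ s := le_max_right _ _
  have hs2 : s ≤ β := max_le hβ0 hαβ1
  have hs3 : 0 ≤ s := le_max_left _ _
  have hs4 : s ≤ 1 := max_le zero_le_one (by linarith)
  have hunit : φ s = 1 ∧ φ (s - 1) = 1 := by
    by_cases hcase : α + 1 = β
    · have hsβ : s = β := le_antisymm hs2 (by rw [← hcase]; exact hs1)
      have hsα : s - 1 = α := by rw [hsβ, ← hcase]; ring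
      rw [hsα, hsβ]
      exact ⟨hφβ, hφα⟩
    · have hlt : α + 1 < β := lt_of_le_of_ne hαβ1 hcase
      -- the chord is flat
      have hflat : ∀ p, α < p → p < β → φ p = 1 := by
        intro p hp1 hp2
        by_contra hne
        have hple : φ p ≤ 1 := by
          by_contra hgt
          rw [not_le] at hgt
          -- `p` lies between `α` and `β`, both in the closed ball
          have hconv : φ p ≤ 1 := by
            have hpr : 0 < β - α := by linarith
            set l : ℝ := (β - p) / (β - α) with hl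
            have hl0 : 0 ≤ l := div_nonneg (by linarith) hpr.le
            have hl1 : l ≤ 1 := (div_le_one hpr).2 (by linarith)
            have hq : l * α + (1 - l) * β = p := by rw [hl]; field_simp; ring
            have h2 : ‖l • (κ • y + α • u) + (1 - l) • (κ • y + β • u)‖ ≤ 1 := by
              calc _ ≤ ‖l • (κ • y + α • u)‖ + ‖(1 - l) • (κ • y + β • u)‖ := norm_add_le _ _
                _ = l * φ α + (1 - l) * φ β := by
                    rw [norm_smul, norm_smul, Real.norm_of_nonneg hl0,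
                      Real.norm_of_nonneg (by linarith)]
                _ = 1 := by rw [hφα, hφβ]; ring
            have heq : l • (κ • y + α • u) + (1 - l) • (κ • y + β • u)
                = κ • y + (l * α + (1 - l) * β) • u := by module
            rwa [heq, hq] at h2
          exact absurd hconv (not_le.2 hgt)
        have hplt : φ p < 1 := lt_of_le_of_ne hple hne
        have hall : ∀ t, α < t → t < β → φ t < 1 := by
          intro t ht1 ht2
          rcases lt_trichotomy t p with h | h | h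
          · exact line_lt (κ • y) u ht1 h (Or.inr ⟨hαΓ, hplt⟩)
          · rw [h]; exact hplt
          · exact line_lt (κ • y) u h ht2 (Or.inl ⟨hplt, hβΓ⟩)
        exact key ((α + 1 + β) / 2) (hall _ (by linarith) (by linarith))
          (hall _ (by linarith) (by linarith))
      constructor
      · rcases eq_or_lt_of_le hs2 with h | h
        · rw [h]; exact hφβ
        · exact hflat s (by linarith) h
      · rcases eq_or_lt_of_le (show α ≤ s - 1 by linarith) with h | h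
        · rw [← h]; exact hφα
        · exact hflat (s - 1) h (by linarith)
  refine ⟨κ • y + s • u, ⟨hunit.1, ?_⟩, ?_⟩
  · have e : κ • y + s • u - u = κ • y + (s - 1) • u := by module
    rw [e]; exact hunit.2
  · have e : κ • y + s • u - y = (κ - 1) • y + s • u := by module
    rw [e]
    calc ‖(κ - 1) • y + s • u‖ ≤ ‖(κ - 1) • y‖ + ‖s • u‖ := norm_add_le _ _
      _ = (1 - κ) + s * ‖u‖ := by
          rw [norm_smul, norm_smul, hy, Real.norm_eq_abs, abs_of_nonpos (by linarith),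
            Real.norm_of_nonneg hs3]; ring
      _ ≤ ‖u‖ / 2 + 1 * ‖u‖ := by
          have h1 : 1 - κ ≤ ‖u‖ / 2 := by rw [ht0] at hκ0; linarith
          have h2 : s * ‖u‖ ≤ 1 * ‖u‖ := mul_le_mul_of_nonneg_right hs4 hun.le
          linarith
      _ = 3 / 2 * ‖u‖ := by ring

/-- The three spheres lemma. -/
theorem exists_triple {u v y : X} (hu0 : u ≠ 0) (hu2 : ‖u‖ ≤ 2) (hy : ‖y‖ = 1) {ψ : X →L[ℝ] ℝ}
    (hψ : ∀ x, ψ x ≤ ‖x‖) (hψy : ψ y = 1) (hψu : ψ u = 0) (hconn : IsPreconnected (Ew u))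
    (hv : ‖v - y‖ ≤ 1 - 5 / 2 * ‖u‖) : ∃ z ∈ Ew u, ‖z + v‖ = 1 := by
  obtain ⟨a, haE, had⟩ := exists_Ew_near hu0 hu2 hy hψ hψy hψu
  have h1 : ‖(u - a) + v‖ ≤ 1 := by
    have e : (u - a) + v = u - (a - y) + (v - y) := by abel
    rw [e]
    calc ‖u - (a - y) + (v - y)‖ ≤ ‖u - (a - y)‖ + ‖v - y‖ := norm_add_le _ _
      _ ≤ ‖u‖ + ‖a - y‖ + ‖v - y‖ := by
          gcongr
          exact norm_sub_le _ _
      _ ≤ 1 := by linarith
  have h2 : 1 ≤ ‖a + v‖ := by
    have e : (2 : ℝ) • y = (a + v) - (a - y) - (v - y) := by rw [two_smul]; abel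
    have h3 : ‖(2 : ℝ) • y‖ = 2 := by rw [norm_smul, hy]; norm_num
    have h4 : ‖(a + v) - (a - y) - (v - y)‖ ≤ ‖a + v‖ + ‖a - y‖ + ‖v - y‖ := by
      calc _ ≤ ‖(a + v) - (a - y)‖ + ‖v - y‖ := norm_sub_le _ _
        _ ≤ _ := by
            gcongr
            exact norm_sub_le _ _
    rw [← e, h3] at h4
    linarith [norm_nonneg u]
  have hcont : ContinuousOn (fun z : X => ‖z + v‖) (Ew u) := by fun_prop
  obtain ⟨z, hz, hzv⟩ := hconn.intermediate_value (Ew_rho haE) haE hcont ⟨h1, h2⟩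
  exact ⟨z, hz, hzv⟩

/-- A nonzero functional vanishing at two given vectors, normalised. -/
theorem exists_top (hdim : 3 ≤ Module.finrank ℝ X) (a b : X) :
    ∃ (ψ : X →L[ℝ] ℝ) (y : X), (∀ x, ψ x ≤ ‖x‖) ∧ ‖y‖ = 1 ∧ ψ y = 1 ∧ ψ a = 0 ∧ ψ b = 0 := by
  have : ProperSpace X := FiniteDimensional.proper_real X
  let l : Module.Dual ℝ X →ₗ[ℝ] (ℝ × ℝ) :=
    (LinearMap.applyₗ a).prod (LinearMap.applyₗ b)
  have hlt : Module.finrank ℝ (ℝ × ℝ) < Module.finrank ℝ (Module.Dual ℝ X) := by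
    rw [Module.finrank_prod, Subspace.dual_finrank_eq]
    simp
    omega
  have hker := LinearMap.ker_ne_bot_of_finrank_lt hlt (f := l)
  obtain ⟨v, hv, hv0⟩ := Submodule.exists_mem_ne_zero_of_ne_bot hker
  have h1 : l v = 0 := hv
  have hva : v a = 0 := congrArg Prod.fst h1
  have hvb : v b = 0 := congrArg Prod.snd h1
  set φ : X →L[ℝ] ℝ := LinearMap.toContinuousLinearMap v with hφ
  have hφ0 : φ ≠ 0 := by
    intro h0
    apply hv0
    ext x
    have := congrArg (fun f : X →L[ℝ] ℝ => f x) h0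
    simpa [hφ] using this
  -- the norm of `φ` is attained at a unit vector
  have hpos : 0 < ‖φ‖ := norm_pos_iff.2 hφ0
  have : Nontrivial X := by
    obtain ⟨x, hx⟩ : ∃ x, φ x ≠ 0 := by
      by_contra hcon
      push Not at hcon
      exact hφ0 (ContinuousLinearMap.ext hcon)
    exact ⟨⟨x, 0, fun h => hx (by rw [h, map_zero])⟩⟩
  obtain ⟨q, hq, hmax⟩ := (isCompact_sphere (0 : X) 1).exists_isMaxOn
    (NormedSpace.sphere_nonempty.2 zero_le_one) φ.continuous.continuousOn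
  have hq1 : ‖q‖ = 1 := by simpa using hq
  have hbd : ∀ x, φ x ≤ φ q * ‖x‖ := by
    intro x
    by_cases hx : x = 0
    · simp [hx]
    · have hn : 0 < ‖x‖ := norm_pos_iff.2 hx
      have h2 : ‖x‖⁻¹ • x ∈ sphere (0 : X) 1 := by
        simp [norm_smul, hn.ne']
      have h3 : φ (‖x‖⁻¹ • x) ≤ φ q := hmax h2
      rw [map_smul, smul_eq_mul, inv_mul_le_iff₀ hn] at h3
      linarith
  have hqpos : 0 < φ q := by
    obtain ⟨x, hx⟩ : ∃ x, φ x ≠ 0 := by
      by_contra hcon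
      push Not at hcon
      exact hφ0 (ContinuousLinearMap.ext hcon)
    have hxn : x ≠ 0 := by
      rintro rfl
      simp at hx
    have hn : 0 < ‖x‖ := norm_pos_iff.2 hxn
    have h2 := hbd x
    have h3 := hbd (-x)
    rw [map_neg, norm_neg] at h3
    by_contra hle
    rw [not_lt] at hle
    have h4 : φ q * ‖x‖ ≤ 0 := mul_nonpos_of_nonpos_of_nonneg hle hn.le
    exact hx (le_antisymm (by linarith) (by linarith))
  refine ⟨(φ q)⁻¹ • φ, q, ?_, hq1, ?_, ?_, ?_⟩
  · intro x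
    show (φ q)⁻¹ * φ x ≤ ‖x‖
    rw [inv_mul_le_iff₀ hqpos]
    exact hbd x
  · show (φ q)⁻¹ * φ q = 1
    exact inv_mul_cancel₀ hqpos.ne'
  · show (φ q)⁻¹ * φ a = 0
    have : φ a = 0 := hva
    rw [this, mul_zero]
  · show (φ q)⁻¹ * φ b = 0
    have : φ b = 0 := hvb
    rw [this, mul_zero]

end Near

/-- The hypotheses of the final step. -/
structure FinalHyp (f : X → Y) : Prop where
  hf : IsSphereIso f
  hodd : ∀ x : X, ‖x‖ = 1 → f (-x) = - f x
  hconn : ∀ w : X, w ≠ 0 → ‖w‖ < 2 → (Ew w).Nonempty ∧ IsPreconnected (Ew w)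
  hK : ∀ w : X, w ≠ 0 → ‖w‖ < 1 → ∀ s ∈ Ew w, ∀ t ∈ Ew w, f s + f (w - s) = f t + f (w - t)

variable {f : X → Y}

/-- The chord relation. -/
theorem FinalHyp.chord (H : FinalHyp f) {x x' a a' : X} (hx : ‖x‖ = 1) (hx' : ‖x'‖ = 1)
    (ha : ‖a‖ = 1) (ha' : ‖a'‖ = 1) (he : x - x' = a - a') (hsmall : ‖x - x'‖ < 1) :
    f x - f x' = f a - f a' := by
  by_cases h0 : x - x' = 0
  · have h1 : x = x' := sub_eq_zero.1 h0
    have h2 : a = a' := sub_eq_zero.1 (by rw [← he]; exact h0)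
    rw [h1, h2, sub_self, sub_self]
  · have hxE : x ∈ Ew (x - x') := by
      refine ⟨hx, ?_⟩
      have e : x - (x - x') = x' := by abel
      rw [e]; exact hx'
    have haE : a ∈ Ew (x - x') := by
      refine ⟨ha, ?_⟩
      have e : a - (x - x') = a' := by rw [he]; abel
      rw [e]; exact ha'
    have h1 := H.hK _ h0 hsmall x hxE a haE
    have e1 : x - x' - x = -x' := by abel
    have e2 : x - x' - a = -a' := by rw [he]; abel
    rw [e1, e2, H.hodd _ hx', H.hodd _ ha'] at h1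
    rw [sub_eq_add_neg, sub_eq_add_neg]
    exact h1

/-- Constancy of the sum on all of `Ew w`, `‖w‖ < 2`. -/
theorem FinalHyp.K_const (H : FinalHyp f) {w : X} (hw2 : ‖w‖ < 2) {s t : X} (hs : s ∈ Ew w)
    (ht : t ∈ Ew w) : f s + f (w - s) = f t + f (w - t) := by
  by_cases hw : w = 0
  · subst hw
    have hs1 : ‖s‖ = 1 := hs.1
    have ht1 : ‖t‖ = 1 := ht.1
    rw [zero_sub, zero_sub, H.hodd _ hs1, H.hodd _ ht1]
    simp
  · have hps : PreconnectedSpace (Ew w) :=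
      isPreconnected_iff_preconnectedSpace.1 (H.hconn w hw hw2).2
    have hloc : IsLocallyConstant (fun z : Ew w => f z + f (w - z)) := by
      rw [IsLocallyConstant.iff_eventually_eq]
      intro z
      filter_upwards [Metric.ball_mem_nhds z one_pos] with y hy
      have hy' : ‖(y : X) - z‖ < 1 := by
        have : dist y z < 1 := hy
        rwa [Subtype.dist_eq, dist_eq_norm] at this
      have hch := H.chord y.2.1 z.2.1 (Ew_rho z.2).1 (Ew_rho y.2).1
        (by abel : (y : X) - z = (w - z) - (w - y)) hy'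
      calc f y + f (w - y) = (f y - f z) + f (w - y) + f z := by abel
        _ = (f (w - z) - f (w - y)) + f (w - y) + f z := by rw [hch]
        _ = f z + f (w - z) := by abel
    exact hloc.apply_eq_of_preconnectedSpace ⟨s, hs⟩ ⟨t, ht⟩

open Classical in
/-- The difference map. -/
noncomputable def Gmap (f : X → Y) (w : X) : Y :=
  if h : (Ew w).Nonempty then f h.some + f (w - h.some) else 0

theorem FinalHyp.G_eq (H : FinalHyp f) {w x : X} (hw2 : ‖w‖ < 2) (hx : x ∈ Ew w) :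
    Gmap f w = f x + f (w - x) := by
  have hne : (Ew w).Nonempty := ⟨x, hx⟩
  rw [Gmap, dif_pos hne]
  exact H.K_const hw2 hne.some_mem hx

/-- The form used: `f x - f x' = G (x - x')`. -/
theorem FinalHyp.G_sub (H : FinalHyp f) {x x' : X} (hx : ‖x‖ = 1) (hx' : ‖x'‖ = 1)
    (h2 : ‖x - x'‖ < 2) : Gmap f (x - x') = f x - f x' := by
  have hxE : x ∈ Ew (x - x') := by
    refine ⟨hx, ?_⟩
    have e : x - (x - x') = x' := by abel
    rw [e]; exact hx'
  rw [H.G_eq h2 hxE]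
  have e1 : x - x' - x = -x' := by abel
  rw [e1, H.hodd _ hx', sub_eq_add_neg]

theorem FinalHyp.G_zero (H : FinalHyp f) : Gmap f (0 : X) = 0 := by
  by_cases hne : (Ew (0 : X)).Nonempty
  · obtain ⟨x, hx⟩ := hne
    have := H.G_sub hx.1 hx.1 (by simp)
    rw [sub_self, sub_self] at this
    exact this
  · rw [Gmap, dif_neg hne]

theorem FinalHyp.G_norm (H : FinalHyp f) {w : X} (hw2 : ‖w‖ < 2) : ‖Gmap f w‖ = ‖w‖ := by
  by_cases hw : w = 0
  · rw [hw, H.G_zero, norm_zero, norm_zero]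
  obtain ⟨x, hx⟩ := (H.hconn w hw hw2).1
  have e : x - (x - w) = w := by abel
  have h1 := H.G_sub hx.1 hx.2 (by rw [e]; exact hw2)
  rw [e] at h1
  rw [h1, H.hf.iso _ _ hx.1 hx.2, e]

theorem FinalHyp.G_neg (H : FinalHyp f) {w : X} (hw2 : ‖w‖ < 2) : Gmap f (-w) = - Gmap f w := by
  by_cases hw : w = 0
  · rw [hw, neg_zero, H.G_zero, neg_zero]
  obtain ⟨x, hx⟩ := (H.hconn w hw hw2).1
  have e : x - (x - w) = w := by abel
  have h1 := H.G_sub hx.1 hx.2 (by rw [e]; exact hw2)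
  rw [e] at h1
  have e2 : (x - w) - x = -w := by abel
  have h2 := H.G_sub hx.2 hx.1 (by rw [e2, norm_neg]; exact hw2)
  rw [e2] at h2
  rw [h1, h2]; abel

/-- Additivity along a triple: the centre form. -/
theorem FinalHyp.G_triple (H : FinalHyp f) {u v z : X} (hz : z ∈ Ew u) (hzv : ‖z + v‖ = 1)
    (hu2 : ‖u‖ < 2) (hv2 : ‖v‖ < 2) (huv : ‖u + v‖ < 2) :
    Gmap f (u + v) = Gmap f u + Gmap f v := by
  have e1 : (z + v) - (z - u) = u + v := by abel
  have e2 : z - (z - u) = u := by abel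
  have e3 : (z + v) - z = v := by abel
  have h1 := H.G_sub hzv hz.2 (by rw [e1]; exact huv)
  have h2 := H.G_sub hz.1 hz.2 (by rw [e2]; exact hu2)
  have h3 := H.G_sub hzv hz.1 (by rw [e3]; exact hv2)
  rw [e1] at h1
  rw [e2] at h2
  rw [e3] at h3
  rw [h1, h2, h3]; abel

section Add

variable [FiniteDimensional ℝ X]

/-- Additivity of `G` near `0`. -/
theorem FinalHyp.G_add (H : FinalHyp f) (hdim : 3 ≤ Module.finrank ℝ X) {u1 u2 : X}
    (n1 : ‖u1‖ ≤ 1 / 8) (n2 : ‖u2‖ ≤ 1 / 8) (n12 : ‖u1 + u2‖ ≤ 1 / 8) :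
    Gmap f (u1 + u2) = Gmap f u1 + Gmap f u2 := by
  by_cases h1 : u1 = 0
  · rw [h1, zero_add, H.G_zero, zero_add]
  by_cases h2 : u2 = 0
  · rw [h2, add_zero, H.G_zero, add_zero]
  by_cases h12 : u1 + u2 = 0
  · have e : u2 = -u1 := by
      rw [eq_neg_iff_add_eq_zero, add_comm]
      exact h12
    rw [h12, H.G_zero, e, H.G_neg (by linarith), add_neg_cancel]
  obtain ⟨ψ, y, hψ, hy, hψy, hψ1, hψ2⟩ := exists_top hdim u1 u2
  have hψ12 : ψ (u1 + u2) = 0 := by rw [map_add, hψ1, hψ2, add_zero]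
  -- first triple
  obtain ⟨z1, hz1, hz1v⟩ := exists_triple (v := y) h1 (by linarith) hy hψ hψy hψ1
    (H.hconn u1 h1 (by linarith)).2 (by rw [sub_self, norm_zero]; linarith)
  have hy2 : ‖y‖ < 2 := by rw [hy]; norm_num
  have hu1y : ‖u1 + y‖ ≤ 9 / 8 := by
    calc _ ≤ ‖u1‖ + ‖y‖ := norm_add_le _ _
      _ ≤ _ := by rw [hy]; linarith
  have e1 := H.G_triple hz1 hz1v (by linarith) hy2 (by linarith)
  -- second triple
  obtain ⟨z2, hz2, hz2v⟩ := exists_triple (v := y) h12 (by linarith) hy hψ hψy hψ12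
    (H.hconn _ h12 (by linarith)).2 (by rw [sub_self, norm_zero]; linarith)
  have hu12y : ‖u1 + u2 + y‖ ≤ 9 / 8 := by
    calc _ ≤ ‖u1 + u2‖ + ‖y‖ := norm_add_le _ _
      _ ≤ _ := by rw [hy]; linarith
  have e2 := H.G_triple hz2 hz2v (by linarith) hy2 (by linarith)
  -- third triple
  obtain ⟨z3, hz3, hz3v⟩ := exists_triple (v := u1 + y) h2 (by linarith) hy hψ hψy hψ2
    (H.hconn u2 h2 (by linarith)).2 (by
      have e : u1 + y - y = u1 := by abel
      rw [e]; linarith)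
  have e4 : u2 + (u1 + y) = u1 + u2 + y := by abel
  have e3 := H.G_triple hz3 hz3v (by linarith) (by linarith) (by rw [e4]; linarith)
  rw [e4, e2, e1] at e3
  have : Gmap f (u1 + u2) + Gmap f y = (Gmap f u1 + Gmap f u2) + Gmap f y := by
    rw [e3]; abel
  exact add_right_cancel this

/-- Multiples. -/
theorem FinalHyp.G_nsmul (H : FinalHyp f) (hdim : 3 ≤ Module.finrank ℝ X) {v : X} (k : ℕ)
    (hk : (k : ℝ) * ‖v‖ ≤ 1 / 8) : Gmap f ((k : ℝ) • v) = (k : ℝ) • Gmap f v := by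
  induction k with
  | zero => simp [H.G_zero]
  | succ k ih =>
    have hk' : ((k : ℝ) + 1) * ‖v‖ ≤ 1 / 8 := by exact_mod_cast hk
    have h1 : (k : ℝ) * ‖v‖ ≤ 1 / 8 := by nlinarith [norm_nonneg v]
    have h2 : ‖v‖ ≤ 1 / 8 := by
      have : (0 : ℝ) ≤ k * ‖v‖ := by positivity
      linarith
    have hn : ‖(k : ℝ) • v‖ = (k : ℝ) * ‖v‖ := by
      rw [norm_smul, Real.norm_of_nonneg (Nat.cast_nonneg k)]
    have e : (((k + 1 : ℕ) : ℝ)) • v = (k : ℝ) • v + v := by
      push_cast; rw [add_smul, one_smul]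
    have hn2 : ‖(k : ℝ) • v + v‖ ≤ 1 / 8 := by
      rw [← e, norm_smul, Real.norm_of_nonneg (Nat.cast_nonneg _)]
      exact hk
    rw [e, H.G_add hdim (by rw [hn]; exact h1) h2 hn2, ih h1]
    push_cast
    rw [add_smul, one_smul]

/-- Two scales agree. -/
theorem FinalHyp.G_scale (H : FinalHyp f) (hdim : 3 ≤ Module.finrank ℝ X) (x : X) {n m : ℕ}
    (hn : 0 < n) (hm : 0 < m) (hnx : ‖x‖ ≤ n * (1 / 8)) (hmx : ‖x‖ ≤ m * (1 / 8)) :
    (n : ℝ) • Gmap f ((n : ℝ)⁻¹ • x) = (m : ℝ) • Gmap f ((m : ℝ)⁻¹ • x) := by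
  have hn0 : (0 : ℝ) < n := by exact_mod_cast hn
  have hm0 : (0 : ℝ) < m := by exact_mod_cast hm
  set v : X := ((n : ℝ) * m)⁻¹ • x with hv
  have hvn : ‖v‖ = ((n : ℝ) * m)⁻¹ * ‖x‖ := by
    rw [hv, norm_smul, norm_inv, Real.norm_of_nonneg (by positivity)]
  have e1 : (n : ℝ)⁻¹ • x = (m : ℝ) • v := by
    rw [hv, smul_smul]
    congr 1
    field_simp
  have e2 : (m : ℝ)⁻¹ • x = (n : ℝ) • v := by
    rw [hv, smul_smul]
    congr 1
    field_simp
  have h1 : (m : ℝ) * ‖v‖ ≤ 1 / 8 := by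
    rw [hvn]
    have : (m : ℝ) * (((n : ℝ) * m)⁻¹ * ‖x‖) = (n : ℝ)⁻¹ * ‖x‖ := by field_simp
    rw [this, inv_mul_le_iff₀ hn0]
    linarith
  have h2 : (n : ℝ) * ‖v‖ ≤ 1 / 8 := by
    rw [hvn]
    have : (n : ℝ) * (((n : ℝ) * m)⁻¹ * ‖x‖) = (m : ℝ)⁻¹ * ‖x‖ := by field_simp
    rw [this, inv_mul_le_iff₀ hm0]
    linarith
  rw [e1, e2, H.G_nsmul hdim m h1, H.G_nsmul hdim n h2, smul_smul, smul_smul, mul_comm]

end Add

/-- A scale for `x`. -/
noncomputable def scaleN (x : X) : ℕ := ⌈8 * ‖x‖⌉₊ + 1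

theorem scaleN_pos (x : X) : 0 < scaleN x := Nat.succ_pos _

theorem scaleN_le (x : X) : ‖x‖ ≤ (scaleN x : ℝ) * (1 / 8) := by
  have h1 : 8 * ‖x‖ ≤ (⌈8 * ‖x‖⌉₊ : ℝ) := Nat.le_ceil _
  have h2 : ((scaleN x : ℕ) : ℝ) = (⌈8 * ‖x‖⌉₊ : ℝ) + 1 := by
    simp [scaleN]
  rw [h2]
  linarith

/-- The linear extension. -/
noncomputable def Tmap (f : X → Y) (x : X) : Y :=
  (scaleN x : ℝ) • Gmap f ((scaleN x : ℝ)⁻¹ • x)

section Ext

variable [FiniteDimensional ℝ X]

theorem FinalHyp.T_eq (H : FinalHyp f) (hdim : 3 ≤ Module.finrank ℝ X) (x : X) {n : ℕ}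
    (hn : 0 < n) (hnx : ‖x‖ ≤ n * (1 / 8)) :
    Tmap f x = (n : ℝ) • Gmap f ((n : ℝ)⁻¹ • x) :=
  H.G_scale hdim x (scaleN_pos x) hn (scaleN_le x) hnx

theorem small_of_scale {x : X} {n : ℕ} (hn : 0 < n) (hnx : ‖x‖ ≤ n * (1 / 8)) :
    ‖(n : ℝ)⁻¹ • x‖ ≤ 1 / 8 := by
  have hn0 : (0 : ℝ) < n := by exact_mod_cast hn
  rw [norm_smul, norm_inv, Real.norm_of_nonneg hn0.le, inv_mul_le_iff₀ hn0]
  exact hnx

theorem FinalHyp.T_add (H : FinalHyp f) (hdim : 3 ≤ Module.finrank ℝ X) (x x' : X) :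
    Tmap f (x + x') = Tmap f x + Tmap f x' := by
  set n : ℕ := scaleN x + scaleN x' + scaleN (x + x') with hn
  have hn0 : 0 < n := by
    have := scaleN_pos x
    omega
  have hcast : (n : ℝ) = scaleN x + scaleN x' + scaleN (x + x') := by
    rw [hn]; push_cast; ring
  have h0 : (0 : ℝ) ≤ (scaleN x : ℝ) := Nat.cast_nonneg _
  have h0' : (0 : ℝ) ≤ (scaleN x' : ℝ) := Nat.cast_nonneg _
  have h0'' : (0 : ℝ) ≤ (scaleN (x + x') : ℝ) := Nat.cast_nonneg _
  have h1 : ‖x‖ ≤ n * (1 / 8) := by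
    have := scaleN_le x
    rw [hcast]; linarith
  have h2 : ‖x'‖ ≤ n * (1 / 8) := by
    have := scaleN_le x'
    rw [hcast]; linarith
  have h3 : ‖x + x'‖ ≤ n * (1 / 8) := by
    have := scaleN_le (x + x')
    rw [hcast]; linarith
  rw [H.T_eq hdim _ hn0 h1, H.T_eq hdim _ hn0 h2, H.T_eq hdim _ hn0 h3, smul_add (n : ℝ)⁻¹ x x',
    H.G_add hdim (small_of_scale hn0 h1) (small_of_scale hn0 h2) (by
      rw [← smul_add]; exact small_of_scale hn0 h3), smul_add]

theorem FinalHyp.T_norm (H : FinalHyp f) (x : X) : ‖Tmap f x‖ = ‖x‖ := by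
  have hn0 : (0 : ℝ) < (scaleN x : ℝ) := by exact_mod_cast scaleN_pos x
  have hs := small_of_scale (scaleN_pos x) (scaleN_le x)
  rw [Tmap, norm_smul, H.G_norm (by linarith), norm_smul, norm_inv,
    Real.norm_of_nonneg hn0.le, ← mul_assoc, mul_inv_cancel₀ hn0.ne', one_mul]

theorem FinalHyp.T_small (H : FinalHyp f) (hdim : 3 ≤ Module.finrank ℝ X) {u : X}
    (hu : ‖u‖ ≤ 1 / 8) : Tmap f u = Gmap f u := by
  rw [H.T_eq hdim u one_pos (by simpa using hu)]
  simp

/-- `f` agrees with the extension on the sphere. -/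
theorem FinalHyp.T_sphere (H : FinalHyp f) (hdim : 3 ≤ Module.finrank ℝ X) {x : X} (hx : ‖x‖ = 1) :
    Tmap f x = f x := by
  have hrank : 1 < Module.rank ℝ X := by
    rw [← Module.finrank_eq_rank]
    exact_mod_cast (by omega : 1 < Module.finrank ℝ X)
  have hconn : IsConnected (sphere (0 : X) 1) := isConnected_sphere hrank 0 zero_le_one
  have hcs : ConnectedSpace (sphere (0 : X) 1) := isConnected_iff_connectedSpace.1 hconn
  have hn1 : ∀ z : sphere (0 : X) 1, ‖(z : X)‖ = 1 := fun z => by simp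
  let TT : X →+ Y := AddMonoidHom.mk' (Tmap f) (H.T_add hdim)
  have hTT : ∀ z, TT z = Tmap f z := fun _ => rfl
  have hloc : IsLocallyConstant (fun z : sphere (0 : X) 1 => f z - TT z) := by
    rw [IsLocallyConstant.iff_eventually_eq]
    intro z
    have hpos : (0 : ℝ) < 1 / 8 := by norm_num
    filter_upwards [Metric.ball_mem_nhds z hpos] with y hy
    have hy' : ‖(y : X) - z‖ ≤ 1 / 8 := by
      have : dist y z < 1 / 8 := hy
      rw [Subtype.dist_eq, dist_eq_norm] at this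
      exact this.le
    have h1 := H.G_sub (hn1 y) (hn1 z) (by linarith)
    rw [← H.T_small hdim hy', ← hTT, map_sub] at h1
    show f y - TT y = f z - TT z
    rw [sub_eq_sub_iff_sub_eq_sub, h1]
  set x' : sphere (0 : X) 1 := ⟨x, by simpa using hx⟩ with hx'
  have h1 := hloc.apply_eq_of_preconnectedSpace x' (-x')
  have h2 : f (x : X) - TT x = f (-x) - TT (-x) := h1
  rw [H.hodd _ hx, map_neg] at h2
  have h3 : f x - TT x = 0 := by
    have h4 : -f x - -TT x = -(f x - TT x) := by abel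
    rw [h4] at h2
    have h5 : (2 : ℝ) • (f x - TT x) = 0 := by
      rw [two_smul]
      nth_rewrite 1 [h2]
      abel
    rcases smul_eq_zero.1 h5 with h6 | h6
    · norm_num at h6
    · exact h6
  rw [← hTT]
  exact (sub_eq_zero.1 h3).symm

/-- The final statement for ambient maps. -/
theorem FinalHyp.exists_linearIsometryEquiv (H : FinalHyp f) (hdim : 3 ≤ Module.finrank ℝ X) :
    ∃ T : X ≃ₗᵢ[ℝ] Y, ∀ x, ‖x‖ = 1 → T x = f x := by
  let TT : X →+ Y := AddMonoidHom.mk' (Tmap f) (H.T_add hdim)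
  have hnorm : ∀ x, ‖TT x‖ = ‖x‖ := H.T_norm
  have hiso : Isometry TT := AddMonoidHomClass.isometry_of_norm _ hnorm
  set L : X →L[ℝ] Y := TT.toRealLinearMap hiso.continuous with hL
  have hLapp : ∀ x, L x = Tmap f x := fun x => rfl
  have hsurj : Function.Surjective L := by
    intro y
    by_cases hy : y = 0
    · exact ⟨0, by rw [hy, map_zero]⟩
    · have hn : 0 < ‖y‖ := norm_pos_iff.2 hy
      have h1 : ‖‖y‖⁻¹ • y‖ = 1 := by
        simpa using norm_smul_inv_norm (𝕜 := ℝ) hy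
      obtain ⟨a, ha, hga⟩ := H.hf.surj _ h1
      refine ⟨‖y‖ • a, ?_⟩
      rw [map_smul, hLapp, H.T_sphere hdim ha, hga, smul_smul, mul_inv_cancel₀ hn.ne', one_smul]
  let Li : X →ₗᵢ[ℝ] Y := ⟨L.toLinearMap, fun x => hnorm x⟩
  refine ⟨LinearIsometryEquiv.ofSurjective Li hsurj, fun x hx => ?_⟩
  show L x = f x
  rw [hLapp, H.T_sphere hdim hx]

end Ext

end Vale.Agent.Lib.P084.NS
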