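/-
For every finite-dimensional norm of dimension at least three and every `w` with `0 < |w| < 2`,
the set `E_w = {x : |x| = |x - w| = 1}` is nonempty and connected. No strict convexity.

Proof: with `π : X → X / ℝ w`, let `O = {|y| < 1, |y - w| < 1}`, `M = {|y| ≤ 1, |y - w| ≤ 1}` and
`A = π O`, an open bounded convex subset of the quotient. A point of `M` outside `E_w` has its
projection in `A` and a point of `E_w` has not, so `E_w = M ∩ π⁻¹ (frontier A)`; the fibres are
convex, the frontier of `A` is a homeomorphic image of a sphere (dimension at least two).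
-/
import Mathlib

namespace Vale.Agent.Lib.P084.NS

open Set Metric

section Topological

/-- A compact set mapped continuously onto a preconnected set with preconnected fibres is
preconnected. -/
theorem isPreconnected_of_fibres {α β : Type*} [TopologicalSpace α] [TopologicalSpace β]
    [T2Space β] {E : Set α} (hE : IsCompact E) {f : α → β} (hf : ContinuousOn f E)
    (hF : IsPreconnected (f '' E)) (hfib : ∀ y ∈ f '' E, IsPreconnected (E ∩ f ⁻¹' {y})) :
    IsPreconnected E := by
  rw [isPreconnected_closed_iff]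
  intro t t' ht ht' hcov hne hne'
  have hcomp : IsCompact (E ∩ t) := hE.inter_right ht
  have hcomp' : IsCompact (E ∩ t') := hE.inter_right ht'
  have hT : IsClosed (f '' (E ∩ t)) := (hcomp.image_of_continuousOn (hf.mono inter_subset_left)).isClosed
  have hT' : IsClosed (f '' (E ∩ t')) :=
    (hcomp'.image_of_continuousOn (hf.mono inter_subset_left)).isClosed
  rw [isPreconnected_closed_iff] at hF
  have hcov2 : f '' E ⊆ f '' (E ∩ t) ∪ f '' (E ∩ t') := by
    rintro _ ⟨x, hx, rfl⟩
    rcases hcov hx with h | h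
    · exact Or.inl ⟨x, ⟨hx, h⟩, rfl⟩
    · exact Or.inr ⟨x, ⟨hx, h⟩, rfl⟩
  have h1 : (f '' E ∩ f '' (E ∩ t)).Nonempty := by
    obtain ⟨x, hx, hxt⟩ := hne
    exact ⟨f x, ⟨x, hx, rfl⟩, ⟨x, ⟨hx, hxt⟩, rfl⟩⟩
  have h2 : (f '' E ∩ f '' (E ∩ t')).Nonempty := by
    obtain ⟨x, hx, hxt⟩ := hne'
    exact ⟨f x, ⟨x, hx, rfl⟩, ⟨x, ⟨hx, hxt⟩, rfl⟩⟩
  obtain ⟨y, hy, hyt, hyt'⟩ := hF _ _ hT hT' hcov2 h1 h2
  have hfy := hfib y hy
  rw [isPreconnected_closed_iff] at hfy
  obtain ⟨a, ⟨ha, hat⟩, rfl⟩ := hyt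
  obtain ⟨b, ⟨hb, hbt⟩, hb'⟩ := hyt'
  have := hfy t t' ht ht' (fun z hz => hcov hz.1)
    ⟨a, ⟨ha, rfl⟩, hat⟩ ⟨b, ⟨hb, hb'⟩, hbt⟩
  obtain ⟨z, ⟨hz, -⟩, hz2⟩ := this
  exact ⟨z, hz, hz2⟩

/-- The frontier of a bounded convex set with nonempty interior in a normed space of dimension at
least two is connected. -/
theorem isConnected_frontier {Q : Type*} [NormedAddCommGroup Q] [NormedSpace ℝ Q]
    (hrank : 1 < Module.rank ℝ Q) {s : Set Q} (hc : Convex ℝ s) (hne : (interior s).Nonempty)
    (hb : Bornology.IsBounded s) : IsConnected (frontier s) := by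
  obtain ⟨e, -, -, h3⟩ := exists_homeomorph_image_eq (E := Q) (s := ball (0 : Q) 1) (t := s)
    (convex_ball 0 1) (by rw [isOpen_ball.interior_eq]; exact ⟨0, by simp⟩)
    (NormedSpace.isVonNBounded_iff ℝ |>.2 isBounded_ball) hc hne
    (NormedSpace.isVonNBounded_iff ℝ |>.2 hb)
  rw [← h3, frontier_ball (0 : Q) one_ne_zero]
  exact (isConnected_sphere hrank 0 zero_le_one).image _ e.continuous.continuousOn

end Topological

variable {X : Type*} [NormedAddCommGroup X] [NormedSpace ℝ X]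

/-- The equator of the lens. -/
def Eq' (w : X) : Set X := {x | ‖x‖ = 1 ∧ ‖x - w‖ = 1}

/-- The open lens. -/
def Lens (w : X) : Set X := {y | ‖y‖ < 1 ∧ ‖y - w‖ < 1}

/-- The closed lens. -/
def CLens (w : X) : Set X := {y | ‖y‖ ≤ 1 ∧ ‖y - w‖ ≤ 1}

theorem shift_up {x w : X} (h1 : ‖x‖ < 1) (h2 : ‖x - w‖ ≤ 1) :
    ∃ s : ℝ, x + s • w ∈ Lens w := by
  set s : ℝ := min 1 ((1 - ‖x‖) / (2 * (‖w‖ + 1))) with hs
  have hw : 0 < ‖w‖ + 1 := by positivity
  have hgap : 0 < 1 - ‖x‖ := by linarith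
  have hs0 : 0 < s := lt_min one_pos (by positivity)
  have hs1 : s ≤ 1 := min_le_left _ _
  have hs2 : s * (2 * (‖w‖ + 1)) ≤ 1 - ‖x‖ := by
    have : s ≤ (1 - ‖x‖) / (2 * (‖w‖ + 1)) := min_le_right _ _
    rwa [le_div_iff₀ (by positivity)] at this
  refine ⟨s, ?_, ?_⟩
  · have h3 : ‖x + s • w‖ ≤ ‖x‖ + s * ‖w‖ := by
      refine (norm_add_le _ _).trans ?_
      rw [norm_smul, Real.norm_of_nonneg hs0.le]
    nlinarith [norm_nonneg w]
  · have heq : x + s • w - w = (1 - s) • (x - w) + s • x := by module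
    rw [heq]
    have h3 : ‖(1 - s) • (x - w) + s • x‖ ≤ (1 - s) * ‖x - w‖ + s * ‖x‖ := by
      refine (norm_add_le _ _).trans ?_
      rw [norm_smul, norm_smul, Real.norm_of_nonneg hs0.le,
        Real.norm_of_nonneg (by linarith : (0 : ℝ) ≤ 1 - s)]
    nlinarith

theorem shift_down {x w : X} (h1 : ‖x‖ ≤ 1) (h2 : ‖x - w‖ < 1) :
    ∃ s : ℝ, x + s • w ∈ Lens w := by
  obtain ⟨s, hs1, hs2⟩ := shift_up (x := x - w) (w := -w) h2 (by simpa using h1)
  refine ⟨-s, ?_, ?_⟩
  · have heq : x + (-s) • w = x - w + s • -w - -w := by module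
    rw [heq]; exact hs2
  · have heq : x + (-s) • w - w = x - w + s • -w := by module
    rw [heq]; exact hs1

/-- Along the line through a point of the equator the norm stays at least one for nonnegative
parameters. -/
theorem norm_shift_ge {x w : X} (h1 : ‖x‖ = 1) (h2 : ‖x - w‖ = 1) {t : ℝ} (ht : 0 ≤ t) :
    1 ≤ ‖x + t • w‖ := by
  have heq : (1 + t) • x = t • (x - w) + (x + t • w) := by module
  have h3 : ‖(1 + t) • x‖ ≤ t * ‖x - w‖ + ‖x + t • w‖ := by
    rw [heq]
    refine (norm_add_le _ _).trans ?_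
    rw [norm_smul, Real.norm_of_nonneg ht]
  rw [norm_smul, Real.norm_of_nonneg (by linarith : (0 : ℝ) ≤ 1 + t), h1, h2] at h3
  linarith

/-- No shift of a point of the equator lies in the open lens. -/
theorem eq_not_shift {x w : X} (hx : x ∈ Eq' w) (s : ℝ) : x + s • w ∉ Lens w := by
  rintro ⟨h1, h2⟩
  rcases le_total 0 s with hs | hs
  · have := norm_shift_ge hx.1 hx.2 hs
    linarith
  · have h3 := norm_shift_ge (x := x - w) (w := -w) hx.2 (by simpa using hx.1)
      (t := -s) (by linarith)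
    have heq : x - w + (-s) • -w = x + s • w - w := by module
    rw [heq] at h3
    linarith

theorem isOpen_lens (w : X) : IsOpen (Lens w) := by
  have h : Lens w = {y : X | ‖y‖ < 1} ∩ {y : X | ‖y - w‖ < 1} := rfl
  rw [h]
  exact (isOpen_lt continuous_norm continuous_const).inter
    (isOpen_lt (continuous_norm.comp (continuous_id.sub continuous_const)) continuous_const)

theorem convex_lens (w : X) : Convex ℝ (Lens w) := by
  have h : Lens w = ball (0 : X) 1 ∩ ball w 1 := by
    ext y; simp [Lens, dist_eq_norm]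
  rw [h]
  exact (convex_ball _ _).inter (convex_ball _ _)

theorem convex_clens (w : X) : Convex ℝ (CLens w) := by
  have h : CLens w = closedBall (0 : X) 1 ∩ closedBall w 1 := by
    ext y; simp [CLens, dist_eq_norm]
  rw [h]
  exact (convex_closedBall _ _).inter (convex_closedBall _ _)

theorem half_mem_lens {w : X} (h2 : ‖w‖ < 2) : (1 / 2 : ℝ) • w ∈ Lens w := by
  constructor
  · rw [norm_smul]; norm_num; linarith
  · have : (1 / 2 : ℝ) • w - w = (-(1 / 2) : ℝ) • w := by module
    rw [this, norm_smul]; norm_num; linarith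

/-- The closed lens lies in the closure of the open lens. -/
theorem clens_subset_closure {w : X} (h2 : ‖w‖ < 2) : CLens w ⊆ closure (Lens w) := by
  intro x hx
  have hc := half_mem_lens h2
  rw [Metric.mem_closure_iff]
  intro ε hε
  set c := (1 / 2 : ℝ) • w with hcdef
  set t : ℝ := min 1 (ε / (2 * (‖x - c‖ + 1))) with ht
  have ht0 : 0 < t := lt_min one_pos (by positivity)
  have ht1 : t ≤ 1 := min_le_left _ _
  have ht2 : t * (2 * (‖x - c‖ + 1)) ≤ ε := by
    have : t ≤ ε / (2 * (‖x - c‖ + 1)) := min_le_right _ _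
    rwa [le_div_iff₀ (by positivity)] at this
  refine ⟨(1 - t) • x + t • c, ⟨?_, ?_⟩, ?_⟩
  · have h3 : ‖(1 - t) • x + t • c‖ ≤ (1 - t) * ‖x‖ + t * ‖c‖ := by
      refine (norm_add_le _ _).trans ?_
      rw [norm_smul, norm_smul, Real.norm_of_nonneg ht0.le,
        Real.norm_of_nonneg (by linarith : (0 : ℝ) ≤ 1 - t)]
    have h4 := hx.1
    have h5 := hc.1
    have h6 : (1 - t) * ‖x‖ ≤ (1 - t) * 1 := mul_le_mul_of_nonneg_left h4 (by linarith)
    have h7 : t * ‖c‖ < t * 1 := mul_lt_mul_of_pos_left h5 ht0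
    linarith
  · have heq : (1 - t) • x + t • c - w = (1 - t) • (x - w) + t • (c - w) := by module
    rw [heq]
    have h3 : ‖(1 - t) • (x - w) + t • (c - w)‖ ≤ (1 - t) * ‖x - w‖ + t * ‖c - w‖ := by
      refine (norm_add_le _ _).trans ?_
      rw [norm_smul, norm_smul, Real.norm_of_nonneg ht0.le,
        Real.norm_of_nonneg (by linarith : (0 : ℝ) ≤ 1 - t)]
    have h4 := hx.2
    have h5 := hc.2
    have h6 : (1 - t) * ‖x - w‖ ≤ (1 - t) * 1 := mul_le_mul_of_nonneg_left h4 (by linarith)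
    have h7 : t * ‖c - w‖ < t * 1 := mul_lt_mul_of_pos_left h5 ht0
    linarith
  · rw [dist_eq_norm]
    have heq : x - ((1 - t) • x + t • c) = t • (x - c) := by module
    rw [heq, norm_smul, Real.norm_of_nonneg ht0.le]
    nlinarith [norm_nonneg (x - c)]

section Main

variable [FiniteDimensional ℝ X]

theorem isCompact_clens (w : X) : IsCompact (CLens w) := by
  have h : CLens w = closedBall (0 : X) 1 ∩ closedBall w 1 := by
    ext y; simp [CLens, dist_eq_norm]
  rw [h]
  exact (isCompact_closedBall _ _).inter_right isClosed_closedBall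

theorem isCompact_eq (w : X) : IsCompact (Eq' w) := by
  refine (isCompact_clens w).of_isClosed_subset ?_ (fun x hx => ⟨hx.1.le, hx.2.le⟩)
  have h : Eq' w = {y : X | ‖y‖ = 1} ∩ {y : X | ‖y - w‖ = 1} := rfl
  rw [h]
  exact (isClosed_eq continuous_norm continuous_const).inter
    (isClosed_eq (continuous_norm.comp (continuous_id.sub continuous_const)) continuous_const)

/-- The factorisation of the equator over the frontier of the projected lens. -/
theorem eq_factor {w : X} (h2 : ‖w‖ < 2) :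
    haveI : IsClosed ((ℝ ∙ w : Submodule ℝ X) : Set X) := Submodule.closed_of_finiteDimensional _
    (ℝ ∙ w).mkQ '' Eq' w = frontier ((ℝ ∙ w).mkQ '' Lens w) ∧
      ∀ y ∈ frontier ((ℝ ∙ w).mkQ '' Lens w),
        Eq' w ∩ (ℝ ∙ w).mkQ ⁻¹' {y} = CLens w ∩ (ℝ ∙ w).mkQ ⁻¹' {y} := by
  haveI : IsClosed ((ℝ ∙ w : Submodule ℝ X) : Set X) := Submodule.closed_of_finiteDimensional _
  set S : Submodule ℝ X := ℝ ∙ w with hS
  set π := S.mkQ with hπ
  set A : Set (X ⧸ S) := π '' Lens w with hA
  have hAopen : IsOpen A := S.isOpenMap_mkQ _ (isOpen_lens w)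
  have hshift : ∀ x : X, ∀ s : ℝ, π (x + s • w) = π x := by
    intro x s
    simp only [hπ, map_add, map_smul]
    have : S.mkQ w = 0 := by
      rw [Submodule.mkQ_apply, Submodule.Quotient.mk_eq_zero]
      exact Submodule.mem_span_singleton_self w
    rw [this, smul_zero, add_zero]
  have hE1 : ∀ x ∈ CLens w, π x ∉ A → x ∈ Eq' w := by
    intro x hx hxA
    by_contra hne
    have : ∃ s : ℝ, x + s • w ∈ Lens w := by
      by_cases h1 : ‖x‖ < 1
      · exact shift_up h1 hx.2
      · have h3 : ‖x‖ = 1 := le_antisymm hx.1 (not_lt.mp h1)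
        have h4 : ‖x - w‖ ≠ 1 := fun h => hne ⟨h3, h⟩
        exact shift_down hx.1 (lt_of_le_of_ne hx.2 h4)
    obtain ⟨s, hs⟩ := this
    exact hxA ⟨x + s • w, hs, hshift x s⟩
  have hE2 : ∀ x ∈ Eq' w, π x ∉ A := by
    rintro x hx ⟨y, hy, hxy⟩
    have h3 : y - x ∈ S := by
      rw [← Submodule.Quotient.eq]
      exact hxy
    obtain ⟨s, hs⟩ := Submodule.mem_span_singleton.mp h3
    have h4 : y = x + s • w := by rw [hs]; abel
    exact eq_not_shift hx s (h4 ▸ hy)
  have hclos : closure A = π '' CLens w := by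
    apply Subset.antisymm
    · apply closure_minimal
      · exact image_mono (fun y hy => ⟨hy.1.le, hy.2.le⟩)
      · exact ((isCompact_clens w).image S.continuous_mkQ).isClosed
    · refine (image_mono (clens_subset_closure h2)).trans ?_
      exact image_closure_subset_closure_image S.continuous_mkQ
  have hfr : frontier A = π '' CLens w \ A := by
    rw [hAopen.frontier_eq, hclos]
  refine ⟨?_, ?_⟩
  · rw [hfr]
    apply Subset.antisymm
    · rintro _ ⟨x, hx, rfl⟩
      exact ⟨⟨x, ⟨hx.1.le, hx.2.le⟩, rfl⟩, hE2 x hx⟩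
    · rintro y ⟨⟨x, hx, rfl⟩, hy⟩
      exact ⟨x, hE1 x hx hy, rfl⟩
  · intro y hy
    rw [hfr] at hy
    apply Subset.antisymm
    · rintro x ⟨hx, hxy⟩
      exact ⟨⟨hx.1.le, hx.2.le⟩, hxy⟩
    · rintro x ⟨hx, hxy⟩
      refine ⟨hE1 x hx ?_, hxy⟩
      have : π x = y := hxy
      rw [this]
      exact hy.2

/-- **Connectedness of the equator** for every norm. -/
theorem isConnected_eq (hdim : 3 ≤ Module.finrank ℝ X) {w : X} (h0 : w ≠ 0) (h2 : ‖w‖ < 2) :
    IsConnected (Eq' w) := by
  haveI : IsClosed ((ℝ ∙ w : Submodule ℝ X) : Set X) := Submodule.closed_of_finiteDimensional _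
  obtain ⟨h1, hfib⟩ := eq_factor h2
  set S : Submodule ℝ X := ℝ ∙ w with hS
  set π := S.mkQ with hπ
  set A : Set (X ⧸ S) := π '' Lens w with hA
  have hAopen : IsOpen A := S.isOpenMap_mkQ _ (isOpen_lens w)
  have hAconv : Convex ℝ A := (convex_lens w).linear_image π
  have hAne : A.Nonempty := ⟨_, _, half_mem_lens h2, rfl⟩
  have hAbdd : Bornology.IsBounded A := by
    rw [isBounded_iff_forall_norm_le]
    refine ⟨1, ?_⟩
    rintro _ ⟨y, hy, rfl⟩
    exact (Submodule.Quotient.norm_mk_le S y).trans hy.1.le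
  have hrank : 1 < Module.rank ℝ (X ⧸ S) := by
    have h3 := Submodule.finrank_quotient_add_finrank S
    have h4 : Module.finrank ℝ S = 1 := finrank_span_singleton h0
    have h5 : 1 < Module.finrank ℝ (X ⧸ S) := by omega
    rw [← Module.finrank_eq_rank]
    exact_mod_cast h5
  have hconn := isConnected_frontier hrank hAconv (by rwa [hAopen.interior_eq]) hAbdd
  rw [← h1] at hconn
  have hne : (Eq' w).Nonempty := by
    obtain ⟨_, x, hx, rfl⟩ := hconn.nonempty
    exact ⟨x, hx⟩
  refine ⟨hne, ?_⟩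
  refine isPreconnected_of_fibres (isCompact_eq w) S.continuous_mkQ.continuousOn
    hconn.isPreconnected ?_
  intro y hy
  rw [hfib y (h1 ▸ hy)]
  refine Convex.isPreconnected ?_
  refine (convex_clens w).inter ?_
  have : (π ⁻¹' {y} : Set X) = π ⁻¹' {y} := rfl
  exact (convex_singleton y).linear_preimage π

end Main

end Vale.Agent.Lib.P084.NS
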