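import Vale.Agent.Lib.P084.NS.QBU
import Vale.Agent.Lib.P084.NS.Conn
import Vale.Agent.Lib.P084.UC.APlus

/-! For every norm in dimension at least four: from oddness, additivity on unit triples and affinity
on segments of the sphere, the function `s ↦ f s + f (w - s)` is constant on `Ew w` for `0 < ‖w‖ < 2`. -/

namespace Vale.Agent.Lib.P084.NS

open Metric Set Filter Topology
open Vale.Agent.Lib.P084.Dim4

variable {X Y : Type*} [NormedAddCommGroup X] [NormedSpace ℝ X] [NormedAddCommGroup Y]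
  [NormedSpace ℝ Y]

/-- The whole chord through a fibre lies in the sphere. -/
lemma chord_unit {w t s : X} (ht : t ∈ Ew w) (hs : s ∈ Ew w) {a : ℝ} (ha : 0 < a)
    (h : s - t = a • w) {r : ℝ} (hr1 : -1 ≤ r) (hr2 : r ≤ a) : ‖t + r • w‖ = 1 := by
  have hs' : s = t + a • w := by rw [← h]; abel
  have ha1 : 0 < a + 1 := by linarith
  have hupper : ‖t + r • w‖ ≤ 1 := by
    set l : ℝ := (a - r) / (a + 1) with hl
    have hl0 : 0 ≤ l := div_nonneg (by linarith) ha1.le
    have hl1 : l ≤ 1 := by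
      rw [hl, div_le_one ha1]
      linarith
    have h3 : l + r - (1 - l) * a = 0 := by
      rw [hl]
      field_simp
      ring
    have := comb_le (a := t - w) (b := s) ht.2.le hs.1.le hl0 hl1
    have e : l • (t - w) + (1 - l) • s = t + r • w := by
      have e1 : l • (t - w) + (1 - l) • s = t + r • w - (l + r - (1 - l) * a) • w := by
        rw [hs']
        module
      rw [e1, h3]
      simp
    rwa [e] at this
  by_contra hne
  have hlt : ‖t + r • w‖ < 1 := lt_of_le_of_ne hupper hne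
  by_cases hr0 : 0 ≤ r
  · set l : ℝ := r / (1 + r) with hl
    have h1r : 0 < 1 + r := by linarith
    have hl0 : 0 ≤ l := div_nonneg hr0 h1r.le
    have hl1 : l < 1 := by
      rw [hl, div_lt_one h1r]
      linarith
    have h3 : (1 - l) * r - l = 0 := by
      rw [hl]
      field_simp
      ring
    have e : t = l • (t - w) + (1 - l) • (t + r • w) := by
      have : l • (t - w) + (1 - l) • (t + r • w) = t + ((1 - l) * r - l) • w := by
        module
      rw [this, h3]
      simp
    have := comb_lt ht.2.le hlt hl0 hl1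
    rw [← e, ht.1] at this
    exact lt_irrefl _ this
  · have hr : r < 0 := not_le.1 hr0
    set l : ℝ := -r / (a - r) with hl
    have h1r : 0 < a - r := by linarith
    have hl0 : 0 ≤ l := div_nonneg (by linarith) h1r.le
    have hl1 : l < 1 := by
      rw [hl, div_lt_one h1r]
      linarith
    have h3 : l * a + (1 - l) * r = 0 := by
      rw [hl]
      field_simp
      ring
    have e : t = l • s + (1 - l) • (t + r • w) := by
      have : l • s + (1 - l) • (t + r • w) = t + (l * a + (1 - l) * r) • w := by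
        rw [hs']
        module
      rw [this, h3]
      simp
    have := comb_lt hs.1.le hlt hl0 hl1
    rw [← e, ht.1] at this
    exact lt_irrefl _ this

/-- `s ↦ f s + f (w - s)` is constant on the fibres, first for a positive parameter. -/
lemma fib_aux {f : X → Y} (hodd : ∀ x : X, ‖x‖ = 1 → f (-x) = - f x)
    (haff : ∀ a b : X, (∀ t ∈ Set.Icc (0 : ℝ) 1, ‖a + t • (b - a)‖ = 1) →
      ∀ t ∈ Set.Icc (0 : ℝ) 1, f (a + t • (b - a)) = f a + t • (f b - f a))
    {w s t : X} (hs : s ∈ Ew w) (ht : t ∈ Ew w) {a : ℝ} (ha : 0 < a) (h : s - t = a • w) :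
    f s + f (w - s) = f t + f (w - t) := by
  have hs' : s = t + a • w := by rw [← h]; abel
  have ha1 : 0 < a + 1 := by linarith
  have hne : a + 1 ≠ 0 := ha1.ne'
  have hbase : ∀ l : ℝ, (t - w) + l • (s - (t - w)) = t + (l * (a + 1) - 1) • w := by
    intro l
    rw [hs']
    module
  have hseg : ∀ l ∈ Set.Icc (0 : ℝ) 1, ‖(t - w) + l • (s - (t - w))‖ = 1 := by
    intro l hl
    rw [hbase]
    apply chord_unit ht hs ha h
    · nlinarith [hl.1]
    · nlinarith [hl.2]
  have hA := haff (t - w) s hseg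
  -- the values at the two inner points
  have h1 := hA (1 / (a + 1)) ⟨by positivity, by
    rw [div_le_one ha1]
    linarith⟩
  have h2 := hA (a / (a + 1)) ⟨by positivity, by
    rw [div_le_one ha1]
    linarith⟩
  have e1 : (t - w) + (1 / (a + 1)) • (s - (t - w)) = t := by
    rw [hbase]
    have : 1 / (a + 1) * (a + 1) - 1 = 0 := by
      field_simp
      ring
    rw [this]
    simp
  have e2 : (t - w) + (a / (a + 1)) • (s - (t - w)) = s - w := by
    rw [hbase, hs']
    have : a / (a + 1) * (a + 1) - 1 = a - 1 := by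
      field_simp
    rw [this]
    module
  rw [e1] at h1
  rw [e2] at h2
  have o1 : f (w - s) = - f (s - w) := by
    have := hodd (s - w) hs.2
    rwa [neg_sub] at this
  have o2 : f (w - t) = - f (t - w) := by
    have := hodd (t - w) ht.2
    rwa [neg_sub] at this
  rw [o1, o2, h1, h2]
  have e3 : (1 : ℝ) / (a + 1) + a / (a + 1) = 1 := by
    field_simp
    ring
  have e4 : f s - f (t - w) = ((1 : ℝ) / (a + 1) + a / (a + 1)) • (f s - f (t - w)) := by
    rw [e3, one_smul]
  have e5 := e4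
  rw [add_smul] at e5
  have : f s = f (t - w) + (1 / (a + 1)) • (f s - f (t - w)) + (a / (a + 1)) • (f s - f (t - w)) := by
    have e6 : f s = f (t - w) + (f s - f (t - w)) := by abel
    calc f s = f (t - w) + (f s - f (t - w)) := e6
      _ = _ := by rw [add_assoc, ← e5]
  generalize (1 / (a + 1)) • (f s - f (t - w)) = A at this ⊢
  generalize (a / (a + 1)) • (f s - f (t - w)) = B at this ⊢
  rw [this]
  abel

/-- `s ↦ f s + f (w - s)` is constant on the fibres. -/
lemma fib_const {f : X → Y} (hodd : ∀ x : X, ‖x‖ = 1 → f (-x) = - f x)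
    (haff : ∀ a b : X, (∀ t ∈ Set.Icc (0 : ℝ) 1, ‖a + t • (b - a)‖ = 1) →
      ∀ t ∈ Set.Icc (0 : ℝ) 1, f (a + t • (b - a)) = f a + t • (f b - f a))
    {w s t : X} (hw : w ≠ 0) (hs : s ∈ Ew w) (ht : t ∈ Ew w) {a : ℝ} (h : s - t = a • w) :
    f s + f (w - s) = f t + f (w - t) := by
  rcases lt_trichotomy a 0 with ha | ha | ha
  · have h' : t - s = (-a) • w := by
      rw [neg_smul, ← h]; abel
    exact (fib_aux hodd haff ht hs (by linarith) h').symm
  · rw [ha, zero_smul] at h
    rw [sub_eq_zero.1 h]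
  · exact fib_aux hodd haff hs ht ha h

/-- The relation at unit distance. -/
lemma rel_unit_ns {f : X → Y}
    (hadd : ∀ x y : X, ‖x‖ = 1 → ‖y‖ = 1 → ‖x + y‖ = 1 → f (x + y) = f x + f y)
    {w s t : X} (hs : s ∈ Ew w) (ht : t ∈ Ew w) (hst : ‖s - t‖ = 1) :
    f s + f (w - s) = f t + f (w - t) := by
  have e1 : t + (s - t) = s := by abel
  have e2 : w - s + (s - t) = w - t := by abel
  have h1 := hadd _ _ ht.1 hst (by rw [e1]; exact hs.1)
  have h2 := hadd _ _ (Ew_rho hs).1 hst (by rw [e2]; exact (Ew_rho ht).1)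
  rw [e1] at h1
  rw [e2] at h2
  rw [h1, h2]
  abel

/-- Constancy for `0 < ‖w‖ < 1`, for every norm, in dimension at least four. -/
theorem K_const_small_ns [FiniteDimensional ℝ X] (hdim : 4 ≤ Module.finrank ℝ X) {f : X → Y}
    (hf : UC.IsSphereIso f) (hodd : ∀ x : X, ‖x‖ = 1 → f (-x) = - f x)
    (haff : ∀ a b : X, (∀ t ∈ Set.Icc (0 : ℝ) 1, ‖a + t • (b - a)‖ = 1) →
      ∀ t ∈ Set.Icc (0 : ℝ) 1, f (a + t • (b - a)) = f a + t • (f b - f a))
    (hadd : ∀ x y : X, ‖x‖ = 1 → ‖y‖ = 1 → ‖x + y‖ = 1 → f (x + y) = f x + f y)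
    {w : X} (hw : w ≠ 0) (hw1 : ‖w‖ < 1) {s t : X} (hs : s ∈ Ew w) (ht : t ∈ Ew w) :
    f s + f (w - s) = f t + f (w - t) := by
  by_contra hne
  obtain ⟨l, -, hl⟩ := exists_dual_vector'' ℝ (f s + f (w - s) - (f t + f (w - t)))
  have hgc : ContinuousOn f {a | ‖a‖ = 1} := by
    rw [Metric.continuousOn_iff]
    intro a ha ε hε
    refine ⟨ε, hε, fun b hb hab => ?_⟩
    rw [dist_eq_norm, hf.iso b a hb ha, ← dist_eq_norm]
    exact hab
  have hcont : ContinuousOn (fun x => l (f x + f (w - x))) (Ew w) :=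
    l.continuous.comp_continuousOn ((hgc.mono fun a ha => ha.1).add
      (hgc.comp (continuous_const.sub continuous_id).continuousOn fun a ha => (Ew_rho ha).1))
  have heq := even_rel_const_ns hdim hw hw1 hcont
    (fun x _ => by
      show l (f (w - x) + f (w - (w - x))) = l (f x + f (w - x))
      rw [sub_sub_cancel, add_comm])
    (fun a ha b hb hab => by
      show l (f a + f (w - a)) = l (f b + f (w - b))
      rw [rel_unit_ns hadd ha hb hab])
    (fun a ha b hb ⟨c, hc⟩ => by
      show l (f a + f (w - a)) = l (f b + f (w - b))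
      rw [fib_const hodd haff hw ha hb hc])
    s hs t ht
  have h0 : f s + f (w - s) - (f t + f (w - t)) ≠ 0 := sub_ne_zero.2 hne
  have h1 : l (f s + f (w - s) - (f t + f (w - t))) = 0 := by
    rw [map_sub]
    exact sub_eq_zero.2 heq
  rw [hl] at h1
  exact h0 (by exact_mod_cast norm_eq_zero.1 (by exact_mod_cast h1))

/-- Stage B: from small `w` to every `w` with `0 < ‖w‖ < 2`, through connectedness. -/
theorem K_const_of_small [FiniteDimensional ℝ X] (hdim : 3 ≤ Module.finrank ℝ X) {f : X → Y}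
    (hodd : ∀ x : X, ‖x‖ = 1 → f (-x) = - f x)
    (hK : ∀ u : X, u ≠ 0 → ‖u‖ < 1 → ∀ s ∈ Ew u, ∀ t ∈ Ew u, f s + f (u - s) = f t + f (u - t))
    {w : X} (hw : w ≠ 0) (hw2 : ‖w‖ < 2) {s t : X} (hs : s ∈ Ew w) (ht : t ∈ Ew w) :
    f s + f (w - s) = f t + f (w - t) := by
  have hnear : ∀ a ∈ Ew w, ∀ b ∈ Ew w, ‖a - b‖ < 1 → f a + f (w - a) = f b + f (w - b) := by
    intro a ha b hb hab
    by_cases hu : a - b = 0
    · rw [sub_eq_zero.1 hu]
    · have h1 : a ∈ Ew (a - b) := by
        refine ⟨ha.1, ?_⟩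
        have : a - (a - b) = b := by abel
        rw [this]
        exact hb.1
      have h2 : w - b ∈ Ew (a - b) := by
        refine ⟨(Ew_rho hb).1, ?_⟩
        have : w - b - (a - b) = w - a := by abel
        rw [this]
        exact (Ew_rho ha).1
      have h3 := hK (a - b) hu hab a h1 (w - b) h2
      have e1 : a - b - a = -b := by abel
      have e2 : a - b - (w - b) = -(w - a) := by abel
      rw [e1, e2, hodd b hb.1, hodd (w - a) (Ew_rho ha).1] at h3
      have h4 : f a + f (w - a) - (f b + f (w - b)) = (f a + -f b) - (f (w - b) + -f (w - a)) := by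
        abel
      rw [← sub_eq_zero, h4, h3, sub_self]
  by_contra hne
  have hconn : IsPreconnected (Ew w) := (isConnected_eq hdim hw hw2).isPreconnected
  set g : X → Y := fun a => f a + f (w - a) with hg
  set U : Set X := ⋃ a ∈ {a | a ∈ Ew w ∧ g a = g s}, ball a 1 with hU
  set V : Set X := ⋃ a ∈ {a | a ∈ Ew w ∧ g a ≠ g s}, ball a 1 with hV
  have hUo : IsOpen U := isOpen_biUnion fun _ _ => isOpen_ball
  have hVo : IsOpen V := isOpen_biUnion fun _ _ => isOpen_ball
  have hcov : Ew w ⊆ U ∪ V := by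
    intro x hx
    by_cases hgx : g x = g s
    · exact Or.inl (mem_biUnion (x := x) ⟨hx, hgx⟩ (mem_ball_self one_pos))
    · exact Or.inr (mem_biUnion (x := x) ⟨hx, hgx⟩ (mem_ball_self one_pos))
  have hsU : (Ew w ∩ U).Nonempty :=
    ⟨s, hs, mem_biUnion (x := s) ⟨hs, rfl⟩ (mem_ball_self one_pos)⟩
  have htV : (Ew w ∩ V).Nonempty :=
    ⟨t, ht, mem_biUnion (x := t) ⟨ht, fun h => hne h.symm⟩ (mem_ball_self one_pos)⟩
  obtain ⟨x, hx, hxU, hxV⟩ := hconn U V hUo hVo hcov hsU htV
  simp only [hU, hV, mem_iUnion, mem_ball, dist_eq_norm, exists_prop] at hxU hxV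
  obtain ⟨a, ⟨ha, hga⟩, hxa⟩ := hxU
  obtain ⟨b, ⟨hb, hgb⟩, hxb⟩ := hxV
  have h1 : g x = g a := hnear x hx a ha hxa
  have h2 : g x = g b := hnear x hx b hb hxb
  exact hgb (by rw [← h2, h1, hga])

/-- Constancy for `0 < ‖w‖ < 2`, for every norm, in dimension at least four. -/
theorem K_const_ns [FiniteDimensional ℝ X] (hdim : 4 ≤ Module.finrank ℝ X) {f : X → Y}
    (hf : UC.IsSphereIso f) (hodd : ∀ x : X, ‖x‖ = 1 → f (-x) = - f x)
    (haff : ∀ a b : X, (∀ t ∈ Set.Icc (0 : ℝ) 1, ‖a + t • (b - a)‖ = 1) →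
      ∀ t ∈ Set.Icc (0 : ℝ) 1, f (a + t • (b - a)) = f a + t • (f b - f a))
    (hadd : ∀ x y : X, ‖x‖ = 1 → ‖y‖ = 1 → ‖x + y‖ = 1 → f (x + y) = f x + f y)
    {w : X} (hw : w ≠ 0) (hw2 : ‖w‖ < 2) {s t : X} (hs : s ∈ Ew w) (ht : t ∈ Ew w) :
    f s + f (w - s) = f t + f (w - t) :=
  K_const_of_small (by omega) hodd
    (fun _ hu hu1 _ ha _ hb => K_const_small_ns hdim hf hodd haff hadd hu hu1 ha hb) hw hw2 hs ht

end Vale.Agent.Lib.P084.NS
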