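/-
Assembly of the non-strict line: every finite-dimensional real normed space of dimension at least
four, no convexity assumption.  Inputs still explicit here: oddness of `f` and affinity of `f` on
segments of the sphere (modules `Odd`, `Mank`).
-/
import Vale.Agent.Lib.P084.NS.Additive
import Vale.Agent.Lib.P084.NS.KConst
import Vale.Agent.Lib.P084.NS.FinalStep

namespace Vale.Agent.Lib.P084.NS

open Vale.Agent.Lib.P084.UC
open Vale.Agent.Lib.P084.Dim4 (Ew)

variable {X Y : Type*} [NormedAddCommGroup X] [NormedSpace ℝ X] [NormedAddCommGroup Y]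
  [NormedSpace ℝ Y]

/-- Dimension at least four, any norm: an odd surjective isometry of unit spheres that is affine on
every segment of the sphere is the restriction of a linear isometry. -/
theorem linear_of_odd_affine [FiniteDimensional ℝ X] (hdim : 4 ≤ Module.finrank ℝ X) {f : X → Y}
    (hf : IsSphereIso f) (hodd : ∀ x : X, ‖x‖ = 1 → f (-x) = - f x)
    (haff : ∀ a b : X, (∀ t ∈ Set.Icc (0 : ℝ) 1, ‖a + t • (b - a)‖ = 1) →
      ∀ t ∈ Set.Icc (0 : ℝ) 1, f (a + t • (b - a)) = f a + t • (f b - f a)) :
    ∃ T : X ≃ₗᵢ[ℝ] Y, ∀ x, ‖x‖ = 1 → T x = f x := by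
  have hadd := additive_of_odd_affine hf hodd haff
  have hH : FinalHyp f :=
    { hf := hf
      hodd := hodd
      hconn := fun w hw hw2 => by
        have := isConnected_eq (X := X) (by omega) hw hw2
        exact ⟨this.nonempty, this.isPreconnected⟩
      hK := fun w hw hw1 s hs t ht => K_const_small_ns hdim hf hodd haff hadd hw hw1 hs ht }
  exact hH.exists_linearIsometryEquiv (by omega)

end Vale.Agent.Lib.P084.NS
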