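/-
Tingley's problem for every finite-dimensional real normed space of dimension at least four.
No strict convexity, no smoothness; the target is an arbitrary real normed space.
-/
import Vale.Agent.Lib.P084.NS.Wrap
import Vale.Agent.Lib.P084.NS.Faces

namespace Vale.Agent.Lib.P084.NS

open Vale.Agent.Lib.P084.UC
open Metric

variable {X Y : Type*} [NormedAddCommGroup X] [NormedSpace ℝ X] [NormedAddCommGroup Y]
  [NormedSpace ℝ Y]

/-- A normed space whose unit sphere is compact and nonempty is finite-dimensional. -/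
theorem finiteDimensional_of_compact_sphere (hc : IsCompact (sphere (0 : Y) 1)) :
    FiniteDimensional ℝ Y := by
  by_cases hn : Nontrivial Y
  · -- the closed ball is the image of `[0,1] × sphere`
    have himg : closedBall (0 : Y) 1 =
        (fun p : ℝ × Y => p.1 • p.2) '' (Set.Icc (0 : ℝ) 1 ×ˢ sphere (0 : Y) 1) := by
      ext y
      constructor
      · intro hy
        have hy1 : ‖y‖ ≤ 1 := by simpa using hy
        by_cases h0 : y = 0
        · obtain ⟨v, hv⟩ := (NormedSpace.sphere_nonempty (E := Y) (x := 0) (r := 1)).2 zero_le_one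
          exact ⟨(0, v), ⟨⟨le_rfl, zero_le_one⟩, hv⟩, by simp [h0]⟩
        · have hn0 : ‖y‖ ≠ 0 := norm_ne_zero_iff.2 h0
          refine ⟨(‖y‖, ‖y‖⁻¹ • y), ⟨⟨norm_nonneg _, hy1⟩, ?_⟩, ?_⟩
          · simp [norm_smul, hn0]
          · simp [smul_smul, hn0]
      · rintro ⟨⟨t, v⟩, ⟨ht, hv⟩, rfl⟩
        have hv1 : ‖v‖ = 1 := by simpa using hv
        have ht0 : 0 ≤ t := ht.1
        simp only [mem_closedBall_zero_iff, norm_smul, hv1, mul_one, Real.norm_of_nonneg ht0]
        exact ht.2
    have hcomp : IsCompact (closedBall (0 : Y) 1) := by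
      rw [himg]
      exact (isCompact_Icc.prod hc).image (by fun_prop)
    exact FiniteDimensional.of_isCompact_closedBall₀ ℝ zero_lt_one hcomp
  · have hs : Subsingleton Y := not_nontrivial_iff_subsingleton.1 hn
    exact Module.Finite.of_finite

/-- The main theorem for ambient maps. -/
theorem exists_linear_of_isSphereIso [FiniteDimensional ℝ X] (hdim : 4 ≤ Module.finrank ℝ X)
    {f : X → Y} (hf : IsSphereIso f) : ∃ T : X ≃ₗᵢ[ℝ] Y, ∀ x, ‖x‖ = 1 → T x = f x := by
  have hcX : IsCompact (sphere (0 : X) 1) := isCompact_sphere 0 1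
  have hcont : ContinuousOn f (sphere (0 : X) 1) := by
    rw [Metric.continuousOn_iff]
    intro a ha ε hε
    refine ⟨ε, hε, fun b hb hab => ?_⟩
    have ha1 : ‖a‖ = 1 := by simpa using ha
    have hb1 : ‖b‖ = 1 := by simpa using hb
    rw [dist_eq_norm] at hab ⊢
    rwa [hf.iso b a hb1 ha1]
  have himg : sphere (0 : Y) 1 = f '' sphere (0 : X) 1 := by
    ext z
    constructor
    · intro hz
      obtain ⟨x, hx, hxz⟩ := hf.surj z (by simpa using hz)
      exact ⟨x, by simpa using hx, hxz⟩
    · rintro ⟨x, hx, rfl⟩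
      have hx1 : ‖x‖ = 1 := by simpa using hx
      simpa using hf.norm_eq x hx1
  have hcY : IsCompact (sphere (0 : Y) 1) := by
    rw [himg]; exact hcX.image_of_continuousOn hcont
  have hFD : FiniteDimensional ℝ Y := finiteDimensional_of_compact_sphere hcY
  refine linear_of_odd_affine hdim hf (fun x hx => sphereIso_odd hf hx) ?_
  intro a b hseg t ht
  have ha : ‖a‖ = 1 := by
    have := hseg 0 ⟨le_rfl, zero_le_one⟩
    simpa using this
  have hb : ‖b‖ = 1 := by
    have := hseg 1 ⟨zero_le_one, le_rfl⟩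
    simpa using this
  have hrew : ∀ s : ℝ, (1 - s) • a + s • b = a + s • (b - a) := fun s => by module
  have h1 := segAff hf a b ha hb (fun s hs => by rw [hrew]; exact hseg s hs) t ht
  rw [hrew] at h1
  rw [h1]
  module

/-- The main theorem for maps of the unit spheres. -/
theorem sphere_isometry_findim [FiniteDimensional ℝ X] (hdim : 4 ≤ Module.finrank ℝ X)
    (f : sphere (0 : X) 1 → sphere (0 : Y) 1) (hf : Isometry f) (hs : Function.Surjective f) :
    ∃ T : X ≃ₗᵢ[ℝ] Y, ∀ x : sphere (0 : X) 1, T (x : X) = (f x : Y) := by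
  classical
  have hmemX : ∀ a : X, ‖a‖ = 1 → a ∈ sphere (0 : X) 1 := fun a ha => by simpa using ha
  have hmemY : ∀ y : Y, ‖y‖ = 1 → y ∈ sphere (0 : Y) 1 := fun y hy => by simpa using hy
  have hnormX : ∀ a : sphere (0 : X) 1, ‖(a : X)‖ = 1 := fun a => by simpa using a.2
  have hnormY : ∀ y : sphere (0 : Y) 1, ‖(y : Y)‖ = 1 := fun y => by simpa using y.2
  set g : X → Y := fun a => if h : ‖a‖ = 1 then (f ⟨a, hmemX a h⟩ : Y) else 0 with hg
  have hgv : ∀ a (h : ‖a‖ = 1), g a = f ⟨a, hmemX a h⟩ := fun a h => by simp [hg, h]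
  have hfdist : ∀ a b : sphere (0 : X) 1, ‖(f a : Y) - f b‖ = ‖(a : X) - b‖ := by
    intro a b
    have := hf.dist_eq a b
    simpa [Subtype.dist_eq, dist_eq_norm] using this
  have hG : IsSphereIso g := by
    refine ⟨fun a ha => ?_, fun a b ha hb => ?_, fun y hy => ?_⟩
    · rw [hgv a ha]; exact hnormY _
    · rw [hgv a ha, hgv b hb, hfdist]
    · obtain ⟨a, ha⟩ := hs ⟨y, hmemY y hy⟩
      refine ⟨a, hnormX a, ?_⟩
      rw [hgv a (hnormX a)]
      simp [ha]
  obtain ⟨T, hT⟩ := exists_linear_of_isSphereIso hdim hG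
  refine ⟨T, fun x => ?_⟩
  rw [hT x (hnormX x), hgv x (hnormX x)]

end Vale.Agent.Lib.P084.NS
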