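/-
From the constancy of `f s + f (w - s)` on `Ew w` to the linear extension, with no convexity
assumption on the norm (helper53): crossing points, a local Pexider equation, local affinity of the
difference map `G`, and connectedness of the punctured ball.
-/
import Mathlib
import Vale.Agent.Lib.P084.UC.APlus
import Vale.Agent.Lib.P084.Dim4.Lens

set_option linter.unusedSectionVars false

namespace Vale.Agent.Lib.P084.NS

open Metric Set Filter Topology
open Vale.Agent.Lib.P084.UC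
open Vale.Agent.Lib.P084.Dim4 (Ew Ew_rho)

variable {X Y : Type*} [NormedAddCommGroup X] [NormedSpace ℝ X] [NormedAddCommGroup Y]
  [NormedSpace ℝ Y]

/-- The standing hypotheses of the final step. -/
structure FinalCtx (f : X → Y) : Prop where
  hf : IsSphereIso f
  hodd : ∀ x : X, ‖x‖ = 1 → f (-x) = - f x
  hK : ∀ w : X, w ≠ 0 → ‖w‖ < 2 → ∀ s t : X, s ∈ Ew w → t ∈ Ew w →
    f s + f (w - s) = f t + f (w - t)
  hconn : ∀ w : X, w ≠ 0 → ‖w‖ < 2 → IsPreconnected (Ew w)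
  hreg : ∀ x : X, ‖x‖ = 1 → ∀ ε > 0, ∃ y : X, ∃ ψ : X →L[ℝ] ℝ, ‖y‖ = 1 ∧ ‖y - x‖ < ε ∧
    (∀ v, ψ v ≤ ‖v‖) ∧ ψ y = 1 ∧ ∀ z : X, ‖z‖ = 1 → ‖y + z‖ = 2 → ψ z = 1
  hrank : 1 < Module.rank ℝ X

variable {f : X → Y}

lemma FinalCtx.sphere_conn (C : FinalCtx f) : IsConnected (sphere (0 : X) 1) :=
  isConnected_sphere C.hrank 0 zero_le_one

lemma mem_sphere_of_norm {x : X} (hx : ‖x‖ = 1) : x ∈ sphere (0 : X) 1 := by simp [hx]

lemma FinalCtx.nontrivial (C : FinalCtx f) : Nontrivial X := by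
  have h := C.hrank
  by_contra hn
  rw [not_nontrivial_iff_subsingleton] at hn
  have : Module.rank ℝ X = 0 := by
    exact rank_subsingleton' ℝ X
  rw [this] at h
  exact absurd h (by simp)

/-- `Ew w` is never empty for `‖w‖ < 2`. -/
lemma FinalCtx.Ew_nonempty (C : FinalCtx f) {w : X} (hw2 : ‖w‖ < 2) : (Ew w).Nonempty := by
  have := C.nontrivial
  by_cases hw : w = 0
  · subst hw
    obtain ⟨x, hx⟩ := (NormedSpace.sphere_nonempty (x := (0 : X)) (r := 1)).2 zero_le_one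
    have hx1 : ‖x‖ = 1 := by simpa using hx
    exact ⟨x, hx1, by simpa using hx1⟩
  · have hn : 0 < ‖w‖ := norm_pos_iff.2 hw
    set u : X := ‖w‖⁻¹ • w with hu
    have hu1 : ‖u‖ = 1 := by
      rw [hu, norm_smul, norm_inv, norm_norm, inv_mul_cancel₀ hn.ne']
    have h1 : ‖u - w‖ ≤ 1 := by
      have e : u - w = (‖w‖⁻¹ - 1) • w := by rw [hu, sub_smul, one_smul]
      rw [e, norm_smul, Real.norm_eq_abs]
      have h2 : |‖w‖⁻¹ - 1| * ‖w‖ = |1 - ‖w‖| := by
        have : |‖w‖⁻¹ - 1| * ‖w‖ = |‖w‖⁻¹ - 1| * |‖w‖| := by rw [abs_of_pos hn]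
        rw [this, ← abs_mul, sub_mul, inv_mul_cancel₀ hn.ne', one_mul]
      rw [h2, abs_le]
      constructor <;> linarith
    have h3 : 1 ≤ ‖-u - w‖ := by
      have e : -u - w = -((‖w‖⁻¹ + 1) • w) := by rw [hu, add_smul, one_smul]; abel
      rw [e, norm_neg, norm_smul, Real.norm_of_nonneg (by positivity), add_mul,
        inv_mul_cancel₀ hn.ne']
      linarith
    obtain ⟨x, hx, hx1⟩ := C.sphere_conn.isPreconnected.intermediate_value
      (mem_sphere_of_norm hu1) (mem_sphere_of_norm (by rw [norm_neg]; exact hu1))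
      (f := fun x => ‖x - w‖) (by fun_prop) (show (1 : ℝ) ∈ Icc _ _ from ⟨h1, h3⟩)
    exact ⟨x, by simpa using hx, hx1⟩

open Classical in
/-- The difference map. -/
noncomputable def G (f : X → Y) (w : X) : Y :=
  if h : (Ew w).Nonempty then f h.some + f (w - h.some) else 0

lemma FinalCtx.sum_zero (C : FinalCtx f) {x : X} (hx : ‖x‖ = 1) : f x + f (0 - x) = 0 := by
  rw [zero_sub, C.hodd x hx]; abel

lemma FinalCtx.G_eq (C : FinalCtx f) {w x : X} (hw2 : ‖w‖ < 2) (hx : x ∈ Ew w) :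
    G f w = f x + f (w - x) := by
  have hne : (Ew w).Nonempty := ⟨x, hx⟩
  rw [G, dif_pos hne]
  by_cases hw : w = 0
  · subst hw
    rw [C.sum_zero hne.some_mem.1, C.sum_zero hx.1]
  · exact C.hK w hw hw2 _ _ hne.some_mem hx

lemma FinalCtx.G_sub (C : FinalCtx f) {p q : X} (hp : ‖p‖ = 1) (hq : ‖q‖ = 1) (h : ‖p - q‖ < 2) :
    G f (p - q) = f p - f q := by
  have hx : p ∈ Ew (p - q) := ⟨hp, by rw [sub_sub_cancel]; exact hq⟩
  rw [C.G_eq h hx]
  have e : p - q - p = -q := by abel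
  rw [e, C.hodd q hq, sub_eq_add_neg]

lemma FinalCtx.G_norm (C : FinalCtx f) {w : X} (hw2 : ‖w‖ < 2) : ‖G f w‖ = ‖w‖ := by
  obtain ⟨x, hx⟩ := C.Ew_nonempty hw2
  have e : w = x - (x - w) := by abel
  have h1 : ‖x - (x - w)‖ < 2 := by rw [← e]; exact hw2
  have h2 := C.G_sub hx.1 hx.2 h1
  rw [← e] at h2
  rw [h2, C.hf.iso _ _ hx.1 hx.2, ← e]

lemma FinalCtx.G_neg (C : FinalCtx f) {w : X} (hw2 : ‖w‖ < 2) : G f (-w) = - G f w := by
  obtain ⟨x, hx⟩ := C.Ew_nonempty hw2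
  have e : w = x - (x - w) := by abel
  have e' : -w = (x - w) - x := by abel
  have h1 : ‖x - (x - w)‖ < 2 := by rw [← e]; exact hw2
  have h1' : ‖(x - w) - x‖ < 2 := by rw [← e', norm_neg]; exact hw2
  have h2 := C.G_sub hx.1 hx.2 h1
  have h3 := C.G_sub hx.2 hx.1 h1'
  rw [← e] at h2
  rw [← e'] at h3
  rw [h2, h3]
  abel

/-- The triangle relation. -/
lemma FinalCtx.tri_rel (C : FinalCtx f) {z w u : X} (hz : ‖z‖ = 1) (hzu : ‖z - u‖ = 1)
    (hzw : ‖z - w‖ = 1) (hu : ‖u‖ < 2) (hw : ‖w‖ < 2) (hwu : ‖w - u‖ < 2) :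
    G f w = G f u + G f (w - u) := by
  have e1 : w = z - (z - w) := by abel
  have e2 : u = z - (z - u) := by abel
  have e3 : w - u = (z - u) - (z - w) := by abel
  have h1 := C.G_sub hz hzw (by rw [← e1]; exact hw)
  have h2 := C.G_sub hz hzu (by rw [← e2]; exact hu)
  have h3 := C.G_sub hzu hzw (by rw [← e3]; exact hwu)
  rw [← e1] at h1
  rw [← e2] at h2
  rw [← e3] at h3
  rw [h1, h2, h3]
  abel

section Cross

variable {x1 y1 h : X}

lemma norm_plus_bounds (hx1 : ‖x1‖ = 1) (_hy1 : ‖y1‖ = 1) (h1 : ‖x1 + y1‖ < 2) (h2 : ‖x1 - y1‖ < 2)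
    {τ : ℝ} (hτ0 : 0 < τ) (hτ1 : τ ≤ 1) :
    1 - τ < ‖x1 + τ • y1‖ ∧ ‖x1 + τ • y1‖ < 1 + τ := by
  constructor
  · have e : (1 + τ) • x1 = (x1 + τ • y1) + τ • (x1 - y1) := by module
    have h3 : ‖(1 + τ) • x1‖ = 1 + τ := by
      rw [norm_smul, hx1, Real.norm_of_nonneg (by linarith), mul_one]
    have h4 : ‖(1 + τ) • x1‖ ≤ ‖x1 + τ • y1‖ + τ * ‖x1 - y1‖ := by
      rw [e]
      refine (norm_add_le _ _).trans ?_
      rw [norm_smul (τ : ℝ), Real.norm_of_nonneg hτ0.le]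
    nlinarith
  · have e : x1 + τ • y1 = (1 - τ) • x1 + τ • (x1 + y1) := by module
    rw [e]
    refine (norm_add_le _ _).trans_lt ?_
    rw [norm_smul, norm_smul, Real.norm_of_nonneg (by linarith), Real.norm_of_nonneg hτ0.le, hx1]
    nlinarith

/-- The inside point. -/
lemma inside_point (hx1 : ‖x1‖ = 1) (hy1 : ‖y1‖ = 1) (h1 : ‖x1 + y1‖ < 2) (h2 : ‖x1 - y1‖ < 2)
    {τ : ℝ} (hτ0 : 0 < τ) (hτ1 : τ ≤ 1 / 2) :
    ‖‖x1 + (-τ) • y1‖⁻¹ • (x1 + (-τ) • y1) - (x1 - y1)‖ < 1 := by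
  have hb := norm_plus_bounds (y1 := -y1) hx1 (by rw [norm_neg]; exact hy1)
    (by rw [← sub_eq_add_neg]; exact h2) (by rw [sub_neg_eq_add]; exact h1) hτ0 (by linarith)
  have e0 : x1 + τ • (-y1) = x1 + (-τ) • y1 := by module
  rw [e0] at hb
  set N := ‖x1 + (-τ) • y1‖ with hN
  have hN0 : 0 < N := by linarith [hb.1]
  have hτN : τ * N⁻¹ ≤ 1 := by
    rw [← div_eq_mul_inv, div_le_one hN0]
    linarith [hb.1]
  have e : N⁻¹ • (x1 + (-τ) • y1) - (x1 - y1) = (N⁻¹ - 1) • x1 + (1 - τ * N⁻¹) • y1 := by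
    module
  rw [e]
  refine (norm_add_le _ _).trans_lt ?_
  rw [norm_smul, norm_smul, hx1, hy1, mul_one, mul_one, Real.norm_eq_abs, Real.norm_eq_abs,
    abs_of_nonneg (by linarith : 0 ≤ 1 - τ * N⁻¹)]
  have hNN : N⁻¹ * N = 1 := inv_mul_cancel₀ hN0.ne'
  have hNi : 0 < N⁻¹ := inv_pos.2 hN0
  rcases le_total N 1 with hle | hle
  · have h3 : 1 ≤ N⁻¹ := (one_le_inv₀ hN0).2 hle
    rw [abs_of_nonneg (by linarith)]
    have h4 : (1 - τ) * N⁻¹ < 1 := by
      have : (1 - τ) * N⁻¹ < N * N⁻¹ := mul_lt_mul_of_pos_right hb.1 hNi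
      rw [mul_comm N, hNN] at this
      exact this
    nlinarith
  · have h3 : N⁻¹ ≤ 1 := inv_le_one_of_one_le₀ hle
    rw [abs_of_nonpos (by linarith)]
    have h4 : 1 < (1 + τ) * N⁻¹ := by
      have : N * N⁻¹ < (1 + τ) * N⁻¹ := mul_lt_mul_of_pos_right hb.2 hNi
      rw [mul_comm N, hNN] at this
      exact this
    nlinarith

/-- The outside point. -/
lemma outside_point (hx1 : ‖x1‖ = 1) (hy1 : ‖y1‖ = 1) (h1 : ‖x1 + y1‖ < 2) (h2 : ‖x1 - y1‖ < 2)
    {τ : ℝ} (hτ0 : 0 < τ) (hτ1 : τ ≤ 1 / 2) :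
    1 < ‖‖x1 + τ • y1‖⁻¹ • (x1 + τ • y1) - (x1 - y1)‖ := by
  have hb := norm_plus_bounds hx1 hy1 h1 h2 hτ0 (by linarith)
  set N := ‖x1 + τ • y1‖ with hN
  have hN0 : 0 < N := by linarith [hb.1]
  obtain ⟨μ, hμ1, hμ⟩ := exists_dual_vector'' ℝ y1
  have hμle : ∀ v, μ v ≤ ‖v‖ := fun v => by
    have h3 := μ.le_opNorm v
    have h4 := le_abs_self (μ v)
    have h5 : |μ v| ≤ ‖μ‖ * ‖v‖ := h3
    nlinarith [norm_nonneg v]
  have hμy : μ y1 = 1 := by
    have : μ y1 = ‖y1‖ := by simpa using hμ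
    rw [this, hy1]
  set m := μ x1 with hm
  have hm1 : m < 1 := by
    have := hμle (x1 + y1)
    rw [map_add, hμy] at this
    linarith
  have hm2 : -1 < m := by
    have := hμle (x1 - y1)
    rw [map_sub, hμy] at this
    have h6 := hμle (y1 - x1)
    rw [map_sub, hμy, norm_sub_rev] at h6
    linarith
  have hval : μ (N⁻¹ • (x1 + τ • y1) - (x1 - y1)) = N⁻¹ * (m + τ) - m + 1 := by
    simp only [map_sub, map_smul, map_add, hμy, smul_eq_mul, mul_one]
    ring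
  have hNi : 0 < N⁻¹ := inv_pos.2 hN0
  have hNN : N⁻¹ * N = 1 := inv_mul_cancel₀ hN0.ne'
  have hgt : m < N⁻¹ * (m + τ) := by
    have h7 : m * N < m + τ := by
      have h8 : |1 - N| < τ := by
        rw [abs_lt]
        constructor <;> linarith [hb.1, hb.2]
      have h9 : |m| ≤ 1 := by
        rw [abs_le]
        constructor <;> linarith
      have h10 : |m * (1 - N)| ≤ |1 - N| := by
        rw [abs_mul]
        nlinarith [abs_nonneg (1 - N)]
      have h11 := neg_abs_le (m * (1 - N))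
      nlinarith
    have h12 : N⁻¹ * (m * N) < N⁻¹ * (m + τ) := mul_lt_mul_of_pos_left h7 hNi
    have h13 : N⁻¹ * (m * N) = m := by
      rw [mul_comm m N, ← mul_assoc, hNN, one_mul]
    rwa [h13] at h12
  have := hμle (N⁻¹ • (x1 + τ • y1) - (x1 - y1))
  rw [hval] at this
  linarith

end Cross

/-- Crossing: near a suitable pair there is a point of `Ew w'` at unit distance from `u'`. -/
theorem FinalCtx.crossing (C : FinalCtx f) {x1 y1 h : X} (hx1 : ‖x1‖ = 1) (hy1 : ‖y1‖ = 1)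
    (h1 : ‖x1 + y1‖ < 2) (h2 : ‖x1 - y1‖ < 2) (h3 : ‖x1 - h‖ < 1) (h4 : 1 < ‖y1 + h‖) :
    ∃ r > 0, ∀ w' u' : X, ‖w' - (x1 - y1)‖ < r → ‖u' - h‖ < r →
      ∃ z : X, ‖z‖ = 1 ∧ ‖z - w'‖ = 1 ∧ ‖z - u'‖ = 1 := by
  set w := x1 - y1 with hw
  have hw0 : w ≠ 0 := by
    intro h0
    have e : x1 = y1 := sub_eq_zero.1 h0
    rw [e, ← two_smul ℝ y1, norm_smul, hy1] at h1
    norm_num at h1
  have hwn : 0 < ‖w‖ := norm_pos_iff.2 hw0
  set a1 := 1 - ‖x1 - h‖ with ha1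
  set a2 := ‖y1 + h‖ - 1 with ha2
  have ha10 : 0 < a1 := by rw [ha1]; linarith
  have ha20 : 0 < a2 := by rw [ha2]; linarith
  set η := min a1 a2 / 4 with hη
  have hη0 : 0 < η := by
    rw [hη]
    have := lt_min ha10 ha20
    positivity
  have hη1 : 4 * η ≤ a1 := by
    rw [hη]
    have := min_le_left a1 a2
    linarith
  have hη2 : 4 * η ≤ a2 := by
    rw [hη]
    have := min_le_right a1 a2
    linarith
  set t := min (1 / 4) (η / 2) with ht
  have ht0 : 0 < t := lt_min (by norm_num) (by linarith)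
  have ht1 : t ≤ 1 / 4 := min_le_left _ _
  have ht2 : 2 * t ≤ η := by
    have := min_le_right (1 / 4 : ℝ) (η / 2)
    rw [← ht] at this
    linarith
  set γ : ℝ → X := fun τ => ‖x1 + τ • y1‖⁻¹ • (x1 + τ • y1) with hγ
  have hN : ∀ τ ∈ Icc (-t) t, 0 < ‖x1 + τ • y1‖ := by
    intro τ hτ
    have h5 : |τ| ≤ t := abs_le.2 hτ
    have h6 : ‖x1‖ - ‖τ • y1‖ ≤ ‖x1 + τ • y1‖ := by
      have := norm_sub_norm_le x1 (-(τ • y1))
      rwa [norm_neg, sub_neg_eq_add] at this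
    rw [hx1, norm_smul, hy1, mul_one, Real.norm_eq_abs] at h6
    linarith
  have hγ1 : ∀ τ ∈ Icc (-t) t, ‖γ τ‖ = 1 := by
    intro τ hτ
    simp only [hγ]
    rw [norm_smul, norm_inv, norm_norm, inv_mul_cancel₀ (hN τ hτ).ne']
  have hγc : ContinuousOn γ (Icc (-t) t) := by
    simp only [hγ]
    apply ContinuousOn.smul
    · apply ContinuousOn.inv₀ (by fun_prop)
      intro τ hτ
      exact (hN τ hτ).ne'
    · fun_prop
  have hγx : ∀ τ ∈ Icc (-t) t, ‖γ τ - x1‖ ≤ η := by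
    intro τ hτ
    have h5 : |τ| ≤ t := abs_le.2 hτ
    have hn := hN τ hτ
    have e : γ τ - x1 = (‖x1 + τ • y1‖⁻¹ • (x1 + τ • y1) - (x1 + τ • y1)) + τ • y1 := by
      simp only [hγ]; abel
    have h6 : ‖‖x1 + τ • y1‖⁻¹ • (x1 + τ • y1) - (x1 + τ • y1)‖ ≤ |τ| := by
      have e2 : ‖x1 + τ • y1‖⁻¹ • (x1 + τ • y1) - (x1 + τ • y1)
          = (‖x1 + τ • y1‖⁻¹ - 1) • (x1 + τ • y1) := by rw [sub_smul, one_smul]
      rw [e2, norm_smul, Real.norm_eq_abs]
      have h7 : |‖x1 + τ • y1‖⁻¹ - 1| * ‖x1 + τ • y1‖ = |1 - ‖x1 + τ • y1‖| := by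
        have : |‖x1 + τ • y1‖⁻¹ - 1| * ‖x1 + τ • y1‖
            = |‖x1 + τ • y1‖⁻¹ - 1| * |‖x1 + τ • y1‖| := by rw [abs_of_pos hn]
        rw [this, ← abs_mul, sub_mul, inv_mul_cancel₀ hn.ne', one_mul]
      rw [h7]
      have h8 : |‖x1‖ - ‖-(τ • y1)‖| ≤ ‖x1 - -(τ • y1)‖ := abs_norm_sub_norm_le _ _
      have h9 : ‖x1 + τ • y1‖ ≤ ‖x1‖ + ‖τ • y1‖ := norm_add_le _ _
      have h10 : ‖x1‖ ≤ ‖x1 + τ • y1‖ + ‖τ • y1‖ := by
        have := norm_sub_le (x1 + τ • y1) (τ • y1)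
        rwa [add_sub_cancel_right] at this
      rw [norm_smul, hy1, mul_one, Real.norm_eq_abs] at h9 h10
      rw [hx1] at h9 h10
      rw [abs_le]
      constructor <;> linarith
    rw [e]
    refine (norm_add_le _ _).trans ?_
    rw [norm_smul, hy1, mul_one, Real.norm_eq_abs]
    linarith
  have hmem1 : -t ∈ Icc (-t) t := ⟨le_rfl, by linarith⟩
  have hmem2 : t ∈ Icc (-t) t := ⟨by linarith, le_rfl⟩
  have hin : ‖γ (-t) - w‖ < 1 := inside_point hx1 hy1 h1 h2 ht0 (by linarith)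
  have hout : 1 < ‖γ t - w‖ := outside_point hx1 hy1 h1 h2 ht0 (by linarith)
  set b1 := 1 - ‖γ (-t) - w‖ with hb1
  set b2 := ‖γ t - w‖ - 1 with hb2
  have hb10 : 0 < b1 := by rw [hb1]; linarith
  have hb20 : 0 < b2 := by rw [hb2]; linarith
  refine ⟨min (min b1 b2) (min η (min (2 - ‖w‖) ‖w‖)), ?_, ?_⟩
  · exact lt_min (lt_min hb10 hb20) (lt_min hη0 (lt_min (by linarith) hwn))
  intro w' u' hw' hu'
  have hr1 : ‖w' - w‖ < b1 := hw'.trans_le ((min_le_left _ _).trans (min_le_left _ _))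
  have hr2 : ‖w' - w‖ < b2 := hw'.trans_le ((min_le_left _ _).trans (min_le_right _ _))
  have hr3 : ‖w' - w‖ < η := hw'.trans_le ((min_le_right _ _).trans (min_le_left _ _))
  have hr4 : ‖w' - w‖ < 2 - ‖w‖ :=
    hw'.trans_le ((min_le_right _ _).trans ((min_le_right _ _).trans (min_le_left _ _)))
  have hr5 : ‖w' - w‖ < ‖w‖ :=
    hw'.trans_le ((min_le_right _ _).trans ((min_le_right _ _).trans (min_le_right _ _)))
  have hu3 : ‖u' - h‖ < η := hu'.trans_le ((min_le_right _ _).trans (min_le_left _ _))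
  have hw'0 : w' ≠ 0 := by
    rintro rfl
    rw [zero_sub, norm_neg] at hr5
    exact lt_irrefl _ hr5
  have hw'2 : ‖w'‖ < 2 := by
    have := norm_add_le (w' - w) w
    rw [sub_add_cancel] at this
    linarith
  have hA : ‖γ (-t) - w'‖ < 1 := by
    have e : γ (-t) - w' = (γ (-t) - w) - (w' - w) := by abel
    rw [e]
    refine (norm_sub_le _ _).trans_lt ?_
    linarith
  have hB : 1 < ‖γ t - w'‖ := by
    have e : γ t - w = (γ t - w') + (w' - w) := by abel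
    have h5 : ‖γ t - w‖ ≤ ‖γ t - w'‖ + ‖w' - w‖ := by
      rw [e]; exact norm_add_le _ _
    linarith
  have hcont : ContinuousOn (fun τ => ‖γ τ - w'‖) (Icc (-t) t) :=
    (hγc.sub continuousOn_const).norm
  obtain ⟨τ, hτ, hτ1⟩ := intermediate_value_Icc (by linarith : -t ≤ t) hcont
    (show (1 : ℝ) ∈ Icc _ _ from ⟨hA.le, hB.le⟩)
  set x := γ τ with hx
  have hx1' : ‖x‖ = 1 := hγ1 τ hτ
  have hxE : x ∈ Ew w' := ⟨hx1', hτ1⟩
  have hxx : ‖x - x1‖ ≤ η := hγx τ hτ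
  have hnear : ‖x - u'‖ ≤ 1 := by
    have e : x - u' = (x - x1) + (x1 - h) - (u' - h) := by abel
    rw [e]
    refine (norm_sub_le _ _).trans ?_
    have := norm_add_le (x - x1) (x1 - h)
    have h6 : ‖x1 - h‖ = 1 - a1 := by rw [ha1]; ring
    linarith
  have hfar : 1 ≤ ‖(w' - x) - u'‖ := by
    have e : y1 + h = -((w' - x) - u') + (w' - w) + (x1 - x) + (h - u') := by
      rw [hw]; abel
    have h5 : ‖y1 + h‖ ≤ ‖(w' - x) - u'‖ + ‖w' - w‖ + ‖x - x1‖ + ‖u' - h‖ := by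
      rw [e]
      refine (norm_add_le _ _).trans ?_
      have h6 := norm_add_le (-((w' - x) - u') + (w' - w)) (x1 - x)
      have h7 := norm_add_le (-((w' - x) - u')) (w' - w)
      rw [norm_neg] at h7
      rw [norm_sub_rev h u', norm_sub_rev x x1]
      linarith
    have h8 : ‖y1 + h‖ = 1 + a2 := by rw [ha2]; ring
    linarith
  obtain ⟨z, hz, hz1⟩ := (C.hconn w' hw'0 hw'2).intermediate_value hxE (Ew_rho hxE)
    (f := fun z => ‖z - u'‖) (by fun_prop) (show (1 : ℝ) ∈ Icc _ _ from ⟨hnear, hfar⟩)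
  exact ⟨z, hz.1, hz.2, hz1⟩

/-- Local relation: for every small nonzero `h` the triangle relation holds on a product of
neighbourhoods. -/
theorem FinalCtx.local_rel (C : FinalCtx f) {h : X} (h0 : 0 < ‖h‖) (h1 : ‖h‖ < 1) :
    ∃ w : X, ∃ r > 0, ∀ w' u' : X, ‖w' - w‖ < r → ‖u' - h‖ < r →
      G f w' = G f u' + G f (w' - u') := by
  set u : X := ‖h‖⁻¹ • h with hu
  have hu1 : ‖u‖ = 1 := by rw [hu, norm_smul, norm_inv, norm_norm, inv_mul_cancel₀ h0.ne']
  have huh : ‖u - h‖ = 1 - ‖h‖ := by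
    have e : u - h = (‖h‖⁻¹ - 1) • h := by rw [hu, sub_smul, one_smul]
    rw [e, norm_smul, Real.norm_eq_abs]
    have h2 : |‖h‖⁻¹ - 1| * ‖h‖ = |1 - ‖h‖| := by
      have : |‖h‖⁻¹ - 1| * ‖h‖ = |‖h‖⁻¹ - 1| * |‖h‖| := by rw [abs_of_pos h0]
      rw [this, ← abs_mul, sub_mul, inv_mul_cancel₀ h0.ne', one_mul]
    rw [h2, abs_of_pos (by linarith)]
  obtain ⟨x1, ψ, hx1, hx1u, hψ, hψx, hψs⟩ := C.hreg u hu1 (‖h‖ / 2) (by positivity)
  have hx1h : ‖x1 - h‖ < 1 := by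
    have e : x1 - h = (x1 - u) + (u - h) := by abel
    rw [e]
    refine (norm_add_le _ _).trans_lt ?_
    rw [huh]
    linarith
  have hψh : 0 < ψ h := by
    have := hψ (x1 - h)
    rw [map_sub, hψx] at this
    linarith
  have hψh1 : ψ h < 1 := (hψ h).trans_lt h1
  set c := 1 - ψ h / 2 with hc
  have hmx : -x1 ∈ sphere (0 : X) 1 := mem_sphere_of_norm (by rw [norm_neg]; exact hx1)
  obtain ⟨y1', hy1', hy1c⟩ := C.sphere_conn.isPreconnected.intermediate_value hmx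
    (mem_sphere_of_norm hx1) (f := fun v => ψ v) ψ.continuous.continuousOn
    (show c ∈ Icc _ _ from ⟨by rw [map_neg, hψx, hc]; linarith, by rw [hψx, hc]; linarith⟩)
  have hy1 : ‖y1'‖ = 1 := by simpa using hy1'
  have hy1c' : ψ y1' = c := hy1c
  have hplus : ‖x1 + y1'‖ < 2 := by
    refine lt_of_le_of_ne ?_ ?_
    · have := norm_add_le x1 y1'
      rw [hx1, hy1] at this
      linarith
    · intro h2
      have := hψs y1' hy1 h2
      rw [hy1c', hc] at this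
      linarith
  have hminus : ‖x1 - y1'‖ < 2 := by
    refine lt_of_le_of_ne ?_ ?_
    · have := norm_sub_le x1 y1'
      rw [hx1, hy1] at this
      linarith
    · intro h2
      have := hψs (-y1') (by rw [norm_neg]; exact hy1) (by rw [← sub_eq_add_neg]; exact h2)
      rw [map_neg, hy1c', hc] at this
      linarith
  have hfar : 1 < ‖y1' + h‖ := by
    have := hψ (y1' + h)
    rw [map_add, hy1c', hc] at this
    linarith
  obtain ⟨r, hr, hcross⟩ := C.crossing hx1 hy1 hplus hminus hx1h hfar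
  set w := x1 - y1' with hw
  have hwh : ‖w - h‖ < 2 := by
    have e : w - h = (x1 - h) - y1' := by rw [hw]; abel
    rw [e]
    refine (norm_sub_le _ _).trans_lt ?_
    rw [hy1]
    linarith
  refine ⟨w, min r (min (1 - ‖h‖) (min (2 - ‖w‖) ((2 - ‖w - h‖) / 2))), ?_, ?_⟩
  · refine lt_min hr (lt_min (by linarith) (lt_min (by linarith [hminus]) (by linarith)))
  intro w' u' hw' hu'
  have hw1 : ‖w' - w‖ < r := hw'.trans_le (min_le_left _ _)
  have hu1' : ‖u' - h‖ < r := hu'.trans_le (min_le_left _ _)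
  have hu2 : ‖u' - h‖ < 1 - ‖h‖ := hu'.trans_le ((min_le_right _ _).trans (min_le_left _ _))
  have hw2 : ‖w' - w‖ < 2 - ‖w‖ :=
    hw'.trans_le ((min_le_right _ _).trans ((min_le_right _ _).trans (min_le_left _ _)))
  have hw3 : ‖w' - w‖ < (2 - ‖w - h‖) / 2 :=
    hw'.trans_le ((min_le_right _ _).trans ((min_le_right _ _).trans (min_le_right _ _)))
  have hu3 : ‖u' - h‖ < (2 - ‖w - h‖) / 2 :=
    hu'.trans_le ((min_le_right _ _).trans ((min_le_right _ _).trans (min_le_right _ _)))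
  obtain ⟨z, hz, hzw, hzu⟩ := hcross w' u' hw1 hu1'
  refine C.tri_rel hz hzu hzw ?_ ?_ ?_
  · have := norm_add_le (u' - h) h
    rw [sub_add_cancel] at this
    linarith
  · have := norm_add_le (w' - w) w
    rw [sub_add_cancel] at this
    linarith
  · have e : w' - u' = (w' - w) - (u' - h) + (w - h) := by abel
    rw [e]
    have h5 := norm_add_le ((w' - w) - (u' - h)) (w - h)
    have h6 := norm_sub_le (w' - w) (u' - h)
    linarith

/-- A map additive on a small ball and bounded there is the restriction of a continuous linear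
map. -/
theorem extend_additive {ρ C0 : ℝ} (hρ : 0 < ρ) (D : X → Y)
    (hadd : ∀ ξ ξ' : X, ‖ξ‖ < ρ → ‖ξ'‖ < ρ → D (ξ + ξ') = D ξ + D ξ')
    (hbd : ∀ ξ : X, ‖ξ‖ < ρ → ‖D ξ‖ ≤ C0) :
    ∃ T : X →L[ℝ] Y, ∀ ξ : X, ‖ξ‖ < ρ → T ξ = D ξ := by
  have hD0 : D 0 = 0 := by
    have := hadd 0 0 (by simpa using hρ) (by simpa using hρ)
    rw [add_zero] at this
    exact left_eq_add.1 this
  have hmul : ∀ (m : ℕ) (ξ : X), (m : ℝ) * ‖ξ‖ < ρ → ‖ξ‖ < ρ → D ((m : ℝ) • ξ) = (m : ℝ) • D ξ := by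
    intro m
    induction m with
    | zero =>
      intro ξ _ _
      simp [hD0]
    | succ m ih =>
      intro ξ h1 h2
      push_cast at h1 ⊢
      have h3 : (m : ℝ) * ‖ξ‖ < ρ := by nlinarith [norm_nonneg ξ]
      have h4 : ‖(m : ℝ) • ξ‖ < ρ := by
        rw [norm_smul, Real.norm_of_nonneg (by positivity)]
        exact h3
      rw [add_smul, one_smul, hadd _ _ h4 h2, ih ξ h3 h2, add_smul, one_smul]
  set φ : ℕ → X → Y := fun n x => (n : ℝ) • D ((n : ℝ)⁻¹ • x) with hφ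
  have hcons : ∀ (n m : ℕ) (x : X), 0 < n → 0 < m → ‖x‖ < n * ρ → φ n x = φ (n * m) x := by
    intro n m x hn hm hx
    have hn' : (0 : ℝ) < n := by exact_mod_cast hn
    have hm' : (0 : ℝ) < m := by exact_mod_cast hm
    have hm1 : (1 : ℝ) ≤ m := by exact_mod_cast hm
    set ξ : X := ((n * m : ℕ) : ℝ)⁻¹ • x with hξ
    have e1 : (m : ℝ) • ξ = (n : ℝ)⁻¹ • x := by
      rw [hξ, smul_smul]
      congr 1
      push_cast
      field_simp
    have hm_ξ : (m : ℝ) * ‖ξ‖ < ρ := by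
      have h5 : (m : ℝ) * ‖ξ‖ = ‖(m : ℝ) • ξ‖ := (norm_smul_of_nonneg hm'.le ξ).symm
      rw [h5, e1, norm_smul, norm_inv, Real.norm_of_nonneg hn'.le, inv_mul_lt_iff₀ hn']
      exact hx
    have hξρ : ‖ξ‖ < ρ := by nlinarith [norm_nonneg ξ]
    simp only [hφ]
    rw [← e1, hmul m ξ hm_ξ hξρ, smul_smul, hξ]
    simp only [Nat.cast_mul]
  set N : X → ℕ := fun x => ⌈‖x‖ / ρ⌉₊ + 1 with hN
  have hNpos : ∀ x, 0 < N x := fun x => Nat.succ_pos _
  have hNx : ∀ x, ‖x‖ < (N x : ℝ) * ρ := by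
    intro x
    have h1 : ‖x‖ / ρ ≤ ⌈‖x‖ / ρ⌉₊ := Nat.le_ceil _
    have h2 : ‖x‖ ≤ (⌈‖x‖ / ρ⌉₊ : ℝ) * ρ := (div_le_iff₀ hρ).1 h1
    simp only [hN]
    push_cast
    nlinarith
  set T0 : X → Y := fun x => φ (N x) x with hT0
  have hT0φ : ∀ (n : ℕ) (x : X), 0 < n → ‖x‖ < n * ρ → T0 x = φ n x := by
    intro n x hn hx
    simp only [hT0]
    rw [hcons (N x) n x (hNpos x) hn (hNx x), hcons n (N x) x hn (hNpos x) hx, mul_comm]
  have hT0add : ∀ x x', T0 (x + x') = T0 x + T0 x' := by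
    intro x x'
    set n : ℕ := N x + N x' + N (x + x') with hn
    have hn0 : 0 < n := by
      have := hNpos x
      omega
    have hn1 : (N x : ℝ) ≤ n := by exact_mod_cast (by omega : N x ≤ n)
    have hn2 : (N x' : ℝ) ≤ n := by exact_mod_cast (by omega : N x' ≤ n)
    have hn3 : (N (x + x') : ℝ) ≤ n := by exact_mod_cast (by omega : N (x + x') ≤ n)
    have h1 : ‖x‖ < n * ρ := (hNx x).trans_le (by gcongr)
    have h2 : ‖x'‖ < n * ρ := (hNx x').trans_le (by gcongr)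
    have h3 : ‖x + x'‖ < n * ρ := (hNx (x + x')).trans_le (by gcongr)
    have hn' : (0 : ℝ) < n := by exact_mod_cast hn0
    have hs : ∀ y : X, ‖y‖ < n * ρ → ‖(n : ℝ)⁻¹ • y‖ < ρ := by
      intro y hy
      rw [norm_smul, norm_inv, Real.norm_of_nonneg hn'.le, inv_mul_lt_iff₀ hn']
      exact hy
    rw [hT0φ n _ hn0 h1, hT0φ n _ hn0 h2, hT0φ n _ hn0 h3]
    simp only [hφ]
    rw [smul_add, hadd _ _ (hs x h1) (hs x' h2), smul_add]
  have hT0small : ∀ ξ : X, ‖ξ‖ < ρ → T0 ξ = D ξ := by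
    intro ξ hξ
    rw [hT0φ 1 ξ one_pos (by simpa using hξ)]
    simp [hφ]
  set T1 : X →+ Y := AddMonoidHom.mk' T0 hT0add with hT1
  have hT1c : Continuous T1 := by
    refine T1.continuous_of_isBounded_nhds_zero (s := ball (0 : X) ρ) (ball_mem_nhds _ hρ) ?_
    refine (Metric.isBounded_closedBall (x := (0 : Y)) (r := C0)).subset ?_
    rintro _ ⟨ξ, hξ, rfl⟩
    have h1 : ‖ξ‖ < ρ := by simpa using hξ
    have h2 : T1 ξ = D ξ := hT0small ξ h1
    rw [h2]
    simpa using hbd ξ h1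
  exact ⟨T1.toRealLinearMap hT1c, fun ξ hξ => hT0small ξ hξ⟩

/-- Two continuous linear maps which agree on a ball around zero are equal. -/
lemma clm_eq_of_ball {T T' : X →L[ℝ] Y} {r : ℝ} (hr : 0 < r)
    (h : ∀ ξ : X, ‖ξ‖ < r → T ξ = T' ξ) : T = T' := by
  ext x
  set s : ℝ := r / (2 * (‖x‖ + 1)) with hs
  have hd : 0 < 2 * (‖x‖ + 1) := by positivity
  have hs0 : 0 < s := div_pos hr hd
  have h1 : ‖s • x‖ < r := by
    rw [norm_smul, Real.norm_of_nonneg hs0.le, hs, div_mul_eq_mul_div, div_lt_iff₀ hd]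
    nlinarith [norm_nonneg x]
  have h2 := h _ h1
  rw [map_smul, map_smul] at h2
  exact smul_right_injective Y hs0.ne' h2

/-- Local affinity of `G` near every small nonzero vector. -/
theorem FinalCtx.local_T (C : FinalCtx f) {h : X} (h0 : 0 < ‖h‖) (h1 : ‖h‖ < 1) :
    ∃ ρ > 0, ∃ T : X →L[ℝ] Y, ∀ u' ξ : X, ‖u' - h‖ < ρ → ‖ξ‖ < ρ →
      G f (u' + ξ) - G f u' = T ξ := by
  obtain ⟨w, r, hr, hrel⟩ := C.local_rel h0 h1
  set ρ0 : ℝ := min (r / 2) (1 / 2) with hρ0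
  have hρ00 : 0 < ρ0 := lt_min (by linarith) (by norm_num)
  have hρ1 : ρ0 ≤ r / 2 := min_le_left _ _
  have hρ2 : ρ0 ≤ 1 / 2 := min_le_right _ _
  have hkey : ∀ u' ξ : X, ‖u' - h‖ < ρ0 → ‖ξ‖ < ρ0 →
      G f (u' + ξ) - G f u' = G f (w + ξ) - G f w := by
    intro u' ξ hu hξ
    have e1 := hrel (w + ξ) (u' + ξ) (by rw [add_sub_cancel_left]; linarith) (by
      have e : u' + ξ - h = (u' - h) + ξ := by abel
      rw [e]
      refine (norm_add_le _ _).trans_lt ?_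
      linarith)
    have e2 := hrel w u' (by simpa using hr) (by linarith)
    have e3 : w + ξ - (u' + ξ) = w - u' := by abel
    rw [e3] at e1
    rw [e1, e2]
    abel
  set D : X → Y := fun ξ => G f (w + ξ) - G f w with hD
  have hDh : ∀ u' ξ : X, ‖u' - h‖ < ρ0 → ‖ξ‖ < ρ0 → G f (u' + ξ) - G f u' = D ξ := hkey
  have hadd : ∀ ξ ξ' : X, ‖ξ‖ < ρ0 / 2 → ‖ξ'‖ < ρ0 / 2 → D (ξ + ξ') = D ξ + D ξ' := by
    intro ξ ξ' hξ hξ'
    have h2 : ‖ξ + ξ'‖ < ρ0 := (norm_add_le _ _).trans_lt (by linarith)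
    have e1 := hDh h (ξ + ξ') (by simpa using hρ00) h2
    have e2 := hDh h ξ (by simpa using hρ00) (by linarith)
    have e3 := hDh (h + ξ) ξ' (by rw [add_sub_cancel_left]; linarith) (by linarith)
    rw [← e1, ← e2, ← e3, add_assoc]
    abel
  have hbd : ∀ ξ : X, ‖ξ‖ < ρ0 / 2 → ‖D ξ‖ ≤ 3 := by
    intro ξ hξ
    rw [← hDh h ξ (by simpa using hρ00) (by linarith)]
    have hn1 : ‖h + ξ‖ < 2 := (norm_add_le _ _).trans_lt (by linarith)
    refine (norm_sub_le _ _).trans ?_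
    rw [C.G_norm hn1, C.G_norm (by linarith)]
    have := norm_add_le h ξ
    linarith
  obtain ⟨T, hT⟩ := extend_additive (by linarith) D hadd hbd
  refine ⟨ρ0 / 2, by linarith, T, fun u' ξ hu hξ => ?_⟩
  rw [hT ξ hξ]
  exact hDh u' ξ (by linarith) (by linarith)

/-- The punctured ball is connected. -/
lemma FinalCtx.isConnected_punctured (C : FinalCtx f) :
    IsConnected {h : X | 0 < ‖h‖ ∧ ‖h‖ < 1} := by
  have h0 := isConnected_compl_singleton_of_one_lt_rank C.hrank (0 : X)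
  have himg : {h : X | 0 < ‖h‖ ∧ ‖h‖ < 1} = (fun x : X => (1 + ‖x‖)⁻¹ • x) '' {(0 : X)}ᶜ := by
    ext h
    constructor
    · rintro ⟨h1, h2⟩
      have h3 : 0 < 1 - ‖h‖ := by linarith
      refine ⟨(1 - ‖h‖)⁻¹ • h, ?_, ?_⟩
      · simp only [mem_compl_iff, mem_singleton_iff]
        intro h4
        rcases smul_eq_zero.1 h4 with h5 | h5
        · exact absurd h5 (inv_ne_zero h3.ne')
        · rw [h5, norm_zero] at h1
          exact lt_irrefl _ h1
      · show (1 + ‖(1 - ‖h‖)⁻¹ • h‖)⁻¹ • ((1 - ‖h‖)⁻¹ • h) = h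
        rw [norm_smul, norm_inv, Real.norm_of_nonneg h3.le, smul_smul]
        have : (1 + (1 - ‖h‖)⁻¹ * ‖h‖)⁻¹ * (1 - ‖h‖)⁻¹ = 1 := by
          field_simp
          ring
        rw [this, one_smul]
    · rintro ⟨x, hx, rfl⟩
      have hx0 : x ≠ 0 := hx
      have hn : 0 < ‖x‖ := norm_pos_iff.2 hx0
      have e : ‖(1 + ‖x‖)⁻¹ • x‖ = (1 + ‖x‖)⁻¹ * ‖x‖ := by
        rw [norm_smul, norm_inv, Real.norm_of_nonneg (by positivity)]
      show 0 < ‖(1 + ‖x‖)⁻¹ • x‖ ∧ ‖(1 + ‖x‖)⁻¹ • x‖ < 1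
      rw [e]
      refine ⟨by positivity, ?_⟩
      rw [inv_mul_lt_iff₀ (by positivity)]
      linarith
  rw [himg]
  refine h0.image _ (ContinuousOn.smul ?_ continuousOn_id)
  apply ContinuousOn.inv₀ (by fun_prop)
  intro x _
  positivity

/-- `G` is a continuous linear map on the punctured ball. -/
theorem FinalCtx.exists_T (C : FinalCtx f) :
    ∃ T : X →L[ℝ] Y, ∀ h : X, 0 < ‖h‖ → ‖h‖ < 1 → G f h = T h := by
  have := C.nontrivial
  set P : Set X := {h : X | 0 < ‖h‖ ∧ ‖h‖ < 1} with hP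
  have hPc : IsConnected P := C.isConnected_punctured
  have hPs : PreconnectedSpace P := isPreconnected_iff_preconnectedSpace.1 hPc.isPreconnected
  have hloc : ∀ h : P, ∃ ρ > 0, ∃ T : X →L[ℝ] Y, ∀ u' ξ : X, ‖u' - (h : X)‖ < ρ → ‖ξ‖ < ρ →
      G f (u' + ξ) - G f u' = T ξ := fun h => C.local_T h.2.1 h.2.2
  choose ρ hρ T hT using hloc
  set Φ : P → (X →L[ℝ] Y) × Y := fun h => (T h, G f h - T h h) with hΦ
  have hΦloc : IsLocallyConstant Φ := by
    rw [IsLocallyConstant.iff_eventually_eq]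
    intro h
    have hnb : ∀ᶠ h' : P in 𝓝 h, dist h' h < ρ h := ball_mem_nhds h (hρ h)
    filter_upwards [hnb] with h' hh'
    have hd : ‖(h' : X) - h‖ < ρ h := by
      rw [Subtype.dist_eq, dist_eq_norm] at hh'
      exact hh'
    have e1 : T h' = T h := by
      refine clm_eq_of_ball (lt_min (hρ h') (hρ h)) fun ξ hξ => ?_
      have h1 : ‖ξ‖ < ρ h' := hξ.trans_le (min_le_left _ _)
      have h2 : ‖ξ‖ < ρ h := hξ.trans_le (min_le_right _ _)
      rw [← hT h' (h' : X) ξ (by simpa using hρ h') h1, hT h (h' : X) ξ hd h2]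
    have e2 : G f h' - T h h' = G f h - T h h := by
      have h3 := hT h (h : X) ((h' : X) - h) (by simpa using hρ h) hd
      rw [add_sub_cancel] at h3
      rw [map_sub] at h3
      rw [sub_eq_sub_iff_sub_eq_sub, h3]
    simp only [hΦ, e1, e2]
  obtain ⟨h₀, hh₀⟩ := hPc.nonempty
  set h0 : P := ⟨h₀, hh₀⟩ with hh0
  have hconst : ∀ h : P, Φ h = Φ h0 := fun h => hΦloc.apply_eq_of_preconnectedSpace h h0
  set c := G f h₀ - T h0 h₀ with hc
  have hval : ∀ h : P, G f h = T h0 h + c := by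
    intro h
    have h1 := hconst h
    have h2 : T h = T h0 := congrArg Prod.fst h1
    have h3 : G f h - T h h = G f h₀ - T h0 h₀ := congrArg Prod.snd h1
    rw [h2] at h3
    rw [hc, ← h3]
    abel
  have hmem : -h₀ ∈ P := by
    have h1 := hh₀.1
    have h2 := hh₀.2
    exact ⟨by rwa [norm_neg], by rwa [norm_neg]⟩
  have hc0 : c = 0 := by
    have h1 := hval ⟨-h₀, hmem⟩
    have h2 := hval h0
    have h3 : G f (-h₀) = -G f h₀ := C.G_neg (by linarith [hh₀.2])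
    simp only [map_neg] at h1
    rw [h3] at h1
    have h4 : G f h₀ = T h0 h₀ + c := h2
    rw [h4] at h1
    have h5 : (2 : ℝ) • c = 0 := by
      rw [two_smul]
      have h6 : c + c = (-(T h0 h₀) + c) - (-(T h0 h₀ + c)) := by abel
      rw [h6, ← h1, sub_self]
    rcases smul_eq_zero.1 h5 with h6 | h6
    · norm_num at h6
    · exact h6
  refine ⟨T h0, fun h h1 h2 => ?_⟩
  have := hval ⟨h, h1, h2⟩
  rw [hc0, add_zero] at this
  exact this

/-- The final theorem. -/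
theorem FinalCtx.main (C : FinalCtx f) : ∃ T : X ≃ₗᵢ[ℝ] Y, ∀ x : X, ‖x‖ = 1 → T x = f x := by
  obtain ⟨T, hT⟩ := C.exists_T
  have hnorm : ∀ x : X, ‖T x‖ = ‖x‖ := by
    intro x
    by_cases hx : x = 0
    · simp [hx]
    · have hn : 0 < ‖x‖ := norm_pos_iff.2 hx
      set s : ℝ := (2 * ‖x‖)⁻¹ with hs
      have hs0 : 0 < s := by positivity
      have hsx : s * ‖x‖ = 1 / 2 := by
        rw [hs]
        field_simp
      have h1 : ‖s • x‖ = 1 / 2 := by rw [norm_smul, Real.norm_of_nonneg hs0.le, hsx]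
      have h2 := hT (s • x) (by rw [h1]; norm_num) (by rw [h1]; norm_num)
      have h3 := C.G_norm (w := s • x) (by rw [h1]; norm_num)
      rw [h2, map_smul, norm_smul, norm_smul, Real.norm_of_nonneg hs0.le] at h3
      exact mul_left_cancel₀ hs0.ne' h3
  have hSc : IsConnected (sphere (0 : X) 1) := C.sphere_conn
  have hSs : PreconnectedSpace (sphere (0 : X) 1) :=
    isPreconnected_iff_preconnectedSpace.1 hSc.isPreconnected
  have hn1 : ∀ z : sphere (0 : X) 1, ‖(z : X)‖ = 1 := fun z => by simpa using z.2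
  have hloc : IsLocallyConstant (fun z : sphere (0 : X) 1 => f z - T z) := by
    rw [IsLocallyConstant.iff_eventually_eq]
    intro z
    filter_upwards [Metric.ball_mem_nhds z (zero_lt_one : (0 : ℝ) < 1)] with y hy
    have hy' : ‖(y : X) - z‖ < 1 := by
      have : dist y z < 1 := hy
      rw [Subtype.dist_eq, dist_eq_norm] at this
      exact this
    by_cases hyz : (y : X) = z
    · simp [hyz]
    · have h0 : 0 < ‖(y : X) - z‖ := norm_pos_iff.2 (sub_ne_zero.2 hyz)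
      have h1 := hT _ h0 hy'
      have h2 := C.G_sub (hn1 y) (hn1 z) (by linarith)
      rw [h2, map_sub] at h1
      rw [sub_eq_sub_iff_sub_eq_sub]
      rw [h1]
  have hfT : ∀ x : X, ‖x‖ = 1 → T x = f x := by
    intro x hx
    have hxs : x ∈ sphere (0 : X) 1 := mem_sphere_of_norm hx
    have hxs' : -x ∈ sphere (0 : X) 1 := mem_sphere_of_norm (by rw [norm_neg]; exact hx)
    have h1 := hloc.apply_eq_of_preconnectedSpace ⟨x, hxs⟩ ⟨-x, hxs'⟩
    have h2 : f x - T x = f (-x) - T (-x) := h1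
    rw [C.hodd x hx, map_neg] at h2
    have h5 : (2 : ℝ) • (f x - T x) = 0 := by
      rw [two_smul]
      nth_rewrite 1 [h2]
      abel
    rcases smul_eq_zero.1 h5 with h6 | h6
    · norm_num at h6
    · exact (sub_eq_zero.1 h6).symm
  have hsurj : Function.Surjective T := by
    intro y
    by_cases hy : y = 0
    · exact ⟨0, by rw [hy, map_zero]⟩
    · have hn : 0 < ‖y‖ := norm_pos_iff.2 hy
      have h1 : ‖‖y‖⁻¹ • y‖ = 1 := by
        rw [norm_smul, norm_inv, norm_norm, inv_mul_cancel₀ hn.ne']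
      obtain ⟨a, ha, hfa⟩ := C.hf.surj _ h1
      refine ⟨‖y‖ • a, ?_⟩
      rw [map_smul, hfT a ha, hfa, smul_smul, mul_inv_cancel₀ hn.ne', one_smul]
  let Li : X →ₗᵢ[ℝ] Y := ⟨T.toLinearMap, fun x => hnorm x⟩
  exact ⟨LinearIsometryEquiv.ofSurjective Li hsurj, fun x hx => hfT x hx⟩

end Vale.Agent.Lib.P084.NS
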