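/-
Tingley oddness for every finite-dimensional norm (helper53 route #1947, helper38).
`f : S_X → S_Y` a surjective isometry, `X` finite-dimensional, `f` affine on the segments
contained in `S_X`. Then `f (-x) = - f x`.

Route: `Θ x = f⁻¹ (- f (- x))` is an isometry of `S_X` with `‖x + Θ x‖ = 2` (trivially).
At points with a unique norming functional (dense, Rademacher) this says that each norming
functional of `x` norms `Θ x`; by density the same is true at every `x`. Hence exposed points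
are fixed; a farthest point trick then shows that every face is the closed convex hull of its
fixed points; fixed points of a face form a convex set by affinity.
-/
import Vale.Agent.Lib.P084.UC.APlus

namespace Vale.Agent.Lib.P084.NS.OddA

open Vale.Agent.Lib.P084.UC Metric Set Filter Topology

variable {X Y : Type*} [NormedAddCommGroup X] [NormedSpace ℝ X] [NormedAddCommGroup Y]
  [NormedSpace ℝ Y]

/-- `l` is a norming functional of `x` (unit ball form). -/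
def Norms (l : X →L[ℝ] ℝ) (x : X) : Prop := (∀ z : X, ‖z‖ ≤ 1 → l z ≤ 1) ∧ l x = 1

theorem Norms.le_norm {l : X →L[ℝ] ℝ} {x : X} (h : Norms l x) (w : X) : l w ≤ ‖w‖ := by
  by_cases hw : w = 0
  · simp [hw]
  · have hn : 0 < ‖w‖ := norm_pos_iff.mpr hw
    have h1 := h.1 ((‖w‖)⁻¹ • w) (by rw [norm_smul, norm_inv, norm_norm, inv_mul_cancel₀ hn.ne'])
    rw [map_smul, smul_eq_mul] at h1
    have h2 : (‖w‖)⁻¹ * l w * ‖w‖ ≤ 1 * ‖w‖ := mul_le_mul_of_nonneg_right h1 hn.le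
    have h3 : (‖w‖)⁻¹ * l w * ‖w‖ = l w := by field_simp
    linarith

theorem exists_norms {x : X} (hx : ‖x‖ = 1) : ∃ l : X →L[ℝ] ℝ, Norms l x := by
  have : Nontrivial X := ⟨⟨x, 0, fun h => by rw [h, norm_zero] at hx; norm_num at hx⟩⟩
  obtain ⟨g, hg, hgx⟩ := exists_dual_vector'' ℝ x
  refine ⟨g, fun z hz => ?_, ?_⟩
  · calc g z ≤ ‖g z‖ := le_abs_self _
      _ ≤ ‖g‖ * ‖z‖ := g.le_opNorm z
      _ ≤ 1 * 1 := by gcongr
      _ = 1 := by norm_num
  · have : g x = ‖x‖ := by simpa using hgx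
    rw [this, hx]

/-- A common norming functional of two unit vectors with `‖x + y‖ = 2`. -/
theorem exists_norms_pair {x y : X} (hx : ‖x‖ = 1) (hy : ‖y‖ = 1) (h : ‖x + y‖ = 2) :
    ∃ l : X →L[ℝ] ℝ, Norms l x ∧ Norms l y := by
  have hu : ‖(1 / 2 : ℝ) • (x + y)‖ = 1 := by
    rw [norm_smul, h]; norm_num
  obtain ⟨l, hl⟩ := exists_norms hu
  have h1 := hl.1 x hx.le
  have h2 := hl.1 y hy.le
  have h3 := hl.2
  rw [map_smul, smul_eq_mul, map_add] at h3
  have e1 : l x = 1 := by linarith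
  have e2 : l y = 1 := by linarith
  exact ⟨l, ⟨hl.1, e1⟩, ⟨hl.1, e2⟩⟩

theorem norm_eq_one_of_norms {l : X →L[ℝ] ℝ} {x : X} (h : Norms l x) (hx : ‖x‖ ≤ 1) :
    ‖x‖ = 1 := by
  have := h.le_norm x
  rw [h.2] at this
  linarith

/-- A norming functional at a differentiability point of the norm is the derivative. -/
theorem norms_eq_fderiv {l : X →L[ℝ] ℝ} {z : X} (hd : DifferentiableAt ℝ (fun w : X => ‖w‖) z)
    (hb : ∀ u : X, ‖u‖ ≤ 1 → l u ≤ 1) (hz : l z = ‖z‖) :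
    l = fderiv ℝ (fun w : X => ‖w‖) z := by
  have hle : ∀ w : X, l w ≤ ‖w‖ := by
    intro w
    by_cases hw : w = 0
    · simp [hw]
    · have hn : 0 < ‖w‖ := norm_pos_iff.mpr hw
      have h1 := hb ((‖w‖)⁻¹ • w) (by rw [norm_smul, norm_inv, norm_norm, inv_mul_cancel₀ hn.ne'])
      rw [map_smul, smul_eq_mul] at h1
      have h2 : (‖w‖)⁻¹ * l w * ‖w‖ ≤ 1 * ‖w‖ := mul_le_mul_of_nonneg_right h1 hn.le
      have h3 : (‖w‖)⁻¹ * l w * ‖w‖ = l w := by field_simp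
      linarith
  have hmin : IsLocalMin (fun w : X => ‖w‖ - l w) z := by
    refine Filter.Eventually.of_forall (fun w => ?_)
    have := hle w
    simp only [hz, sub_self]
    linarith
  have hdl : HasFDerivAt (fun w : X => ‖w‖ - l w) (fderiv ℝ (fun w : X => ‖w‖) z - l) z :=
    hd.hasFDerivAt.sub l.hasFDerivAt
  have h0 := hmin.hasFDerivAt_eq_zero hdl
  exact (sub_eq_zero.mp h0).symm

/-- Density of points of the unit sphere where the norming functional is unique. -/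
theorem exists_smooth_near [FiniteDimensional ℝ X] {x : X} (hx : ‖x‖ = 1) {η : ℝ} (hη : 0 < η) :
    ∃ y : X, ‖y‖ = 1 ∧ ‖y - x‖ < η ∧
      ∀ l l' : X →L[ℝ] ℝ, Norms l y → Norms l' y → l = l' := by
  classical
  let _ : MeasurableSpace X := borel X
  have _ : BorelSpace X := ⟨rfl⟩
  have _ : ProperSpace X := FiniteDimensional.proper_real X
  let μ : MeasureTheory.Measure X := MeasureTheory.Measure.addHaar
  have hae : ∀ᵐ z ∂μ, DifferentiableAt ℝ (fun w : X => ‖w‖) z :=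
    (lipschitzWith_one_norm (E := X)).ae_differentiableAt
  have hdense : Dense {z : X | DifferentiableAt ℝ (fun w : X => ‖w‖) z} :=
    MeasureTheory.Measure.dense_of_ae hae
  set ρ : ℝ := min (η / 3) (1 / 2) with hρ
  have hρ0 : 0 < ρ := lt_min (by positivity) (by norm_num)
  obtain ⟨z, hzd, hzc⟩ := hdense.exists_dist_lt x hρ0
  have hzc' : ‖z - x‖ < ρ := by
    rw [← dist_eq_norm, dist_comm]; exact hzc
  have hz1 : |‖z‖ - 1| ≤ ‖z - x‖ := by
    rw [← hx]; exact abs_norm_sub_norm_le z x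
  have hz0 : 0 < ‖z‖ := by
    have h1 := (abs_le.mp hz1).1
    have h2 : ρ ≤ 1 / 2 := min_le_right _ _
    linarith
  have hne : ‖z‖ ≠ 0 := hz0.ne'
  refine ⟨(‖z‖)⁻¹ • z, ?_, ?_, ?_⟩
  · rw [norm_smul, norm_inv, norm_norm, inv_mul_cancel₀ hne]
  · have e : (‖z‖)⁻¹ • z - z = (1 - ‖z‖) • ((‖z‖)⁻¹ • z) := by
      rw [sub_smul, one_smul, smul_smul, mul_inv_cancel₀ hne, one_smul]
    have h1 : ‖(‖z‖)⁻¹ • z - z‖ = |1 - ‖z‖| := by
      rw [e, norm_smul, norm_smul, norm_inv, norm_norm, inv_mul_cancel₀ hne, mul_one,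
        Real.norm_eq_abs]
    have h2 : |1 - ‖z‖| ≤ ‖z - x‖ := by rw [abs_sub_comm]; exact hz1
    have h3 : ‖(‖z‖)⁻¹ • z - x‖ ≤ ‖(‖z‖)⁻¹ • z - z‖ + ‖z - x‖ := norm_sub_le_norm_sub_add_norm_sub _ _ _
    have h4 : ρ ≤ η / 3 := min_le_left _ _
    rw [h1] at h3
    linarith
  · intro l l' hl hl'
    have key : ∀ m : X →L[ℝ] ℝ, Norms m ((‖z‖)⁻¹ • z) → m = fderiv ℝ (fun w : X => ‖w‖) z := by
      intro m hm
      refine norms_eq_fderiv hzd hm.1 ?_
      have := hm.2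
      rw [map_smul, smul_eq_mul] at this
      field_simp at this
      linarith
    rw [key l hl, key l' hl']

/-- Numerics of `norms_theta`: the lower bound. -/
theorem low_real {t δ η N a mx mv : ℝ} (ht : 0 ≤ t * δ) (ht1 : t * δ ≤ 1) (hη : 0 ≤ η) (hη1 : η ≤ 1)
    (hN : 1 + t * δ ≤ N) (ha : 1 - η ≤ a) (hz : N * a = mx + t * mv) (hmx : mx ≤ 1) :
    t * δ - 2 * η ≤ t * mv := by
  have hN0 : 0 ≤ N := by linarith
  have a1 : (1 + t * δ) * (1 - η) ≤ N * a :=
    calc (1 + t * δ) * (1 - η) ≤ N * (1 - η) := mul_le_mul_of_nonneg_right hN (by linarith)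
      _ ≤ N * a := mul_le_mul_of_nonneg_left ha hN0
  have a2 : t * δ * η ≤ 1 * η := mul_le_mul_of_nonneg_right ht1 hη
  have a3 : (1 + t * δ) * (1 - η) = 1 + t * δ - η - t * δ * η := by ring
  linarith

/-- Numerics of `norms_theta`: the contradiction. -/
theorem numeric_contra {δ V M : ℝ} (hδ0 : 0 < δ) (hδ2 : δ ≤ 2) (hV : V ≤ 2) (hV0 : 0 ≤ V)
    (low : δ / 100 * δ - 2 * (δ / 100 * δ / 8) ≤ δ / 100 * M)
    (up : M ≤ 2 * (δ / 100 * δ / 8 + 2 * (δ / 100) * V)) : False := by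
  have hpos : 0 < δ / 100 := by positivity
  have hM : 3 / 4 * δ ≤ M := by
    have e : δ / 100 * (3 / 4 * δ) ≤ δ / 100 * M := by
      have e1 : δ / 100 * (3 / 4 * δ) = δ / 100 * δ - 2 * (δ / 100 * δ / 8) := by ring
      rw [e1]; exact low
    exact le_of_mul_le_mul_left e hpos
  have hU : 2 * (δ / 100 * δ / 8 + 2 * (δ / 100) * V) = δ / 100 * (δ / 4 + 4 * V) := by ring
  rw [hU] at up
  have h1 : δ / 100 * (δ / 4 + 4 * V) ≤ δ / 100 * (1 / 2 + 8) :=
    mul_le_mul_of_nonneg_left (by linarith) hpos.le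
  linarith

section Theta

variable [FiniteDimensional ℝ X] (Θ : X → X)

/-- Every norming functional of `x` norms `Θ x`. -/
theorem norms_theta (h1 : ∀ x : X, ‖x‖ = 1 → ‖Θ x‖ = 1)
    (h2 : ∀ x x' : X, ‖x‖ = 1 → ‖x'‖ = 1 → ‖Θ x - Θ x'‖ = ‖x - x'‖)
    (h3 : ∀ x : X, ‖x‖ = 1 → ‖x + Θ x‖ = 2) {x : X} (hx : ‖x‖ = 1) {l : X →L[ℝ] ℝ}
    (hl : Norms l x) : l (Θ x) = 1 := by
  by_contra hne
  have hle : l (Θ x) ≤ 1 := hl.1 _ (h1 x hx).le
  set δ : ℝ := 1 - l (Θ x) with hδ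
  have hδ0 : 0 < δ := by
    have : l (Θ x) < 1 := lt_of_le_of_ne hle hne
    linarith
  have hδ2 : δ ≤ 2 := by
    have := hl.1 (-(Θ x)) (by rw [norm_neg]; exact (h1 x hx).le)
    rw [map_neg] at this
    linarith
  set v : X := x - Θ x with hv
  have hlv : l v = δ := by
    rw [hv, map_sub, hl.2]
  have hvn : ‖v‖ ≤ 2 := by
    calc ‖v‖ ≤ ‖x‖ + ‖Θ x‖ := norm_sub_le _ _
      _ = 2 := by rw [hx, h1 x hx]; norm_num
  set t : ℝ := δ / 100 with ht
  have ht0 : 0 < t := by positivity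
  set z : X := x + t • v with hz
  have hlz : l z = 1 + t * δ := by
    rw [hz, map_add, map_smul, smul_eq_mul, hl.2, hlv]
  have hzlow : 1 + t * δ ≤ ‖z‖ := by
    rw [← hlz]; exact hl.le_norm z
  have hzup : ‖z‖ ≤ 1 + t * ‖v‖ := by
    calc ‖z‖ ≤ ‖x‖ + ‖t • v‖ := norm_add_le _ _
      _ = 1 + t * ‖v‖ := by rw [hx, norm_smul, Real.norm_eq_abs, abs_of_pos ht0]
  have hz0 : 0 < ‖z‖ := by nlinarith
  have hzne : ‖z‖ ≠ 0 := hz0.ne'
  set y' : X := (‖z‖)⁻¹ • z with hy'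
  have hy'n : ‖y'‖ = 1 := by
    rw [hy', norm_smul, norm_inv, norm_norm, inv_mul_cancel₀ hzne]
  -- distance from y' to x
  have hy'x : ‖y' - x‖ ≤ 2 * t * ‖v‖ := by
    have e : y' - z = (1 - ‖z‖) • y' := by
      rw [hy', sub_smul, one_smul, smul_smul, mul_inv_cancel₀ hzne, one_smul]
    have h11 : ‖y' - z‖ = |1 - ‖z‖| := by
      rw [e, norm_smul, hy'n, mul_one, Real.norm_eq_abs]
    have h12 : |1 - ‖z‖| ≤ t * ‖v‖ := by
      rw [abs_le]
      have : 0 ≤ t * δ := by positivity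
      constructor <;> linarith
    have h13 : ‖z - x‖ = t * ‖v‖ := by
      rw [hz, add_sub_cancel_left, norm_smul, Real.norm_eq_abs, abs_of_pos ht0]
    have h14 : ‖y' - x‖ ≤ ‖y' - z‖ + ‖z - x‖ := norm_sub_le_norm_sub_add_norm_sub _ _ _
    rw [h11, h13] at h14
    linarith
  -- a smooth point
  set η : ℝ := t * δ / 8 with hη
  have hη0 : 0 < η := by positivity
  obtain ⟨y, hyn, hyy', huniq⟩ := exists_smooth_near hy'n hη0
  obtain ⟨m, hm⟩ := exists_norms hyn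
  -- m norms Θ y
  obtain ⟨m', hm'y, hm'Θ⟩ := exists_norms_pair hyn (h1 y hyn) (h3 y hyn)
  have hmeq : m = m' := huniq m m' hm hm'y
  have hmΘ : m (Θ y) = 1 := by rw [hmeq]; exact hm'Θ.2
  -- lower bound of m v
  have hmy' : 1 - η ≤ m y' := by
    have e : m y' = m y + m (y' - y) := by rw [map_sub]; ring
    have e2 : |m (y' - y)| ≤ ‖y' - y‖ := by
      have a1 := hm.le_norm (y' - y)
      have a2 := hm.le_norm (y - y')
      rw [map_sub] at a2
      rw [norm_sub_rev] at a2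
      rw [map_sub] at a1
      rw [map_sub, abs_le]
      constructor <;> linarith
    have e3 : ‖y' - y‖ < η := by rw [norm_sub_rev]; exact hyy'
    have := (abs_le.mp e2).1
    rw [e, hm.2]
    linarith
  have hmz : m z = ‖z‖ * m y' := by
    rw [hy', map_smul, smul_eq_mul]
    field_simp
  have hmx : m x ≤ 1 := hm.1 x hx.le
  have hmzv : m z = m x + t * m v := by
    rw [hz, map_add, map_smul, smul_eq_mul]
  have hδ' : t * δ ≤ 1 := by
    have e1 : t ≤ 1 / 50 := by rw [ht]; linarith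
    have e2 : t * δ ≤ 1 / 50 * 2 :=
      mul_le_mul e1 hδ2 hδ0.le (by norm_num)
    linarith
  have hη1 : η ≤ 1 := by rw [hη]; linarith
  have hlow : t * δ - 2 * η ≤ t * m v :=
    low_real (by positivity) hδ' hη0.le hη1 hzlow hmy' (hmz.symm.trans hmzv) hmx
  -- upper bound of m v
  have hup : m v ≤ 2 * ‖y - x‖ := by
    have a1 := hm.le_norm (Θ y - Θ x)
    have a2 := hm.le_norm (x - y)
    rw [map_sub, hmΘ, h2 y x hyn hx] at a1
    rw [map_sub, hm.2, norm_sub_rev x y] at a2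
    have a3 : m v = m x - m (Θ x) := by rw [hv, map_sub]
    rw [a3]
    linarith
  have hyx : ‖y - x‖ ≤ η + 2 * t * ‖v‖ := by
    have : ‖y - x‖ ≤ ‖y - y'‖ + ‖y' - x‖ := norm_sub_le_norm_sub_add_norm_sub _ _ _
    linarith
  have hup2 : m v ≤ 2 * (η + 2 * t * ‖v‖) := by linarith
  rw [hη, ht] at hlow
  rw [hη, ht] at hup2
  exact numeric_contra hδ0 hδ2 hvn (norm_nonneg _) hlow hup2

/-- A strictly exposed point of the unit ball is a unit vector fixed by `Θ`. -/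
theorem exposed_fixed (h1 : ∀ x : X, ‖x‖ = 1 → ‖Θ x‖ = 1)
    (h2 : ∀ x x' : X, ‖x‖ = 1 → ‖x'‖ = 1 → ‖Θ x - Θ x'‖ = ‖x - x'‖)
    (h3 : ∀ x : X, ‖x‖ = 1 → ‖x + Θ x‖ = 2) {x0 : X} (hx0 : ‖x0‖ = 1) {p : X} (hp : ‖p‖ ≤ 1)
    {ψ : X →L[ℝ] ℝ} (hs : ∀ z : X, ‖z‖ ≤ 1 → z ≠ p → ψ z < ψ p) : ‖p‖ = 1 ∧ Θ p = p := by
  have hp0 : p ≠ 0 := by
    rintro rfl
    have hne : x0 ≠ 0 := by
      intro h; rw [h, norm_zero] at hx0; norm_num at hx0
    have a1 := hs x0 hx0.le hne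
    have a2 := hs (-x0) (by rw [norm_neg]; exact hx0.le) (neg_ne_zero.mpr hne)
    rw [map_neg, map_zero] at a2
    rw [map_zero] at a1
    linarith
  have hψ : 0 < ψ p := by
    have hne : -p ≠ p := by
      intro h
      have : (2 : ℝ) • p = 0 := by rw [two_smul]; nth_rewrite 1 [← h]; simp
      simpa [hp0] using this
    have := hs (-p) (by rw [norm_neg]; exact hp) hne
    rw [map_neg] at this
    linarith
  have hnp : 0 < ‖p‖ := norm_pos_iff.mpr hp0
  have hp1 : ‖p‖ = 1 := by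
    by_contra hne
    have hlt : ‖p‖ < 1 := lt_of_le_of_ne hp hne
    have hz : ‖(‖p‖)⁻¹ • p‖ = 1 := by
      rw [norm_smul, norm_inv, norm_norm, inv_mul_cancel₀ hnp.ne']
    have hzne : (‖p‖)⁻¹ • p ≠ p := by
      intro h
      rw [h] at hz
      exact hne hz
    have a := hs _ hz.le hzne
    rw [map_smul, smul_eq_mul] at a
    have hi : 1 < (‖p‖)⁻¹ := by
      rw [one_lt_inv₀ hnp]; exact hlt
    nlinarith
  refine ⟨hp1, ?_⟩
  set l : X →L[ℝ] ℝ := (ψ p)⁻¹ • ψ with hl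
  have hln : Norms l p := by
    constructor
    · intro z hz
      rw [hl, ContinuousLinearMap.smul_apply, smul_eq_mul, inv_mul_le_iff₀ hψ, mul_one]
      by_cases hzp : z = p
      · rw [hzp]
      · exact (hs z hz hzp).le
    · rw [hl, ContinuousLinearMap.smul_apply, smul_eq_mul, inv_mul_cancel₀ hψ.ne']
  have hΘ := norms_theta Θ h1 h2 h3 hp1 hln
  by_contra hne
  have a := hs (Θ p) (h1 p hp1).le hne
  rw [hl, ContinuousLinearMap.smul_apply, smul_eq_mul, inv_mul_eq_iff_eq_mul₀ hψ.ne', mul_one] at hΘ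
  linarith

/-- Every linear functional is almost maximal on the ball at a fixed point of `Θ`. -/
theorem approx_fixed (h1 : ∀ x : X, ‖x‖ = 1 → ‖Θ x‖ = 1)
    (h2 : ∀ x x' : X, ‖x‖ = 1 → ‖x'‖ = 1 → ‖Θ x - Θ x'‖ = ‖x - x'‖)
    (h3 : ∀ x : X, ‖x‖ = 1 → ‖x + Θ x‖ = 2) {x0 : X} (hx0 : ‖x0‖ = 1)
    (ψ0 : X →L[ℝ] ℝ) {ε : ℝ} (hε : 0 < ε) :
    ∃ p : X, ‖p‖ = 1 ∧ Θ p = p ∧ ∀ z : X, ‖z‖ ≤ 1 → ψ0 z ≤ ψ0 p + ε := by
  have _ : ProperSpace X := FiniteDimensional.proper_real X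
  let E : X ≃L[ℝ] EuclideanSpace ℝ (Fin (Module.finrank ℝ X)) := toEuclidean
  let c : ℝ := ‖(E : X →L[ℝ] EuclideanSpace ℝ (Fin (Module.finrank ℝ X)))‖
  have hc : ∀ z : X, ‖z‖ ≤ 1 → ‖E z‖ ≤ c := by
    intro z hz
    have := (E : X →L[ℝ] EuclideanSpace ℝ (Fin (Module.finrank ℝ X))).le_opNorm z
    have hc0 : 0 ≤ c := norm_nonneg _
    calc ‖E z‖ ≤ c * ‖z‖ := this
      _ ≤ c * 1 := mul_le_mul_of_nonneg_left hz hc0
      _ = c := mul_one _
  set T : ℝ := (c ^ 2 / 2 + 1) / ε with hT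
  have hT0 : 0 < T := by positivity
  let h : X → ℝ := fun z => T * ψ0 z + ‖E z‖ ^ 2 / 2
  have hcont : Continuous h := by
    apply Continuous.add
    · exact continuous_const.mul ψ0.continuous
    · exact ((continuous_norm.comp E.continuous).pow 2).div_const 2
  obtain ⟨p, hp, hmax⟩ := (isCompact_closedBall (0 : X) 1).exists_isMaxOn
    ⟨0, by simp⟩ hcont.continuousOn
  have hpn : ‖p‖ ≤ 1 := by simpa using hp
  let ψ : X →L[ℝ] ℝ := T • ψ0 + (innerSL ℝ (E p)).comp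
    (E : X →L[ℝ] EuclideanSpace ℝ (Fin (Module.finrank ℝ X)))
  have hψ : ∀ z : X, ψ z = T * ψ0 z + inner ℝ (E p) (E z) := by
    intro z
    simp [ψ]
  have hs : ∀ z : X, ‖z‖ ≤ 1 → z ≠ p → ψ z < ψ p := by
    intro z hz hne
    have hm : h z ≤ h p := hmax (by simpa using hz)
    have hid : ‖E z‖ ^ 2 = ‖E p‖ ^ 2 + 2 * inner ℝ (E p) (E (z - p)) + ‖E (z - p)‖ ^ 2 := by
      have e : E z = E p + E (z - p) := by rw [← map_add]; congr 1; abel
      rw [e, norm_add_sq_real]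
    have hpos : 0 < ‖E (z - p)‖ := by
      rw [norm_pos_iff]
      intro h0
      have : z - p = 0 := E.injective (h0.trans (map_zero E).symm)
      exact hne (sub_eq_zero.mp this)
    have hii : inner ℝ (E p) (E (z - p)) = inner ℝ (E p) (E z) - inner ℝ (E p) (E p) := by
      rw [map_sub, inner_sub_right]
    have hpp : inner ℝ (E p) (E p) = ‖E p‖ ^ 2 := real_inner_self_eq_norm_sq _
    rw [hψ, hψ, hpp]
    have hm' : T * ψ0 z + ‖E z‖ ^ 2 / 2 ≤ T * ψ0 p + ‖E p‖ ^ 2 / 2 := hm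
    rw [hid, hii, hpp] at hm'
    nlinarith [pow_pos hpos 2]
  obtain ⟨hp1, hfix⟩ := exposed_fixed Θ h1 h2 h3 hx0 hpn hs
  refine ⟨p, hp1, hfix, fun z hz => ?_⟩
  have hm : h z ≤ h p := hmax (by simpa using hz)
  have hm' : T * ψ0 z + ‖E z‖ ^ 2 / 2 ≤ T * ψ0 p + ‖E p‖ ^ 2 / 2 := hm
  have hEp : ‖E p‖ ^ 2 ≤ c ^ 2 := by
    have := hc p hpn
    have h0 : 0 ≤ ‖E p‖ := norm_nonneg _
    nlinarith
  have hEz : 0 ≤ ‖E z‖ ^ 2 := by positivity
  have key : T * ψ0 z ≤ T * ψ0 p + T * ε := by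
    have : T * ε = c ^ 2 / 2 + 1 := by
      rw [hT]; field_simp
    rw [this]
    nlinarith
  have : T * ψ0 z ≤ T * (ψ0 p + ε) := by rw [mul_add]; exact key
  exact le_of_mul_le_mul_left this hT0

/-- If `Θ` is an isometry of the sphere with `‖x + Θ x‖ = 2` whose fixed points are stable under
segments in the sphere, then `Θ` is the identity on the sphere. -/
theorem theta_eq_id (h1 : ∀ x : X, ‖x‖ = 1 → ‖Θ x‖ = 1)
    (h2 : ∀ x x' : X, ‖x‖ = 1 → ‖x'‖ = 1 → ‖Θ x - Θ x'‖ = ‖x - x'‖)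
    (h3 : ∀ x : X, ‖x‖ = 1 → ‖x + Θ x‖ = 2)
    (h4 : ∀ a b : X, ‖a‖ = 1 → ‖b‖ = 1 → ‖a + b‖ = 2 → Θ a = a → Θ b = b →
      ∀ t : ℝ, 0 ≤ t → t ≤ 1 → Θ ((1 - t) • a + t • b) = (1 - t) • a + t • b)
    {x : X} (hx : ‖x‖ = 1) : Θ x = x := by
  have _ : ProperSpace X := FiniteDimensional.proper_real X
  obtain ⟨l, hl⟩ := exists_norms hx
  let A : Set X := {p | ‖p‖ = 1 ∧ Θ p = p ∧ l p = 1}
  have hcont : ContinuousOn (fun p : X => Θ p - p) (sphere (0 : X) 1) := by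
    have : ContinuousOn Θ (sphere (0 : X) 1) := by
      rw [Metric.continuousOn_iff]
      intro a ha ε hε
      refine ⟨ε, hε, fun b hb hab => ?_⟩
      have ha1 : ‖a‖ = 1 := by simpa using ha
      have hb1 : ‖b‖ = 1 := by simpa using hb
      rw [dist_eq_norm, h2 b a hb1 ha1, ← dist_eq_norm]
      exact hab
    exact this.sub continuousOn_id
  have hFixClosed : IsClosed (sphere (0 : X) 1 ∩ (fun p : X => Θ p - p) ⁻¹' {0}) :=
    hcont.preimage_isClosed_of_isClosed isClosed_sphere isClosed_singleton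
  have hAeq : A = (sphere (0 : X) 1 ∩ (fun p : X => Θ p - p) ⁻¹' {0}) ∩ (fun p => l p) ⁻¹' {1} := by
    ext p
    simp only [A, mem_setOf_eq, mem_inter_iff, mem_sphere_iff_norm, sub_zero, mem_preimage,
      mem_singleton_iff, sub_eq_zero]
    tauto
  have hAclosed : IsClosed A := by
    rw [hAeq]
    exact hFixClosed.inter (isClosed_singleton.preimage l.continuous)
  have hAconv : Convex ℝ A := by
    intro a ha b hb s t hs ht hst
    obtain ⟨ha1, ha2, ha3⟩ := ha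
    obtain ⟨hb1, hb2, hb3⟩ := hb
    have hss : s = 1 - t := by linarith
    have hab : ‖a + b‖ = 2 := by
      have u1 : l (a + b) ≤ ‖a + b‖ := hl.le_norm _
      rw [map_add, ha3, hb3] at u1
      have u2 : ‖a + b‖ ≤ ‖a‖ + ‖b‖ := norm_add_le _ _
      rw [ha1, hb1] at u2
      linarith
    have hlc : l (s • a + t • b) = 1 := by
      rw [map_add, map_smul, map_smul, smul_eq_mul, smul_eq_mul, ha3, hb3]
      linarith
    have hnc : ‖s • a + t • b‖ ≤ 1 := by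
      calc ‖s • a + t • b‖ ≤ ‖s • a‖ + ‖t • b‖ := norm_add_le _ _
        _ = s + t := by
          rw [norm_smul, norm_smul, ha1, hb1, Real.norm_eq_abs, Real.norm_eq_abs, abs_of_nonneg hs,
            abs_of_nonneg ht]; ring
        _ = 1 := hst
    refine ⟨?_, ?_, hlc⟩
    · have u1 : l (s • a + t • b) ≤ ‖s • a + t • b‖ := hl.le_norm _
      rw [hlc] at u1
      linarith
    · rw [hss]
      exact h4 a b ha1 hb1 hab ha2 hb2 t ht (by linarith)
  -- every functional is at least its value at x somewhere on A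
  have hmain : ∀ φ : X →L[ℝ] ℝ, ∃ p ∈ A, φ x ≤ φ p := by
    intro φ
    have hp : ∀ n : ℕ, ∃ p : X, ‖p‖ = 1 ∧ Θ p = p ∧
        ∀ z : X, ‖z‖ ≤ 1 → ((n : ℝ) • l + φ) z ≤ ((n : ℝ) • l + φ) p + 1 / ((n : ℝ) + 1) := by
      intro n
      exact approx_fixed Θ h1 h2 h3 hx _ (by positivity)
    choose p hp1 hp2 hp3 using hp
    have hpS : ∀ n, p n ∈ sphere (0 : X) 1 := fun n => by simpa using hp1 n
    obtain ⟨q, hq, ψ', hψ', hlim⟩ := (isCompact_sphere (0 : X) 1).tendsto_subseq hpS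
    have hq1 : ‖q‖ = 1 := by simpa using hq
    -- q is fixed
    have hFix : q ∈ sphere (0 : X) 1 ∩ (fun p : X => Θ p - p) ⁻¹' {0} := by
      apply hFixClosed.mem_of_tendsto hlim
      exact Filter.Eventually.of_forall (fun n => ⟨hpS _, by simp [hp2]⟩)
    have hqfix : Θ q = q := by
      have := hFix.2
      simpa [sub_eq_zero] using this
    -- estimates at p n
    have hest : ∀ n : ℕ, (n : ℝ) * (1 - l (p n)) + φ x ≤ φ (p n) + 1 / ((n : ℝ) + 1) := by
      intro n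
      have := hp3 n x hx.le
      simp only [ContinuousLinearMap.add_apply, ContinuousLinearMap.smul_apply, smul_eq_mul,
        hl.2] at this
      linarith
    have hφbd : ∀ u : X, ‖u‖ ≤ 1 → |φ u| ≤ ‖φ‖ := by
      intro u hu
      calc |φ u| = ‖φ u‖ := rfl
        _ ≤ ‖φ‖ * ‖u‖ := φ.le_opNorm u
        _ ≤ ‖φ‖ * 1 := by gcongr
        _ = ‖φ‖ := mul_one _
    have hlp : ∀ n : ℕ, l (p n) ≤ 1 := fun n => hl.1 _ (hp1 n).le
    have hx2 : ∀ n : ℕ, φ x ≤ φ (p n) + 1 / ((n : ℝ) + 1) := by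
      intro n
      have a := hest n
      have b : 0 ≤ (n : ℝ) * (1 - l (p n)) :=
        mul_nonneg (Nat.cast_nonneg _) (by linarith [hlp n])
      linarith
    have hone : ∀ n : ℕ, (n : ℝ) * (1 - l (p n)) ≤ 2 * ‖φ‖ + 1 := by
      intro n
      have a := hest n
      have b1 := (abs_le.mp (hφbd (p n) (hp1 n).le)).2
      have b2 := (abs_le.mp (hφbd x hx.le)).1
      have b3 : 1 / ((n : ℝ) + 1) ≤ 1 := by
        rw [div_le_one (by positivity)]
        have : (0 : ℝ) ≤ n := Nat.cast_nonneg _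
        linarith
      linarith
    -- limits
    have hφlim : Tendsto (fun k => φ (p (ψ' k))) atTop (𝓝 (φ q)) :=
      (φ.continuous.tendsto q).comp hlim
    have hllim : Tendsto (fun k => l (p (ψ' k))) atTop (𝓝 (l q)) :=
      (l.continuous.tendsto q).comp hlim
    have hψ'top : Tendsto ψ' atTop atTop := hψ'.tendsto_atTop
    have h1n : Tendsto (fun n : ℕ => 1 / ((n : ℝ) + 1)) atTop (𝓝 0) :=
      tendsto_one_div_add_atTop_nhds_zero_nat
    have hφq : φ x ≤ φ q := by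
      have hs : Tendsto (fun k => φ (p (ψ' k)) + 1 / (((ψ' k : ℕ) : ℝ) + 1)) atTop (𝓝 (φ q + 0)) :=
        hφlim.add (h1n.comp hψ'top)
      rw [add_zero] at hs
      exact ge_of_tendsto' hs (fun k => hx2 (ψ' k))
    have hlq : l q = 1 := by
      apply le_antisymm (hl.1 q hq1.le)
      -- lower bound
      have hb : ∀ n : ℕ, 1 - (2 * ‖φ‖ + 1) * (1 / ((n : ℝ) + 1)) * 2 ≤ l (p n) ∨ n = 0 := by
        intro n
        by_cases hn : n = 0
        · right; exact hn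
        · left
          have hn1 : (1 : ℝ) ≤ n := by
            exact_mod_cast Nat.one_le_iff_ne_zero.mpr hn
          have a := hone n
          have hK : 0 ≤ 2 * ‖φ‖ + 1 := by positivity
          have hd : 0 < (n : ℝ) + 1 := by positivity
          have e : (2 * ‖φ‖ + 1) * (1 / ((n : ℝ) + 1)) * 2 = (2 * (2 * ‖φ‖ + 1)) / ((n : ℝ) + 1) := by
            field_simp
          rw [e, sub_le_comm, le_div_iff₀ hd]
          have h0 : 0 ≤ 1 - l (p n) := by linarith [hlp n]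
          have h2 : (1 - l (p n)) * ((n : ℝ) + 1) ≤ (1 - l (p n)) * (2 * (n : ℝ)) :=
            mul_le_mul_of_nonneg_left (by linarith) h0
          have h3 : (1 - l (p n)) * (2 * (n : ℝ)) = 2 * ((n : ℝ) * (1 - l (p n))) := by ring
          linarith
      have hs : Tendsto (fun k : ℕ => 1 - (2 * ‖φ‖ + 1) * (1 / (((ψ' k : ℕ) : ℝ) + 1)) * 2) atTop
          (𝓝 (1 - (2 * ‖φ‖ + 1) * 0 * 2)) :=
        (((h1n.comp hψ'top).const_mul _).mul_const _).const_sub _
      have hs' : (1 : ℝ) - (2 * ‖φ‖ + 1) * 0 * 2 = 1 := by ring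
      rw [hs'] at hs
      refine le_of_tendsto_of_tendsto hs hllim ?_
      have hev : ∀ᶠ k in atTop, ψ' k ≠ 0 := by
        have : ∀ᶠ k in atTop, 1 ≤ ψ' k := hψ'top.eventually_ge_atTop 1
        exact this.mono (fun k hk => by omega)
      exact hev.mono (fun k hk => (hb (ψ' k)).resolve_right hk)
    exact ⟨q, ⟨hq1, hqfix, hlq⟩, hφq⟩
  have hxA : x ∈ A := by
    by_contra hn
    obtain ⟨φ, u, hφ1, hφ2⟩ := geometric_hahn_banach_closed_point hAconv hAclosed hn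
    obtain ⟨p, hpA, hpx⟩ := hmain φ
    have := hφ1 p hpA
    linarith
  exact hxA.2.1

end Theta

/-- **Tingley's oddness theorem** for every finite-dimensional `X`, given that `f` is affine on the
segments contained in the unit sphere of `X` (Mankiewicz on faces, module `Mank`). -/
theorem IsSphereIso.odd_of_affine [FiniteDimensional ℝ X] {f : X → Y} (hf : IsSphereIso f)
    (haff : ∀ a b : X, ‖a‖ = 1 → ‖b‖ = 1 → ‖a + b‖ = 2 → ∀ t : ℝ, 0 ≤ t → t ≤ 1 →
      f ((1 - t) • a + t • b) = (1 - t) • f a + t • f b) {x : X} (hx : ‖x‖ = 1) :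
    f (-x) = - f x := by
  obtain ⟨g, hg⟩ := hf.exists_inv
  have hneg : ∀ u : X, ‖u‖ = 1 → ‖- f (-u)‖ = 1 := fun u hu => by
    rw [norm_neg]; exact hf.norm_eq _ (by rw [norm_neg]; exact hu)
  let Θ : X → X := fun u => g (- f (-u))
  have hfΘ : ∀ u : X, ‖u‖ = 1 → f (Θ u) = - f (-u) := fun u hu => (hg _ (hneg u hu)).2
  have h1 : ∀ u : X, ‖u‖ = 1 → ‖Θ u‖ = 1 := fun u hu => (hg _ (hneg u hu)).1
  have h2 : ∀ u u' : X, ‖u‖ = 1 → ‖u'‖ = 1 → ‖Θ u - Θ u'‖ = ‖u - u'‖ := by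
    intro u u' hu hu'
    rw [← hf.iso _ _ (h1 u hu) (h1 u' hu'), hfΘ u hu, hfΘ u' hu']
    have e : - f (-u) - - f (-u') = f (-u') - f (-u) := by abel
    rw [e, hf.iso _ _ (by rw [norm_neg]; exact hu') (by rw [norm_neg]; exact hu)]
    have e2 : -u' - -u = u - u' := by abel
    rw [e2]
  have h3 : ∀ u : X, ‖u‖ = 1 → ‖u + Θ u‖ = 2 := by
    intro u hu
    have hnu : ‖-u‖ = 1 := by rw [norm_neg]; exact hu
    have e1 := hf.iso (-u) (Θ u) hnu (h1 u hu)
    rw [hfΘ u hu, sub_neg_eq_add, ← two_smul ℝ (f (-u)), norm_smul, hf.norm_eq _ hnu] at e1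
    have e2 : -u - Θ u = -(u + Θ u) := by abel
    rw [e2, norm_neg] at e1
    rw [← e1]; norm_num
  have h4 : ∀ a b : X, ‖a‖ = 1 → ‖b‖ = 1 → ‖a + b‖ = 2 → Θ a = a → Θ b = b →
      ∀ t : ℝ, 0 ≤ t → t ≤ 1 → Θ ((1 - t) • a + t • b) = (1 - t) • a + t • b := by
    intro a b ha hb hab hΘa hΘb t ht0 ht1
    have hna : ‖-a‖ = 1 := by rw [norm_neg]; exact ha
    have hnb : ‖-b‖ = 1 := by rw [norm_neg]; exact hb
    have hnab : ‖-a + -b‖ = 2 := by
      have : -a + -b = -(a + b) := by abel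
      rw [this, norm_neg]; exact hab
    obtain ⟨l, hla, hlb⟩ := exists_norms_pair ha hb hab
    set m : X := (1 - t) • a + t • b with hm
    have hlm : l m = 1 := by
      rw [hm, map_add, map_smul, map_smul, smul_eq_mul, smul_eq_mul, hla.2, hlb.2]; ring
    have hmn1 : ‖m‖ ≤ 1 := by
      calc ‖m‖ ≤ ‖(1 - t) • a‖ + ‖t • b‖ := norm_add_le _ _
        _ = (1 - t) + t := by
          rw [norm_smul, norm_smul, ha, hb, Real.norm_eq_abs, Real.norm_eq_abs,
            abs_of_nonneg (by linarith), abs_of_nonneg ht0]; ring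
        _ = 1 := by ring
    have hmn : ‖m‖ = 1 := norm_eq_one_of_norms ⟨hla.1, hlm⟩ hmn1
    have ha' : f a = - f (-a) := by rw [← hfΘ a ha, hΘa]
    have hb' : f b = - f (-b) := by rw [← hfΘ b hb, hΘb]
    have hneg_m : -m = (1 - t) • (-a) + t • (-b) := by
      rw [hm, neg_add, smul_neg, smul_neg]
    have e1 : f (-m) = (1 - t) • f (-a) + t • f (-b) := by
      rw [hneg_m]; exact haff _ _ hna hnb hnab t ht0 ht1
    have e2 : f m = (1 - t) • f a + t • f b := haff a b ha hb hab t ht0 ht1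
    have e3 : f (Θ m) = f m := by
      rw [hfΘ m hmn, e1, e2, ha', hb']
      simp only [smul_neg, neg_add]
    have e4 : ‖Θ m - m‖ = 0 := by
      rw [← hf.iso _ _ (h1 m hmn) hmn, e3, sub_self, norm_zero]
    exact sub_eq_zero.mp (norm_eq_zero.mp e4)
  have hid := theta_eq_id Θ h1 h2 h3 h4 hx
  have := hfΘ x hx
  rw [hid] at this
  rw [this, neg_neg]

end Vale.Agent.Lib.P084.NS.OddA
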