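import Vale.Agent.Lib.P084.Dim4.Core

/-! Borsuk-Ulam on the quotient sphere, for every norm: no strict convexity and no far sets.
A function on `Ew w` which is even, constant on the fibres of the projection along `w` and invariant
under the unit distance relation is constant, when `0 < ‖w‖ < 1` and the dimension is at least four. -/

set_option linter.unusedSectionVars false

namespace Vale.Agent.Lib.P084.NS

open Metric Set Filter Topology
open Vale.Agent.Lib.P084.Dim4

section Abstract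

variable {Z T : Type*} [TopologicalSpace Z] [T2Space Z] [TopologicalSpace T] [CompactSpace T]

/-- A compact space `T` over `Z` with connected fibres, a distance on `T` and an involution. -/
structure FibData (θ : T → Z) (ρ : Z → Z) (ρ' : T → T) (d : T → T → ℝ) : Prop where
  θ_cont : Continuous θ
  θ_surj : Function.Surjective θ
  ρ_cont : Continuous ρ
  ρρ : ∀ z, ρ (ρ z) = z
  θρ : ∀ t, θ (ρ' t) = ρ (θ t)
  d_cont : Continuous fun p : T × T => d p.1 p.2
  d_symm : ∀ s t, d s t = d t s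
  d_self : ∀ s, d s s = 0
  far : ∀ t, 1 < d t (ρ' t)
  ivt : ∀ t₁ t₂ z, θ t₁ = θ t₂ → d t₁ z ≤ 1 → 1 ≤ d t₂ z → ∃ t, θ t = θ t₁ ∧ d t z = 1

variable {θ : T → Z} {ρ : Z → Z} {ρ' : T → T} {d : T → T → ℝ}

/-- A component of a strict sublevel set contains no pair `y, ρ y`. -/
lemma free_comp_fib [LocallyConnectedSpace Z] [PreconnectedSpace Z] (hD : FibData θ ρ ρ' d) {h : Z → ℝ} (hc : Continuous h)
    (heven : ∀ t, h (ρ t) = h t) (hrel : ∀ s t, d s t = 1 → h (θ s) = h (θ t)) {c : ℝ} {t₀ : Z}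
    (ht₀ : c ≤ h t₀) {y : Z} (hy : h y < c) :
    ρ y ∉ connectedComponentIn {t | h t < c} y := by
  intro hmem
  set A : Set Z := {t | h t < c} with hA
  have hAopen : IsOpen A := isOpen_lt hc continuous_const
  set W := connectedComponentIn A y with hW
  have hWopen : IsOpen W := hAopen.connectedComponentIn
  have hWconn : IsPreconnected W := isPreconnected_connectedComponentIn
  have hWsub : W ⊆ A := connectedComponentIn_subset A y
  have hyW : y ∈ W := mem_connectedComponentIn hy
  have hne : W ≠ univ := by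
    intro h1
    have : t₀ ∈ A := hWsub (by rw [h1]; trivial)
    exact absurd (show h t₀ < c from this) (not_lt.2 ht₀)
  -- boundary values
  have hbd : ∀ z ∈ frontier W, h z = c := by
    intro z hz
    have hzcl : z ∈ closure W := frontier_subset_closure hz
    have hznot : z ∉ W := by
      rw [hWopen.frontier_eq] at hz
      exact hz.2
    have hle : h z ≤ c := by
      have hsub : W ⊆ {t | h t ≤ c} := fun t ht => le_of_lt (show h t < c from hWsub ht)
      exact closure_minimal hsub (isClosed_le hc continuous_const) hzcl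
    by_contra hnec
    have hzA : z ∈ A := lt_of_le_of_ne hle hnec
    have hOpen : IsOpen (connectedComponentIn A z) := hAopen.connectedComponentIn
    obtain ⟨p, hp1, hp2⟩ := mem_closure_iff.1 hzcl _ hOpen (mem_connectedComponentIn hzA)
    have e1 : connectedComponentIn A z = connectedComponentIn A p := connectedComponentIn_eq hp1
    have e2 : W = connectedComponentIn A p := connectedComponentIn_eq hp2
    apply hznot
    rw [e2, ← e1]
    exact mem_connectedComponentIn hzA
  -- the component is symmetric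
  have hsym : ∀ a ∈ W, ρ a ∈ W := by
    have hconn : IsPreconnected (ρ '' W) := hWconn.image _ hD.ρ_cont.continuousOn
    have hsub : ρ '' W ⊆ A := by
      rintro _ ⟨a, ha, rfl⟩
      show h (ρ a) < c
      rw [heven]
      exact hWsub ha
    have e : W = connectedComponentIn A (ρ y) := connectedComponentIn_eq hmem
    intro a ha
    rw [e]
    exact hconn.subset_connectedComponentIn (mem_image_of_mem _ hyW) hsub (mem_image_of_mem _ ha)
  obtain ⟨v, hv⟩ : (frontier W).Nonempty := nonempty_frontier_iff.2 ⟨⟨y, hyW⟩, hne⟩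
  have hvcl : v ∈ closure W := frontier_subset_closure hv
  have hρvcl : ρ v ∈ closure W := map_mem_closure hD.ρ_cont hvcl hsym
  have hhv : h v = c := hbd v hv
  have hθcl : IsClosedMap θ := hD.θ_cont.isClosedMap
  set K₁ : Set T := {t | ∀ z, θ z = v → 1 ≤ d t z} with hK₁
  set K₂ : Set T := {t | ∀ z, θ z = v → d t z ≤ 1} with hK₂
  have hdz : ∀ z : T, Continuous fun t => d t z := fun z =>
    hD.d_cont.comp (Continuous.prodMk_left z)
  have hK₁c : IsClosed K₁ := by
    have : K₁ = ⋂ z : T, ⋂ _ : θ z = v, {t | 1 ≤ d t z} := by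
      ext t; simp [hK₁]
    rw [this]
    exact isClosed_iInter fun z => isClosed_iInter fun _ => isClosed_le continuous_const (hdz z)
  have hK₂c : IsClosed K₂ := by
    have : K₂ = ⋂ z : T, ⋂ _ : θ z = v, {t | d t z ≤ 1} := by
      ext t; simp [hK₂]
    rw [this]
    exact isClosed_iInter fun z => isClosed_iInter fun _ => isClosed_le (hdz z) continuous_const
  have hI₁ : IsClosed (θ '' K₁) := hθcl _ hK₁c
  have hI₂ : IsClosed (θ '' K₂) := hθcl _ hK₂c
  have hW₁ : ¬ W ⊆ θ '' K₁ := by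
    intro hsub
    obtain ⟨t, ht, rfl⟩ := closure_minimal hsub hI₁ hvcl
    have := ht t rfl
    rw [hD.d_self] at this
    linarith
  have hW₂ : ¬ W ⊆ θ '' K₂ := by
    intro hsub
    obtain ⟨t, ht, hθt⟩ := closure_minimal hsub hI₂ hρvcl
    have h1 : θ (ρ' t) = v := by rw [hD.θρ, hθt, hD.ρρ]
    have h2 := ht _ h1
    have h3 := hD.far t
    linarith
  obtain ⟨z₀, hz₀⟩ := hD.θ_surj v
  have hcover : W ⊆ (θ '' K₂)ᶜ ∪ (θ '' K₁)ᶜ := by
    intro y' hy'
    by_contra hcon
    simp only [mem_union, mem_compl_iff, not_or, not_not] at hcon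
    obtain ⟨⟨t₂, ht₂, e₂⟩, ⟨t₁, ht₁, e₁⟩⟩ := hcon
    obtain ⟨t, ht, htd⟩ := hD.ivt t₂ t₁ z₀ (e₂.trans e₁.symm) (ht₂ z₀ hz₀) (ht₁ z₀ hz₀)
    have h1 := hrel t z₀ htd
    rw [ht, e₂, hz₀, hhv] at h1
    exact absurd (show h y' < c from hWsub hy') (by rw [h1]; exact lt_irrefl _)
  have hne₂ : (W ∩ (θ '' K₂)ᶜ).Nonempty := by
    by_contra hcon
    apply hW₂
    intro a ha
    by_contra ha2
    exact hcon ⟨a, ha, ha2⟩
  have hne₁ : (W ∩ (θ '' K₁)ᶜ).Nonempty := by
    by_contra hcon
    apply hW₁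
    intro a ha
    by_contra ha2
    exact hcon ⟨a, ha, ha2⟩
  obtain ⟨y', hy'W, hy'2, hy'1⟩ :=
    hWconn _ _ hI₂.isOpen_compl hI₁.isOpen_compl hcover hne₂ hne₁
  obtain ⟨t, rfl⟩ := hD.θ_surj y'
  have h1 : ¬ t ∈ K₁ := fun ht => hy'1 (mem_image_of_mem _ ht)
  have h2 : ¬ t ∈ K₂ := fun ht => hy'2 (mem_image_of_mem _ ht)
  simp only [hK₁, hK₂, mem_ofPred_eq, not_forall, not_le] at h1 h2
  obtain ⟨z₁, hz₁, hlt₁⟩ := h1
  obtain ⟨z₂, hz₂, hlt₂⟩ := h2
  obtain ⟨z, hz, hzd⟩ := hD.ivt z₁ z₂ t (hz₁.trans hz₂.symm)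
    (by rw [hD.d_symm]; exact hlt₁.le) (by rw [hD.d_symm]; exact hlt₂.le)
  have h3 := hrel z t hzd
  rw [hz, hz₁, hhv] at h3
  exact absurd (show h (θ t) < c from hWsub hy'W) (by rw [← h3]; exact lt_irrefl _)

/-- The topological core, with fibres. -/
theorem even_const_fib [LocallyConnectedSpace Z] [PreconnectedSpace Z] (hD : FibData θ ρ ρ' d)
    (hBU : ∀ Ξ : Z → ℂ, Continuous Ξ → (∀ t, Ξ t ≠ 0) → (∀ t, Ξ (ρ t) = -Ξ t) → False)
    {h : Z → ℝ} (hc : Continuous h) (heven : ∀ t, h (ρ t) = h t)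
    (hrel : ∀ s t, d s t = 1 → h (θ s) = h (θ t)) (s t : Z) : h s = h t := by
  by_contra hne
  wlog hlt : h s < h t generalizing s t
  · exact this t s (Ne.symm hne) (lt_of_le_of_ne (not_lt.1 hlt) (Ne.symm hne))
  obtain ⟨c1, hc1, hc12⟩ := exists_between hlt
  obtain ⟨c2, hc2, hc23⟩ := exists_between hc12
  set A : Set Z := {x | h x < c2} with hA
  set B : Set Z := {x | -h x < -c1} with hB
  have hAo : IsOpen A := isOpen_lt hc continuous_const
  have hBo : IsOpen B := isOpen_lt hc.neg continuous_const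
  have hfreeA : ∀ y ∈ A, ρ y ∉ connectedComponentIn A y := fun y hy =>
    free_comp_fib hD hc heven hrel (t₀ := t) hc23.le hy
  have hfreeB : ∀ y ∈ B, ρ y ∉ connectedComponentIn B y := fun y hy =>
    free_comp_fib hD (h := fun x => -h x) hc.neg (fun x => by simp only [heven])
      (fun a b hab => by simp only [hrel a b hab]) (t₀ := s) (neg_le_neg hc1.le) hy
  obtain ⟨σA, hA1, hA2, hA3⟩ := exists_sign hD.ρ_cont hD.ρρ hAo
    (fun y hy => by simpa [hA, heven] using hy) hfreeA
  obtain ⟨σB, hB1, hB2, hB3⟩ := exists_sign hD.ρ_cont hD.ρρ hBo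
    (fun y hy => by simpa [hB, heven] using hy) hfreeB
  set a : Z → ℝ := fun x => max 0 (c2 - h x) with ha
  set b : Z → ℝ := fun x => max 0 (h x - c1) with hb
  have hac : Continuous a := continuous_const.max (continuous_const.sub hc)
  have hbc : Continuous b := continuous_const.max (hc.sub continuous_const)
  have ha0 : ∀ x, x ∉ A → a x = 0 := by
    intro x hx
    have : c2 ≤ h x := not_lt.1 hx
    simp only [ha]
    exact max_eq_left (by linarith)
  have hb0 : ∀ x, x ∉ B → b x = 0 := by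
    intro x hx
    have : -c1 ≤ -h x := not_lt.1 hx
    simp only [hb]
    exact max_eq_left (by linarith)
  have hp := continuous_mul_sign hac ha0 hA1 hA3
  have hq := continuous_mul_sign hbc hb0 hB1 hB3
  apply hBU (fun x => ((a x * σA x : ℝ) : ℂ) + ((b x * σB x : ℝ) : ℂ) * Complex.I)
  · exact (Complex.continuous_ofReal.comp hp).add
      ((Complex.continuous_ofReal.comp hq).mul continuous_const)
  · intro x h0
    have hre : a x * σA x = 0 := by
      have := congrArg Complex.re h0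
      simpa using this
    have him : b x * σB x = 0 := by
      have := congrArg Complex.im h0
      simpa using this
    by_cases hx : x ∈ A
    · have h1 : 0 < a x := lt_max_of_lt_right (by
        have : h x < c2 := hx
        linarith)
      have h2 : σA x ≠ 0 := by
        intro h3
        have := hA1 x hx
        rw [h3] at this
        simp at this
      exact mul_ne_zero h1.ne' h2 hre
    · have hx' : c2 ≤ h x := not_lt.1 hx
      have hxB : x ∈ B := by
        have : -h x < -c1 := by linarith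
        exact this
      have h1 : 0 < b x := lt_max_of_lt_right (by linarith)
      have h2 : σB x ≠ 0 := by
        intro h3
        have := hB1 x hxB
        rw [h3] at this
        simp at this
      exact mul_ne_zero h1.ne' h2 him
  · intro x
    have h1 : a (ρ x) * σA (ρ x) = -(a x * σA x) := by
      have e : a (ρ x) = a x := by simp only [ha, heven]
      rw [e]
      by_cases hx : x ∈ A
      · rw [hA2 x hx]; ring
      · rw [ha0 x hx]; ring
    have h2 : b (ρ x) * σB (ρ x) = -(b x * σB x) := by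
      have e : b (ρ x) = b x := by simp only [hb, heven]
      rw [e]
      by_cases hx : x ∈ B
      · rw [hB2 x hx]; ring
      · rw [hb0 x hx]; ring
    simp only [h1, h2]
    push_cast
    ring

end Abstract

section Concrete

variable {X : Type*} [NormedAddCommGroup X] [NormedSpace ℝ X]

lemma comb_lt {a b : X} (ha : ‖a‖ ≤ 1) (hb : ‖b‖ < 1) {l : ℝ} (h0 : 0 ≤ l) (h1 : l < 1) :
    ‖l • a + (1 - l) • b‖ < 1 := by
  have h2 : 0 < 1 - l := by linarith
  calc ‖l • a + (1 - l) • b‖ ≤ ‖l • a‖ + ‖(1 - l) • b‖ := norm_add_le _ _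
    _ = l * ‖a‖ + (1 - l) * ‖b‖ := by
        rw [norm_smul, norm_smul, Real.norm_of_nonneg h0, Real.norm_of_nonneg h2.le]
    _ < 1 := by nlinarith

lemma comb_le {a b : X} (ha : ‖a‖ ≤ 1) (hb : ‖b‖ ≤ 1) {l : ℝ} (h0 : 0 ≤ l) (h1 : l ≤ 1) :
    ‖l • a + (1 - l) • b‖ ≤ 1 := by
  have h2 : 0 ≤ 1 - l := by linarith
  calc ‖l • a + (1 - l) • b‖ ≤ ‖l • a‖ + ‖(1 - l) • b‖ := norm_add_le _ _
    _ = l * ‖a‖ + (1 - l) * ‖b‖ := by
        rw [norm_smul, norm_smul, Real.norm_of_nonneg h0, Real.norm_of_nonneg h2]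
    _ ≤ 1 := by nlinarith

/-- No point of the open lens projects to the projection of a point of `Ew w`. -/
lemma not_in_open_lens {w x u : X} (hx : x ∈ Ew w) {β : ℝ} (hu : u = x + β • w)
    (h1 : ‖u‖ < 1) (h2 : ‖u - w‖ < 1) : False := by
  have hx1 : ‖x‖ = 1 := hx.1
  have hx2 : ‖x - w‖ = 1 := hx.2
  subst hu
  by_cases h0 : 0 ≤ β
  · by_cases hb1 : β < 1
    · -- position `0` between `β - 1` and `β`
      have e : x = β • (x + β • w - w) + (1 - β) • (x + β • w) := by
        have : β • (x + β • w - w) + (1 - β) • (x + β • w) = x := by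
          module
        exact this.symm
      have := comb_lt h2.le h1 h0 hb1
      rw [← e, hx1] at this
      exact lt_irrefl _ this
    · -- position `0` between `-1` and `β - 1`
      have hb : 0 < β := by linarith
      have hb' : 1 ≤ β := not_lt.1 hb1
      set l : ℝ := (β - 1) / β with hl
      have hl0 : 0 ≤ l := div_nonneg (by linarith) hb.le
      have hl1 : l < 1 := by
        rw [hl, div_lt_one hb]
        linarith
      have e : x = l • (x - w) + (1 - l) • (x + β • w - w) := by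
        have h3 : l * β = β - 1 := by
          rw [hl]; field_simp
        have : l • (x - w) + (1 - l) • (x + β • w - w) = x + (β - 1 - l * β) • w := by
          module
        rw [this, h3]
        simp
      have := comb_lt hx2.le h2 hl0 hl1
      rw [← e, hx1] at this
      exact lt_irrefl _ this
  · have hb : β < 0 := not_le.1 h0
    by_cases hb1 : -1 ≤ β
    · -- position `-1` between `β - 1` and `β`
      have e : x - w = (β + 1) • (x + β • w - w) + (1 - (β + 1)) • (x + β • w) := by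
        have : (β + 1) • (x + β • w - w) + (1 - (β + 1)) • (x + β • w) = x - w := by
          module
        exact this.symm
      have := comb_lt h2.le h1 (by linarith : 0 ≤ β + 1) (by linarith : β + 1 < 1)
      rw [← e, hx2] at this
      exact lt_irrefl _ this
    · -- position `-1` between `β` and `0`
      have hb' : β < -1 := not_le.1 hb1
      set l : ℝ := 1 + 1 / β with hl
      have h3 : (1 - l) * β = -1 := by
        rw [hl]
        have hβ0 : β ≠ 0 := hb.ne
        calc (1 - (1 + 1 / β)) * β = -(β * β⁻¹) := by ring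
          _ = -1 := by rw [mul_inv_cancel₀ hβ0]
      have hl0 : 0 ≤ l := by
        rw [hl]
        have : -1 ≤ 1 / β := by
          rw [le_div_iff_of_neg hb]
          linarith
        linarith
      have hl1 : l < 1 := by
        rw [hl]
        have : 1 / β < 0 := by
          apply div_neg_of_pos_of_neg one_pos hb
        linarith
      have e : x - w = l • x + (1 - l) • (x + β • w) := by
        have : l • x + (1 - l) • (x + β • w) = x + ((1 - l) * β) • w := by
          module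
        rw [this, h3]
        simp [sub_eq_add_neg]
      have := comb_lt hx1.le h1 hl0 hl1
      rw [← e, hx2] at this
      exact lt_irrefl _ this

/-- Fibres are segments, first for a nonnegative parameter. -/
lemma fibre_aux {w t₁ t₂ : X} (ht₁ : t₁ ∈ Ew w) (ht₂ : t₂ ∈ Ew w) {a : ℝ} (ha : 0 ≤ a)
    (h : t₁ - t₂ = a • w) {s : ℝ} (hs0 : 0 ≤ s) (hs1 : s ≤ 1) :
    (1 - s) • t₁ + s • t₂ ∈ Ew w := by
  set r : ℝ := (1 - s) * a with hr
  have hr0 : 0 ≤ r := mul_nonneg (by linarith) ha
  have hra : r ≤ a := by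
    rw [hr]
    nlinarith
  have ht1 : t₁ = t₂ + a • w := by rw [← h]; abel
  have hx : (1 - s) • t₁ + s • t₂ = t₂ + r • w := by
    rw [ht1, hr]
    module
  rw [hx]
  have hup1 : ‖t₂ + r • w‖ ≤ 1 := by
    have := comb_le ht₁.1.le ht₂.1.le (l := 1 - s) (by linarith) (by linarith)
    have e : (1 - s) • t₁ + (1 - (1 - s)) • t₂ = t₂ + r • w := by
      rw [← hx]
      congr 2
      ring
    rwa [e] at this
  have hup2 : ‖t₂ + r • w - w‖ ≤ 1 := by
    have := comb_le ht₁.2.le ht₂.2.le (l := 1 - s) (by linarith) (by linarith)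
    have e : (1 - s) • (t₁ - w) + (1 - (1 - s)) • (t₂ - w) = t₂ + r • w - w := by
      rw [ht1, hr]
      module
    rwa [e] at this
  constructor
  · -- `t₂` lies between `t₂ - w` and `t₂ + r w`
    by_contra hne
    have hlt : ‖t₂ + r • w‖ < 1 := lt_of_le_of_ne hup1 hne
    set l : ℝ := r / (1 + r) with hl
    have h1r : 0 < 1 + r := by linarith
    have hl0 : 0 ≤ l := div_nonneg hr0 h1r.le
    have hl1 : l < 1 := by
      rw [hl, div_lt_one h1r]
      linarith
    have h3 : (1 - l) * r - l = 0 := by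
      rw [hl]
      field_simp
      ring
    have e : t₂ = l • (t₂ - w) + (1 - l) • (t₂ + r • w) := by
      have : l • (t₂ - w) + (1 - l) • (t₂ + r • w) = t₂ + ((1 - l) * r - l) • w := by
        module
      rw [this, h3]
      simp
    have := comb_lt ht₂.2.le hlt hl0 hl1
    rw [← e, ht₂.1] at this
    exact lt_irrefl _ this
  · -- `t₁ - w` lies between `t₂ + r w - w` and `t₁`
    by_contra hne
    have hlt : ‖t₂ + r • w - w‖ < 1 := lt_of_le_of_ne hup2 hne
    set l : ℝ := (a - r) / (a - r + 1) with hl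
    have h1r : 0 < a - r + 1 := by linarith
    have hl0 : 0 ≤ l := div_nonneg (by linarith) h1r.le
    have hl1 : l < 1 := by
      rw [hl, div_lt_one h1r]
      linarith
    have h3 : l * a + (1 - l) * (r - 1) = a - 1 := by
      rw [hl]
      field_simp
      ring
    have e : t₁ - w = l • t₁ + (1 - l) • (t₂ + r • w - w) := by
      have e1 : l • t₁ + (1 - l) • (t₂ + r • w - w) = t₂ + (l * a + (1 - l) * (r - 1)) • w := by
        rw [ht1]
        module
      rw [e1, h3, ht1]
      module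
    have := comb_lt ht₁.1.le hlt hl0 hl1
    rw [← e, ht₁.2] at this
    exact lt_irrefl _ this

/-- Fibres are segments. -/
lemma fibre_segment {w t₁ t₂ : X} (ht₁ : t₁ ∈ Ew w) (ht₂ : t₂ ∈ Ew w) {a : ℝ}
    (h : t₁ - t₂ = a • w) {s : ℝ} (hs0 : 0 ≤ s) (hs1 : s ≤ 1) :
    (1 - s) • t₁ + s • t₂ ∈ Ew w := by
  by_cases ha : 0 ≤ a
  · exact fibre_aux ht₁ ht₂ ha h hs0 hs1
  · have ha' : 0 ≤ -a := by linarith [not_le.1 ha]
    have h' : t₂ - t₁ = (-a) • w := by
      rw [neg_smul, ← h]; abel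
    have := fibre_aux ht₂ ht₁ ha' h' (s := 1 - s) (by linarith) (by linarith)
    have e : (1 - (1 - s)) • t₂ + (1 - s) • t₁ = (1 - s) • t₁ + s • t₂ := by
      rw [add_comm]
      congr 2
      ring
    rwa [e] at this

variable {E' : Type*} [NormedAddCommGroup E'] [NormedSpace ℝ E']

lemma pi_ne_zero_ns {w x : X} (hw2 : ‖w‖ < 2) (π : X →L[ℝ] E')
    (hker : ∀ x, π x = 0 ↔ ∃ a : ℝ, x = a • w) (hx : x ∈ Ew w) : π x ≠ 0 := by
  intro h0
  obtain ⟨a, rfl⟩ := (hker _).1 h0
  have h1 := hx.1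
  have h2 := hx.2
  have h3 : a • w - w = (a - 1) • w := by rw [sub_smul, one_smul]
  rw [h3, norm_smul] at h2
  rw [norm_smul] at h1
  have hn0 : 0 < ‖w‖ := by
    by_contra hn
    have : ‖w‖ = 0 := le_antisymm (not_lt.1 hn) (norm_nonneg _)
    rw [this] at h1
    simp at h1
  have h4 : ‖a‖ = ‖a - 1‖ := by
    have : ‖a‖ * ‖w‖ = ‖a - 1‖ * ‖w‖ := by rw [h1, h2]
    exact mul_right_cancel₀ hn0.ne' this
  have h5 : a = 1 / 2 := by
    rw [Real.norm_eq_abs, Real.norm_eq_abs] at h4
    rcases abs_eq_abs.1 h4 with h6 | h6 <;> linarith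
  rw [h5] at h1
  have h6 : ‖(1 / 2 : ℝ)‖ = 1 / 2 := by norm_num
  rw [h6] at h1
  linarith

/-- Existence of a point of `Ew w` over each ray. -/
lemma Ew_exists_ns [FiniteDimensional ℝ X] {w : X} (hw : w ≠ 0) (hw2 : ‖w‖ < 2) (π : X →L[ℝ] E')
    (hw0 : π w = 0) (hs : Function.Surjective π) {t : E'} (ht : t ≠ 0) :
    ∃ x ∈ Ew w, ∃ κ : ℝ, 0 < κ ∧ π x = κ • t := by
  obtain ⟨e, he⟩ := hs t
  set n : ℝ := ‖w‖ with hn
  have hn0 : 0 < n := norm_pos_iff.2 hw
  set u : X := n⁻¹ • w with hu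
  have hu1 : ‖u‖ = 1 := by
    rw [hu, norm_smul, norm_inv, norm_norm]
    exact inv_mul_cancel₀ hn0.ne'
  have hπu : π u = 0 := by rw [hu, map_smul, hw0, smul_zero]
  set v : ℝ → X := fun θ => Real.cos θ • u + Real.sin θ • e with hv
  have hπv : ∀ θ, π (v θ) = Real.sin θ • t := by
    intro θ
    simp only [hv, map_add, map_smul, hπu, smul_zero, zero_add, he]
  have hv0 : ∀ θ, v θ ≠ 0 := by
    intro θ h0
    have h1 := hπv θ
    rw [h0, map_zero] at h1
    have hsin : Real.sin θ = 0 := by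
      rcases smul_eq_zero.1 h1.symm with h2 | h2
      · exact h2
      · exact absurd h2 ht
    have hcos : Real.cos θ ≠ 0 := by
      intro h2
      have := Real.sin_sq_add_cos_sq θ
      rw [hsin, h2] at this
      norm_num at this
    have h3 : Real.cos θ • u = 0 := by
      have := h0
      simp only [hv, hsin, zero_smul, add_zero] at this
      exact this
    rcases smul_eq_zero.1 h3 with h4 | h4
    · exact hcos h4
    · rw [h4, norm_zero] at hu1
      norm_num at hu1
  have hvc : Continuous v := by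
    simp only [hv]
    fun_prop
  have hnv : ∀ θ, ‖v θ‖ ≠ 0 := fun θ => norm_ne_zero_iff.2 (hv0 θ)
  set y : ℝ → X := fun θ => ‖v θ‖⁻¹ • v θ with hy
  have hyc : Continuous y := by
    simp only [hy]
    exact (hvc.norm.inv₀ hnv).smul hvc
  have hy1 : ∀ θ, ‖y θ‖ = 1 := by
    intro θ
    simp only [hy]
    rw [norm_smul, norm_inv, norm_norm, inv_mul_cancel₀ (hnv θ)]
  have hy0 : y 0 = u := by
    simp only [hy, hv, Real.cos_zero, Real.sin_zero, one_smul, zero_smul, add_zero, hu1, inv_one]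
  have hyπ : y Real.pi = -u := by
    simp only [hy, hv, Real.cos_pi, Real.sin_pi, zero_smul, add_zero, neg_one_smul, norm_neg, hu1,
      inv_one, one_smul]
  have hψ0 : ‖y 0 - w‖ < 1 := by
    rw [hy0]
    have : u - w = (n⁻¹ - 1) • w := by rw [hu, sub_smul, one_smul]
    rw [this, norm_smul, Real.norm_eq_abs]
    have h1 : |n⁻¹ - 1| * ‖w‖ = |1 - n| := by
      rw [← hn]
      have : |n⁻¹ - 1| * n = |n⁻¹ - 1| * |n| := by rw [abs_of_pos hn0]
      rw [this, ← abs_mul, sub_mul, inv_mul_cancel₀ hn0.ne', one_mul]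
    rw [h1, abs_lt]
    constructor <;> linarith
  have hψπ : 1 < ‖y Real.pi - w‖ := by
    rw [hyπ]
    have : -u - w = -((n⁻¹ + 1) • w) := by rw [hu, add_smul, one_smul]; abel
    rw [this, norm_neg, norm_smul, Real.norm_of_nonneg (by positivity), add_mul,
      inv_mul_cancel₀ hn0.ne']
    linarith
  have hψc : Continuous fun θ => ‖y θ - w‖ := (hyc.sub continuous_const).norm
  obtain ⟨θ, hθ, hθ1⟩ := intermediate_value_Icc Real.pi_pos.le hψc.continuousOn
    (show (1 : ℝ) ∈ Icc _ _ from ⟨hψ0.le, hψπ.le⟩)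
  have hθ0 : θ ≠ 0 := by
    rintro rfl
    simp only at hθ1
    linarith
  have hθπ : θ ≠ Real.pi := by
    rintro rfl
    simp only at hθ1
    linarith
  have hsin : 0 < Real.sin θ :=
    Real.sin_pos_of_pos_of_lt_pi (lt_of_le_of_ne hθ.1 hθ0.symm) (lt_of_le_of_ne hθ.2 hθπ)
  refine ⟨y θ, ⟨hy1 θ, hθ1⟩, ‖v θ‖⁻¹ * Real.sin θ, ?_, ?_⟩
  · have : 0 < ‖v θ‖ := norm_pos_iff.2 (hv0 θ)
    positivity
  · simp only [hy]
    rw [map_smul, hπv, smul_smul]

end Concrete

section Main

variable {X : Type*} [NormedAddCommGroup X] [NormedSpace ℝ X]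
variable {E' : Type*} [NormedAddCommGroup E'] [InnerProductSpace ℝ E'] [FiniteDimensional ℝ E']
variable [FiniteDimensional ℝ X]

/-- A supporting functional of the lens, vanishing on `w`, at each point of `Ew w`. -/
lemma exists_support_ns {w : X} {π : X →L[ℝ] E'} (hw2 : ‖w‖ < 2)
    (hker : ∀ x, π x = 0 ↔ ∃ a : ℝ, x = a • w) (hsurj : Function.Surjective π)
    {x₀ : X} (hx₀ : x₀ ∈ Ew w) :
    ∃ v : E', 0 < inner ℝ v (π x₀) ∧ ∀ z ∈ Lens w, inner ℝ v (π z) ≤ inner ℝ v (π x₀) := by
  have hπw : π w = 0 := (hker w).2 ⟨1, by simp⟩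
  set I : Set X := ball 0 1 ∩ ball w 1 with hI
  have hIconv : Convex ℝ I := (convex_ball _ _).inter (convex_ball _ _)
  have hIopen : IsOpen I := isOpen_ball.inter isOpen_ball
  set U : Set E' := π '' I with hU
  have hUconv : Convex ℝ U := hIconv.linear_image π.toLinearMap
  have hUopen : IsOpen U := by
    have hopen : IsOpenMap (π.toLinearMap : X → E') :=
      LinearMap.isOpenMap_of_finiteDimensional π.toLinearMap hsurj
    exact hopen _ hIopen
  have hmemI : ∀ x, x ∈ I ↔ ‖x‖ < 1 ∧ ‖x - w‖ < 1 := by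
    intro x
    simp only [hI, mem_inter_iff, mem_ball_iff_norm, sub_zero]
  have hnot : π x₀ ∉ U := by
    rintro ⟨u, hu, hπu⟩
    have hu' := (hmemI u).1 hu
    have h0 : π (u - x₀) = 0 := by rw [map_sub, hπu, sub_self]
    obtain ⟨β, hβ⟩ := (hker _).1 h0
    have hrep : u = x₀ + β • w := by rw [← hβ]; abel
    exact not_in_open_lens hx₀ hrep hu'.1 hu'.2
  obtain ⟨f, hf⟩ := geometric_hahn_banach_open_point hUconv hUopen hnot
  set v : E' := (InnerProductSpace.toDual ℝ E').symm f with hv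
  have hvf : ∀ a, inner ℝ v a = f a := fun a => InnerProductSpace.toDual_symm_apply
  have hn : ‖(1 / 2 : ℝ) • w‖ < 1 := by
    rw [norm_smul]; norm_num; linarith
  have hhalf : (1 / 2 : ℝ) • w ∈ I := by
    rw [hmemI]
    refine ⟨hn, ?_⟩
    have e : (1 / 2 : ℝ) • w - w = -((1 / 2 : ℝ) • w) := by
      module
    rw [e, norm_neg]
    exact hn
  have hπhalf : π ((1 / 2 : ℝ) • w) = 0 := by rw [map_smul, hπw, smul_zero]
  have hpos : 0 < f (π x₀) := by
    have := hf _ (mem_image_of_mem π hhalf)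
    rw [hπhalf, map_zero] at this
    exact this
  refine ⟨v, by rw [hvf]; exact hpos, ?_⟩
  intro z hz
  rw [hvf, hvf]
  by_contra hcon
  have hlt : f (π x₀) < f (π z) := not_le.1 hcon
  have hzpos : 0 < f (π z) := by linarith
  set ε : ℝ := (f (π z) - f (π x₀)) / f (π z) with hε
  have hε0 : 0 < ε := div_pos (by linarith) hzpos
  have hε1 : ε < 1 := by
    rw [hε, div_lt_one hzpos]
    linarith
  set z' : X := (1 - ε) • z + ε • ((1 / 2 : ℝ) • w) with hz'
  have hz'I : z' ∈ I := by
    rw [hmemI]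
    constructor
    · calc ‖z'‖ ≤ ‖(1 - ε) • z‖ + ‖ε • ((1 / 2 : ℝ) • w)‖ := norm_add_le _ _
        _ = (1 - ε) * ‖z‖ + ε * ‖(1 / 2 : ℝ) • w‖ := by
            rw [norm_smul, norm_smul (ε : ℝ), Real.norm_of_nonneg (by linarith),
              Real.norm_of_nonneg hε0.le]
        _ < 1 := by
            have := hz.1
            nlinarith
    · have e : z' - w = (1 - ε) • (z - w) + ε • (-((1 / 2 : ℝ) • w)) := by
        rw [hz']
        module
      rw [e]
      calc ‖(1 - ε) • (z - w) + ε • (-((1 / 2 : ℝ) • w))‖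
          ≤ ‖(1 - ε) • (z - w)‖ + ‖ε • (-((1 / 2 : ℝ) • w))‖ := norm_add_le _ _
        _ = (1 - ε) * ‖z - w‖ + ε * ‖(1 / 2 : ℝ) • w‖ := by
            rw [norm_smul, norm_smul (ε : ℝ), norm_neg, Real.norm_of_nonneg (by linarith),
              Real.norm_of_nonneg hε0.le]
        _ < 1 := by
            have := hz.2
            nlinarith
  have h1 := hf _ (mem_image_of_mem π hz'I)
  rw [hz', map_add, map_smul, map_smul, hπhalf, smul_zero, add_zero, map_smul, smul_eq_mul] at h1
  have h2 : (1 - ε) * f (π z) = f (π x₀) := by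
    rw [hε]
    field_simp
    ring
  linarith

/-- Points of `Ew w` on one ray have the same projection. -/
lemma same_ray {w : X} {π : X →L[ℝ] E'} (hw2 : ‖w‖ < 2)
    (hker : ∀ x, π x = 0 ↔ ∃ a : ℝ, x = a • w) (hsurj : Function.Surjective π)
    {x x' : X} (hx : x ∈ Ew w) (hx' : x' ∈ Ew w) {κ : ℝ} (hκ : 0 < κ) (h : π x' = κ • π x) :
    κ = 1 := by
  obtain ⟨v, hv, hmax⟩ := exists_support_ns hw2 hker hsurj hx
  obtain ⟨v', hv', hmax'⟩ := exists_support_ns hw2 hker hsurj hx'
  have h1 := hmax x' (Ew_subset_Lens w hx')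
  rw [h, inner_smul_right] at h1
  have h2 := hmax' x (Ew_subset_Lens w hx)
  have e : π x = κ⁻¹ • π x' := by
    rw [h, smul_smul, inv_mul_cancel₀ hκ.ne', one_smul]
  rw [e, inner_smul_right] at h2
  have h3 : κ ≤ 1 := by nlinarith
  have h4 : κ⁻¹ ≤ 1 := by nlinarith
  have h5 : 1 ≤ κ := by
    by_contra hcon
    have h6 : κ < 1 := not_le.1 hcon
    have := (one_lt_inv₀ hκ).2 h6
    linarith
  linarith

/-- Constancy of even functions on `Ew w`, invariant under unit distance and constant on fibres,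
for every norm. -/
theorem even_rel_const_of_proj {k : ℕ} [Fact (Module.finrank ℝ E' = k + 1)] (hk : 2 ≤ k)
    {w : X} {π : X →L[ℝ] E'} (hw : w ≠ 0) (hw1 : ‖w‖ < 1)
    (hker : ∀ x, π x = 0 ↔ ∃ a : ℝ, x = a • w) (hsurj : Function.Surjective π)
    {f : X → ℝ} (hf : ContinuousOn f (Ew w)) (heven : ∀ x ∈ Ew w, f (w - x) = f x)
    (hrel : ∀ s ∈ Ew w, ∀ t ∈ Ew w, ‖s - t‖ = 1 → f s = f t)
    (hfib : ∀ s ∈ Ew w, ∀ t ∈ Ew w, (∃ a : ℝ, s - t = a • w) → f s = f t) :
    ∀ s ∈ Ew w, ∀ t ∈ Ew w, f s = f t := by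
  have hw2 : ‖w‖ < 2 := by linarith
  have hfd : Module.finrank ℝ E' = k + 1 := Fact.out
  have hdim3 : 3 ≤ Module.finrank ℝ E' := by omega
  have hnt : Nontrivial E' := by
    apply Module.nontrivial_of_finrank_pos (R := ℝ)
    omega
  have hπw : π w = 0 := (hker w).2 ⟨1, by simp⟩
  have hcomp : CompactSpace (Ew w) := isCompact_iff_compactSpace.1 (isCompact_Ew w)
  have hπ0 : ∀ z : Ew w, π (z : X) ≠ 0 := fun z => pi_ne_zero_ns hw2 π hker z.2
  have hn : ∀ z : Ew w, ‖‖π (z : X)‖⁻¹ • π (z : X)‖ = 1 := fun z => by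
    simpa using norm_smul_inv_norm (𝕜 := ℝ) (hπ0 z)
  let θ : Ew w → sphere (0 : E') 1 :=
    fun z => ⟨‖π (z : X)‖⁻¹ • π (z : X), by simpa using hn z⟩
  have hθc : Continuous θ := Continuous.subtype_mk
    (((π.continuous.comp continuous_subtype_val).norm.inv₀
      (fun z => norm_ne_zero_iff.2 (hπ0 z))).smul (π.continuous.comp continuous_subtype_val)) _
  have hsame : ∀ a b : Ew w, θ a = θ b → π (a : X) = π (b : X) := by
    intro a b hab
    have h1 : ‖π (a : X)‖⁻¹ • π (a : X) = ‖π (b : X)‖⁻¹ • π (b : X) := congrArg Subtype.val hab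
    have hna : 0 < ‖π (a : X)‖ := norm_pos_iff.2 (hπ0 a)
    have hnb : 0 < ‖π (b : X)‖ := norm_pos_iff.2 (hπ0 b)
    have hκ : π (b : X) = (‖π (b : X)‖ * ‖π (a : X)‖⁻¹) • π (a : X) := by
      rw [mul_smul, h1, smul_smul, mul_inv_cancel₀ hnb.ne', one_smul]
    have h2 := same_ray hw2 hker hsurj a.2 b.2 (by positivity) hκ
    rw [h2, one_smul] at hκ
    exact hκ.symm
  have hθs : Function.Surjective θ := by
    rintro ⟨t, ht⟩
    have ht1 : ‖t‖ = 1 := by simpa using ht
    have ht0 : t ≠ 0 := by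
      rintro rfl
      simp at ht1
    obtain ⟨x, hx, κ, hκ, hπx⟩ := Ew_exists_ns hw hw2 π hπw hsurj ht0
    refine ⟨⟨x, hx⟩, Subtype.ext ?_⟩
    show ‖π x‖⁻¹ • π x = t
    rw [hπx, norm_smul, ht1, Real.norm_of_nonneg hκ.le, mul_one, smul_smul,
      inv_mul_cancel₀ hκ.ne', one_smul]
  have hsameF : ∀ a b : Ew w, θ a = θ b → f a = f b := by
    intro a b hab
    have h1 := hsame a b hab
    have h0 : π ((a : X) - b) = 0 := by rw [map_sub, h1, sub_self]
    exact hfib a a.2 b b.2 ((hker _).1 h0)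
  -- the function on the sphere
  set inv : sphere (0 : E') 1 → Ew w := Function.surjInv hθs with hinv
  have hθinv : ∀ v, θ (inv v) = v := Function.surjInv_eq hθs
  set F : sphere (0 : E') 1 → ℝ := fun v => f (inv v) with hF
  have hFθ : ∀ t : Ew w, F (θ t) = f t := fun t => hsameF _ _ (hθinv (θ t))
  have hθq : Topology.IsQuotientMap θ := hθc.isClosedMap.isQuotientMap hθc hθs
  have hfc : Continuous fun z : Ew w => f z := continuousOn_iff_continuous_domRestrict.1 hf
  have hFc : Continuous F := by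
    rw [hθq.continuous_iff]
    have : F ∘ θ = fun z : Ew w => f z := funext hFθ
    rw [this]
    exact hfc
  -- the involution on `Ew w`
  let ρ' : Ew w → Ew w := fun z => ⟨w - z, Ew_rho z.2⟩
  have hθρ : ∀ t, θ (ρ' t) = -θ t := by
    intro t
    apply Subtype.ext
    show ‖π (w - (t : X))‖⁻¹ • π (w - (t : X)) = -(‖π (t : X)‖⁻¹ • π (t : X))
    rw [map_sub, hπw, zero_sub, norm_neg, smul_neg]
  have hD : FibData θ (fun v : sphere (0 : E') 1 => -v) ρ' (fun s t => ‖(s : X) - t‖) := by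
    refine ⟨hθc, hθs, continuous_neg, neg_neg, hθρ, ?_, ?_, ?_, ?_, ?_⟩
    · exact ((continuous_subtype_val.comp continuous_fst).sub
        (continuous_subtype_val.comp continuous_snd)).norm
    · intro s t
      exact norm_sub_rev _ _
    · intro s
      simp
    · intro t
      show 1 < ‖(t : X) - (w - t)‖
      have e : (t : X) - (w - t) = (t + t) - w := by abel
      have h2 : ‖(t : X) + t‖ = 2 := by
        rw [← two_smul ℝ (t : X), norm_smul, t.2.1]
        norm_num
      have h3 := norm_sub_norm_le ((t : X) + t) w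
      rw [e]
      linarith
    · intro t₁ t₂ z h12 h1 h2
      have hπ12 := hsame t₁ t₂ h12
      have h0 : π ((t₁ : X) - t₂) = 0 := by rw [map_sub, hπ12, sub_self]
      obtain ⟨a, ha⟩ := (hker _).1 h0
      set γ : ℝ → X := fun s => (1 - s) • (t₁ : X) + s • (t₂ : X) with hγ
      have hγc : Continuous fun s => ‖γ s - z‖ := by
        simp only [hγ]
        fun_prop
      have h01 : (1 : ℝ) ∈ Icc (‖γ 0 - z‖) (‖γ 1 - z‖) := by
        simp only [hγ, sub_zero, one_smul, zero_smul, add_zero, sub_self, zero_add]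
        exact ⟨h1, h2⟩
      obtain ⟨s, hs, hs1⟩ := intermediate_value_Icc zero_le_one hγc.continuousOn h01
      have hmem : γ s ∈ Ew w := fibre_segment t₁.2 t₂.2 ha hs.1 hs.2
      refine ⟨⟨γ s, hmem⟩, ?_, hs1⟩
      apply Subtype.ext
      show ‖π (γ s)‖⁻¹ • π (γ s) = ‖π (t₁ : X)‖⁻¹ • π (t₁ : X)
      have e : π (γ s) = π (t₁ : X) := by
        simp only [hγ, map_add, map_smul, ← hπ12]
        rw [← add_smul]
        simp
      rw [e]
  have hrank : 1 < Module.rank ℝ E' := by
    rw [← Module.finrank_eq_rank]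
    exact_mod_cast (by omega : 1 < Module.finrank ℝ E')
  have hconn : IsConnected (sphere (0 : E') 1) := isConnected_sphere hrank 0 zero_le_one
  have hcs : ConnectedSpace (sphere (0 : E') 1) := isConnected_iff_connectedSpace.1 hconn
  have hlc : LocallyConnectedSpace (sphere (0 : E') 1) :=
    ChartedSpace.locallyConnectedSpace (EuclideanSpace ℝ (Fin k)) (sphere (0 : E') 1)
  have hBU : ∀ Ξ : sphere (0 : E') 1 → ℂ, Continuous Ξ → (∀ t, Ξ t ≠ 0) →
      (∀ t, Ξ (-t) = -Ξ t) → False := fun Ξ hc h0 hodd => no_odd_sphere hdim3 Ξ hc h0 hodd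
  have hFeven : ∀ t, F (-t) = F t := by
    intro t
    obtain ⟨z, rfl⟩ := hθs t
    rw [← hθρ, hFθ, hFθ]
    exact heven z z.2
  have hFrel : ∀ s t : Ew w, ‖(s : X) - t‖ = 1 → F (θ s) = F (θ t) := by
    intro s t hst
    rw [hFθ, hFθ]
    exact hrel s s.2 t t.2 hst
  intro s hs t ht
  have h := even_const_fib hD hBU hFc hFeven hFrel (θ ⟨s, hs⟩) (θ ⟨t, ht⟩)
  rwa [hFθ, hFθ] at h

/-- Constancy of even functions on `Ew w`, for every norm, in dimension at least four. -/
theorem even_rel_const_ns (hdim : 4 ≤ Module.finrank ℝ X) {w : X} (hw : w ≠ 0) (hw1 : ‖w‖ < 1)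
    {f : X → ℝ} (hf : ContinuousOn f (Ew w)) (heven : ∀ x ∈ Ew w, f (w - x) = f x)
    (hrel : ∀ s ∈ Ew w, ∀ t ∈ Ew w, ‖s - t‖ = 1 → f s = f t)
    (hfib : ∀ s ∈ Ew w, ∀ t ∈ Ew w, (∃ a : ℝ, s - t = a • w) → f s = f t) :
    ∀ s ∈ Ew w, ∀ t ∈ Ew w, f s = f t := by
  obtain ⟨k, hk⟩ : ∃ k, Module.finrank ℝ X = k + 2 := ⟨Module.finrank ℝ X - 2, by omega⟩
  obtain ⟨π, h1, h2⟩ := exists_proj hw hk
  have : Fact (Module.finrank ℝ (EuclideanSpace ℝ (Fin (k + 1))) = k + 1) := ⟨by simp⟩
  exact even_rel_const_of_proj (by omega : 2 ≤ k) hw hw1 h1 h2 hf heven hrel hfib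

end Main

end Vale.Agent.Lib.P084.NS
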